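import Crest.Agent.R248.Shapes

/-! Algebras: globular sets with an action of the theory; comparison with models. -/

set_option autoImplicit false

universe u v w

namespace Crest.Agent.R248

open Crest.GeometryTopology.Coherator CategoryTheory CategoryTheory.Limits Opposite
open GlobTheory

/-- A globular set with an action of the operations of `C`. -/
structure Alg (C : GlobTheory.{u}) : Type (u + 1) where
  G : GlobSet.{u}
  act : ∀ {S T : Shape}, C.arr S T → GM T G → GM S G
  act_seq : ∀ {R S T : Shape} (f : C.arr R S) (g : C.arr S T) (ξ : GM T G),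
    act (C.seq f g) ξ = act f (act g ξ)
  act_ofShape : ∀ {S T : Shape} (f : S ⟶ T) (ξ : GM T G), act (C.ofShape f) ξ = (shMap f).comp ξ

variable {C : GlobTheory.{u}}

/-- Maps of algebras. -/
@[ext]
structure Hom (A B : Alg C) : Type u where
  g : GMap A.G B.G
  comm : ∀ {S T : Shape} (f : C.arr S T) (ξ : GM T A.G),
    (A.act f ξ).comp g = B.act f (ξ.comp g)

namespace Hom

/-- identity -/
def id (A : Alg C) : Hom A A := ⟨GMap.id _, fun _ _ => rfl⟩

/-- composition -/
def comp {A B D : Alg C} (f : Hom A B) (h : Hom B D) : Hom A D :=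
  ⟨f.g.comp h.g, fun o ξ => by rw [← GMap.comp_assoc, f.comm, h.comm]; rfl⟩

@[simp] theorem comp_g {A B D : Alg C} (f : Hom A B) (h : Hom B D) :
    (f.comp h).g = f.g.comp h.g := rfl
@[simp] theorem id_g (A : Alg C) : (Hom.id A).g = GMap.id _ := rfl

theorem congr_app {A B : Alg C} {f h : Hom A B} (e : f = h) (n : ℕ) (x : A.G.cell n) :
    f.g.app n x = h.g.app n x := by rw [e]

theorem comp_assoc {A B D E : Alg C} (f : Hom A B) (h : Hom B D) (k : Hom D E) :
    (f.comp h).comp k = f.comp (h.comp k) := rfl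

end Hom

namespace Alg

theorem act_one (A : Alg C) {S : Shape} (ξ : GM S A.G) : A.act (C.one S) ξ = ξ := by
  rw [← C.ofShape_id, A.act_ofShape]; rfl

/-- evaluation of an operation out of a globe -/
def op (A : Alg C) {k : ℕ} {T : Shape} (f : C.arr (Shape.globe k) T) (ξ : GM T A.G) : A.G.cell k :=
  (A.act f ξ).app k (top k)

theorem act_eq_single (A : Alg C) {k : ℕ} {T : Shape} (f : C.arr (Shape.globe k) T)
    (ξ : GM T A.G) : A.act f ξ = single (A.op f ξ) := (single_app_top _).symm

theorem act_app (A : Alg C) {S T : Shape} (f : C.arr S T) (ξ : GM T A.G) (k : ℕ)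
    (z : (gs S).cell k) : (A.act f ξ).app k z = A.op (C.seq (C.ofShape (cellMap z)) f) ξ := by
  rw [op, A.act_seq, A.act_ofShape, GMap.comp_app, shMap_cellMap_top]

theorem op_seq (A : Alg C) {k : ℕ} {S T : Shape} (f : C.arr (Shape.globe k) S) (g : C.arr S T)
    (ξ : GM T A.G) : A.op (C.seq f g) ξ = A.op f (A.act g ξ) := by
  rw [op, A.act_seq]; rfl

theorem op_ofShape (A : Alg C) {k : ℕ} {T : Shape} (f : Shape.globe k ⟶ T) (ξ : GM T A.G) :
    A.op (C.ofShape f) ξ = ξ.app k ((shMap f).app k (top k)) := by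
  rw [op, A.act_ofShape]; rfl

theorem op_cell (A : Alg C) {k : ℕ} {T : Shape} (z : (gs T).cell k) (ξ : GM T A.G) :
    A.op (C.ofShape (cellMap z)) ξ = ξ.app k z := by
  rw [op_ofShape, shMap_cellMap_top]

theorem op_one (A : Alg C) {k : ℕ} (ξ : GM (Shape.globe k) A.G) :
    A.op (C.one _) ξ = ξ.app k (top k) := by
  rw [op, act_one]

theorem src_op (A : Alg C) {k : ℕ} {T : Shape} (f : C.arr (Shape.globe (k + 1)) T)
    (ξ : GM T A.G) : A.G.src k (A.op f ξ) = A.op (C.seq (C.ofShape (Shape.σ k)) f) ξ := by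
  rw [op_seq, op_ofShape, shMap_σ_top, GMap.app_src]; rfl

theorem tgt_op (A : Alg C) {k : ℕ} {T : Shape} (f : C.arr (Shape.globe (k + 1)) T)
    (ξ : GM T A.G) : A.G.tgt k (A.op f ξ) = A.op (C.seq (C.ofShape (Shape.τ k)) f) ξ := by
  rw [op_seq, op_ofShape, shMap_τ_top, GMap.app_tgt]; rfl

end Alg

theorem Hom.map_op {A B : Alg C} (h : Hom A B) {k : ℕ} {T : Shape} (f : C.arr (Shape.globe k) T)
    (ξ : GM T A.G) : h.g.app k (A.op f ξ) = B.op f (ξ.comp h.g) :=
  GMap.congr_app (h.comm f ξ) k (top k)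

/-- a globular map commuting with the operations out of globes is a map of algebras -/
def Hom.ofOp {A B : Alg C} (g : GMap A.G B.G)
    (h : ∀ {k : ℕ} {T : Shape} (f : C.arr (Shape.globe k) T) (ξ : GM T A.G),
      g.app k (A.op f ξ) = B.op f (ξ.comp g)) : Hom A B :=
  ⟨g, fun f ξ => GMap.ext' fun k z => by rw [GMap.comp_app, A.act_app, B.act_app, h]⟩

section Models

theorem mact_seq (Y : GlobModel C) {R S T : Shape} (f : C.arr R S) (g : C.arr S T)
    (y : Y.functor.obj (op (⟨T⟩ : C.Ob))) : Y.act (C.seq f g) y = Y.act f (Y.act g y) := by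
  have := Y.functor.map_comp (Quiver.Hom.op (X := (⟨S⟩ : C.Ob)) (Y := (⟨T⟩ : C.Ob)) g)
    (Quiver.Hom.op (X := (⟨R⟩ : C.Ob)) (Y := (⟨S⟩ : C.Ob)) f)
  exact types_congr_hom this y

theorem mact_one (Y : GlobModel C) {S : Shape} (y : Y.functor.obj (op (⟨S⟩ : C.Ob))) :
    Y.act (C.one S) y = y := by
  have := Y.functor.map_id (op (⟨S⟩ : C.Ob))
  exact types_congr_hom this y

theorem mact_nat {X Y : GlobModel C} (φ : X ⟶ Y) {S T : Shape} (f : C.arr S T)
    (x : X.functor.obj (op (⟨T⟩ : C.Ob))) :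
    NatTrans.app φ (op (⟨S⟩ : C.Ob)) (X.act f x) = Y.act f (NatTrans.app φ (op (⟨T⟩ : C.Ob)) x) :=
  types_congr_hom (NatTrans.naturality φ
    (Quiver.Hom.op (X := (⟨S⟩ : C.Ob)) (Y := (⟨T⟩ : C.Ob)) f)) x

theorem cells_src (Y : GlobModel C) (n : ℕ) (y : Y.cells.cell (n + 1)) :
    Y.cells.src n y = Y.act (C.ofShape (Shape.σ n)) y := rfl

theorem cells_tgt (Y : GlobModel C) (n : ℕ) (y : Y.cells.cell (n + 1)) :
    Y.cells.tgt n y = Y.act (C.ofShape (Shape.τ n)) y := rfl

/-- an element of a model at a shape as a diagram of cells -/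
noncomputable def toGM (Y : GlobModel C) (S : Shape) (y : Y.functor.obj (op (⟨S⟩ : C.Ob))) :
    GM S Y.cells where
  app k z := Y.act (S := Shape.globe k) (C.ofShape (cellMap z)) y
  app_src k z := by
    refine Eq.trans ?_ (mact_seq Y (C.ofShape (Shape.σ k)) (C.ofShape (cellMap z)) y)
    rw [← C.ofShape_comp, σ_cellMap]
  app_tgt k z := by
    refine Eq.trans ?_ (mact_seq Y (C.ofShape (Shape.τ k)) (C.ofShape (cellMap z)) y)
    rw [← C.ofShape_comp, τ_cellMap]

theorem toGM_app (Y : GlobModel C) (S : Shape) (y : Y.functor.obj (op (⟨S⟩ : C.Ob))) (k : ℕ)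
    (z : (gs S).cell k) : (toGM Y S y).app k z = Y.act (S := Shape.globe k) (C.ofShape (cellMap z)) y := rfl

theorem toGM_ofShape (Y : GlobModel C) {S T : Shape} (f : S ⟶ T)
    (y : Y.functor.obj (op (⟨T⟩ : C.Ob))) :
    toGM Y S (Y.act (C.ofShape f) y) = (shMap f).comp (toGM Y T y) := by
  apply GMap.ext'
  intro k z
  rw [GMap.comp_app, toGM_app, toGM_app, ← mact_seq, ← C.ofShape_comp, cellMap_comp]

theorem toGM_top (Y : GlobModel C) {k : ℕ} (y : Y.cells.cell k) :
    (toGM Y (Shape.globe k) y).app k (top k) = y := by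
  rw [toGM_app, cellMap_top_self, C.ofShape_id]
  exact mact_one Y y

theorem toGM_globe (Y : GlobModel C) {k : ℕ} (y : Y.cells.cell k) :
    toGM Y (Shape.globe k) y = single y := globe_ext (toGM_top Y y)

theorem toGM_bijective (Y : GlobModel C) (S : Shape) : Function.Bijective (toGM Y S) := by
  induction S using shape_induction with
  | h1 k =>
    constructor
    · intro y y' h
      have := GMap.congr_app h k (top k)
      rwa [toGM_top, toGM_top] at this
    · intro ξ
      exact ⟨ξ.app k (top k), globe_ext (toGM_top Y _)⟩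
  | h2 S b h hb hh ih =>
    have hp := Y.sums S b h hb hh
    have hglobe : ∀ k, Function.Bijective (toGM Y (Shape.globe k)) := by
      intro k
      constructor
      · intro y y' h
        have := GMap.congr_app h k (top k)
        rwa [toGM_top, toGM_top] at this
      · intro ξ
        exact ⟨ξ.app k (top k), globe_ext (toGM_top Y _)⟩
    constructor
    · intro y y' e
      refine Types.ext_of_isPullback hp ?_ ?_
      · apply ih.1
        exact (toGM_ofShape Y _ y).trans (by rw [e]; exact (toGM_ofShape Y _ y').symm)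
      · apply (hglobe h).1
        exact (toGM_ofShape Y _ y).trans (by rw [e]; exact (toGM_ofShape Y _ y').symm)
    · intro ξ
      obtain ⟨y1, hy1⟩ := ih.2 ((shMap (S.inLeft b h hb hh)).comp ξ)
      obtain ⟨y2, hy2⟩ := (hglobe h).2 ((shMap (S.inRight b h hb hh)).comp ξ)
      obtain ⟨y, h1, h2⟩ := Types.exists_of_isPullback hp y1 y2 (by
        apply (hglobe b).1
        refine (toGM_ofShape Y _ y1).trans (Eq.trans ?_ (toGM_ofShape Y _ y2).symm)
        rw [hy1, hy2, ← GMap.comp_assoc, ← GMap.comp_assoc, ← shMap_comp, ← shMap_comp, glue_w])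
      refine ⟨y, glue_ext ?_ ?_⟩
      · rw [← hy1, ← h1]; exact (toGM_ofShape Y _ y).symm
      · rw [← hy2, ← h2]; exact (toGM_ofShape Y _ y).symm

/-- elements of a model at a shape are diagrams of cells -/
noncomputable def gmEquiv (Y : GlobModel C) (S : Shape) :
    Y.functor.obj (op (⟨S⟩ : C.Ob)) ≃ GM S Y.cells :=
  Equiv.ofBijective _ (toGM_bijective Y S)

theorem gmEquiv_apply (Y : GlobModel C) (S : Shape) (y : Y.functor.obj (op (⟨S⟩ : C.Ob))) :
    gmEquiv Y S y = toGM Y S y := rfl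

theorem toGM_symm (Y : GlobModel C) (S : Shape) (ξ : GM S Y.cells) :
    toGM Y S ((gmEquiv Y S).symm ξ) = ξ := (gmEquiv Y S).apply_symm_apply ξ

theorem symm_toGM (Y : GlobModel C) (S : Shape) (y : Y.functor.obj (op (⟨S⟩ : C.Ob))) :
    (gmEquiv Y S).symm (toGM Y S y) = y := (gmEquiv Y S).symm_apply_apply y

/-- the algebra of a model -/
noncomputable def toAlg (Y : GlobModel C) : Alg C where
  G := Y.cells
  act f ξ := toGM Y _ (Y.act f ((gmEquiv Y _).symm ξ))
  act_seq f g ξ := by rw [symm_toGM, mact_seq]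
  act_ofShape f ξ := by rw [toGM_ofShape, toGM_symm]

theorem toAlg_act (Y : GlobModel C) {S T : Shape} (f : C.arr S T)
    (y : Y.functor.obj (op (⟨T⟩ : C.Ob))) :
    (toAlg Y).act f (toGM Y T y) = toGM Y S (Y.act f y) := by
  change toGM Y _ (Y.act f ((gmEquiv Y _).symm (toGM Y T y))) = _
  rw [symm_toGM]

theorem toAlg_op (Y : GlobModel C) {k : ℕ} {T : Shape} (f : C.arr (Shape.globe k) T)
    (y : Y.functor.obj (op (⟨T⟩ : C.Ob))) :
    (toAlg Y).op f (toGM Y T y) = Y.act f y := by
  rw [Alg.op, toAlg_act]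
  exact toGM_top Y _

/-- the globular map of a map of models -/
noncomputable def cellsG {X Y : GlobModel C} (φ : X ⟶ Y) : GMap X.cells Y.cells where
  app := (GlobModel.cellsMap φ).app
  app_src := (GlobModel.cellsMap φ).app_src
  app_tgt := (GlobModel.cellsMap φ).app_tgt

theorem cellsG_app {X Y : GlobModel C} (φ : X ⟶ Y) (k : ℕ) (x : X.cells.cell k) :
    (cellsG φ).app k x = NatTrans.app φ (op (⟨Shape.globe k⟩ : C.Ob)) x := rfl

theorem toGM_comp {X Y : GlobModel C} (φ : X ⟶ Y) (S : Shape)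
    (x : X.functor.obj (op (⟨S⟩ : C.Ob))) :
    (toGM X S x).comp (cellsG φ) = toGM Y S (NatTrans.app φ (op (⟨S⟩ : C.Ob)) x) := by
  apply GMap.ext'
  intro k z
  rw [GMap.comp_app, toGM_app, toGM_app, cellsG_app, mact_nat]

/-- the map of algebras of a map of models -/
noncomputable def toAlgMap {X Y : GlobModel C} (φ : X ⟶ Y) : Hom (toAlg X) (toAlg Y) where
  g := cellsG φ
  comm f ξ := by
    obtain ⟨x, rfl⟩ := (toGM_bijective X _).2 ξ
    rw [toAlg_act]
    refine (toGM_comp φ _ _).trans ?_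
    rw [mact_nat, ← toAlg_act, ← toGM_comp]
    rfl

theorem toAlgMap_comp {X Y Z : GlobModel C} (φ : X ⟶ Y) (ψ : Y ⟶ Z) :
    toAlgMap (φ ≫ ψ) = (toAlgMap φ).comp (toAlgMap ψ) := rfl

theorem toAlgMap_injective {X Y : GlobModel C} {φ ψ : X ⟶ Y} (h : toAlgMap φ = toAlgMap ψ) :
    φ = ψ := by
  apply NatTrans.ext
  funext S
  obtain ⟨⟨S⟩⟩ := S
  ext x
  apply (toGM_bijective Y S).1
  have e : cellsG φ = cellsG ψ := congrArg Hom.g h
  exact (toGM_comp φ S x).symm.trans (by rw [e]; exact toGM_comp ψ S x)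

theorem toAlgMap_surjective {X Y : GlobModel C} (h : Hom (toAlg X) (toAlg Y)) :
    ∃ φ : X ⟶ Y, toAlgMap φ = h := by
  let φ : X.functor ⟶ Y.functor :=
    { app := fun S => ↾fun x => (gmEquiv Y S.unop.shape).symm ((toGM X S.unop.shape x).comp h.g)
      naturality := by
        rintro ⟨⟨T⟩⟩ ⟨⟨S⟩⟩ ⟨f⟩
        ext x
        apply (toGM_bijective Y S).1
        change toGM Y S ((gmEquiv Y S).symm ((toGM X S (X.act f x)).comp h.g)) =
          toGM Y S (Y.act f ((gmEquiv Y T).symm ((toGM X T x).comp h.g)))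
        rw [toGM_symm, ← toAlg_act]
        exact h.comm f (toGM X T x) }
  refine ⟨φ, ?_⟩
  apply Hom.ext
  apply GMap.ext'
  intro k x
  change (gmEquiv Y (Shape.globe k)).symm ((toGM X (Shape.globe k) x).comp h.g) = h.g.app k x
  apply (toGM_bijective Y _).1
  rw [toGM_symm, toGM_globe, toGM_globe]
  exact single_comp _ _

/-- the model of an algebra -/
noncomputable def toMod (A : Alg C) : GlobModel C where
  functor :=
    { obj := fun S => GM S.unop.shape A.G
      map := fun f => ↾(A.act f.unop)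
      map_id := fun S => by ext ξ : 3; exact A.act_one ξ
      map_comp := fun f g => by ext ξ : 3; exact A.act_seq g.unop f.unop ξ }
  sums S b h hb hh := by
    rw [Types.isPullback_iff]
    refine ⟨?_, ?_, ?_⟩
    · ext ξ : 3
      have aux : ∀ ζ : GM (S.glue b h hb hh) A.G,
          A.act (C.ofShape (S.hinge hb)) (A.act (C.ofShape (S.inLeft b h hb hh)) ζ) =
          A.act (C.ofShape (Shape.faceMap hh false)) (A.act (C.ofShape (S.inRight b h hb hh)) ζ) := by
        intro ζ
        rw [← A.act_seq, ← A.act_seq, ← C.ofShape_comp, ← C.ofShape_comp, glue_w]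
      exact aux ξ
    · rintro ξ ζ ⟨h1, h2⟩
      apply glue_ext
      · rw [← A.act_ofShape, ← A.act_ofShape]; exact h1
      · rw [← A.act_ofShape, ← A.act_ofShape]; exact h2
    · intro ξ ζ w
      obtain ⟨θ, h1, h2⟩ := glue_exists hb hh ξ ζ (by
        rw [← A.act_ofShape, ← A.act_ofShape]; exact w)
      exact ⟨θ, (A.act_ofShape _ _).trans h1, (A.act_ofShape _ _).trans h2⟩

theorem toMod_act (A : Alg C) {S T : Shape} (f : C.arr S T) (ξ : GM T A.G) :
    (toMod A).act f ξ = A.act f ξ := rfl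

/-- the map of models of a map of algebras -/
noncomputable def toModMap {A B : Alg C} (h : Hom A B) : toMod A ⟶ toMod B where
  app S := ↾fun ξ => GMap.comp ξ h.g
  naturality S T f := by ext ξ : 3; exact h.comm f.unop ξ

/-- evaluation at the top cell -/
noncomputable def evG (A : Alg C) : GMap (toMod A).cells A.G where
  app k ξ := GMap.app ξ k (top k)
  app_src k ξ := by
    rw [cells_src, toMod_act, A.act_ofShape, GMap.comp_app, shMap_σ_top, GMap.app_src]
  app_tgt k ξ := by
    rw [cells_tgt, toMod_act, A.act_ofShape, GMap.comp_app, shMap_τ_top, GMap.app_tgt]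

theorem toGM_evG (A : Alg C) (T : Shape) (θ : GM T A.G) :
    (toGM (toMod A) T θ).comp (evG A) = θ := by
  apply GMap.ext'
  intro k z
  rw [GMap.comp_app, toGM_app, toMod_act]
  exact A.op_cell z θ

/-- evaluation at the top cell, as a map of algebras -/
noncomputable def ev (A : Alg C) : Hom (toAlg (toMod A)) A where
  g := evG A
  comm f ξ := by
    obtain ⟨x, rfl⟩ := (toGM_bijective (toMod A) _).2 ξ
    rw [toAlg_act]
    refine (toGM_evG A _ _).trans ?_
    rw [toMod_act]
    exact congrArg _ (toGM_evG A _ _).symm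

theorem evG_bijective (A : Alg C) (k : ℕ) : Function.Bijective ((evG A).app k) :=
  ⟨fun _ _ h => globe_ext h, fun c => ⟨single c, rfl⟩⟩

/-- the inverse of `evG` -/
noncomputable def coevG (A : Alg C) : GMap A.G (toMod A).cells where
  app k c := single c
  app_src k c := (evG_bijective A k).1 (by rw [GMap.app_src]; rfl)
  app_tgt k c := (evG_bijective A k).1 (by rw [GMap.app_tgt]; rfl)

theorem coevG_evG (A : Alg C) : (coevG A).comp (evG A) = GMap.id _ := rfl

theorem evG_coevG (A : Alg C) : (evG A).comp (coevG A) = GMap.id _ :=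
  GMap.ext' fun _ ξ => single_app_top ξ

/-- the inverse of `ev` -/
noncomputable def coev (A : Alg C) : Hom A (toAlg (toMod A)) where
  g := coevG A
  comm f ξ := by
    have h := (ev A).comm f (ξ.comp (coevG A))
    have h2 := congrArg (fun t => GMap.comp t (coevG A)) h
    refine h2.symm.trans ?_
    exact congrArg (fun t => GMap.comp ((toAlg (toMod A)).act f (ξ.comp (coevG A))) t)
      (evG_coevG A)

/-- maps from a model to the model of an algebra -/
noncomputable def toHom {X : GlobModel C} {A : Alg C} (l : X ⟶ toMod A) : Hom (toAlg X) A :=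
  (toAlgMap l).comp (ev A)

theorem toHom_injective {X : GlobModel C} {A : Alg C} {l l' : X ⟶ toMod A}
    (h : toHom l = toHom l') : l = l' := by
  apply toAlgMap_injective
  apply Hom.ext
  apply GMap.ext'
  intro k x
  exact (evG_bijective A k).1 (Hom.congr_app h k x)

theorem toHom_surjective {X : GlobModel C} {A : Alg C} (h : Hom (toAlg X) A) :
    ∃ l : X ⟶ toMod A, toHom l = h := by
  obtain ⟨l, hl⟩ := toAlgMap_surjective (h.comp (coev A))
  exact ⟨l, by rw [toHom, hl]; rfl⟩

theorem toHom_comp_left {X Y : GlobModel C} {A : Alg C} (i : X ⟶ Y) (l : Y ⟶ toMod A) :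
    toHom (i ≫ l) = (toAlgMap i).comp (toHom l) := rfl

theorem toHom_comp_right {X : GlobModel C} {A B : Alg C} (l : X ⟶ toMod A) (p : Hom A B) :
    toHom (l ≫ toModMap p) = (toHom l).comp p := rfl

end Models

section Free

variable (C)

/-- the free algebra on a shape -/
noncomputable def FA (T : Shape) : Alg C := toAlg (GlobModel.freeOn C T)

/-- its generic diagram -/
noncomputable def gen (T : Shape) : GM T (FA C T).G := toGM (GlobModel.freeOn C T) T (C.one T)

variable {C}

/-- an operation as a cell of the free algebra -/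
def asCell {T : Shape} {k : ℕ} (f : C.arr (Shape.globe k) T) : (FA C T).G.cell k := f

/-- a cell of the free algebra as an operation -/
def asOp {T : Shape} {k : ℕ} (x : (FA C T).G.cell k) : C.arr (Shape.globe k) T := x

theorem FA_op_gen {T : Shape} {k : ℕ} (x : (FA C T).G.cell k) :
    (FA C T).op (asOp x) (gen C T) = x := by
  refine (toAlg_op (GlobModel.freeOn C T) (asOp x) (C.one T)).trans ?_
  exact C.seq_one _

theorem FA_src {T : Shape} {k : ℕ} (x : (FA C T).G.cell (k + 1)) :
    asOp ((FA C T).G.src k x) = C.seq (C.ofShape (Shape.σ k)) (asOp x) := rfl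

theorem FA_tgt {T : Shape} {k : ℕ} (x : (FA C T).G.cell (k + 1)) :
    asOp ((FA C T).G.tgt k x) = C.seq (C.ofShape (Shape.τ k)) (asOp x) := rfl

theorem FA_hom_app {T : Shape} {A : Alg C} (h : Hom (FA C T) A) {k : ℕ} (x : (FA C T).G.cell k) :
    h.g.app k x = A.op (asOp x) ((gen C T).comp h.g) := by
  rw [← h.map_op, FA_op_gen]

theorem FA_hom_ext {T : Shape} {A : Alg C} {h h' : Hom (FA C T) A}
    (e : (gen C T).comp h.g = (gen C T).comp h'.g) : h = h' := by
  apply Hom.ext
  apply GMap.ext'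
  intro k x
  rw [FA_hom_app, FA_hom_app, e]

/-- the globular map out of the free algebra -/
noncomputable def liftG {T : Shape} {A : Alg C} (ξ : GM T A.G) : GMap (FA C T).G A.G where
  app k x := A.op (asOp x) ξ
  app_src k x := by rw [A.src_op, FA_src]
  app_tgt k x := by rw [A.tgt_op, FA_tgt]

theorem toGM_liftG {S T : Shape} {A : Alg C} (ξ : GM T A.G) (f : C.arr S T) :
    (toGM (GlobModel.freeOn C T) S f).comp (liftG ξ) = A.act f ξ := by
  apply GMap.ext'
  intro k z
  rw [A.act_app]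
  rfl

/-- the map out of the free algebra determined by a diagram -/
noncomputable def lift {T : Shape} {A : Alg C} (ξ : GM T A.G) : Hom (FA C T) A where
  g := liftG ξ
  comm f θ := by
    obtain ⟨x, rfl⟩ := (toGM_bijective (GlobModel.freeOn C T) _).2 θ
    refine (congrArg (fun t => GMap.comp t (liftG ξ)) (toAlg_act _ f x)).trans ?_
    refine (toGM_liftG ξ _).trans ?_
    refine Eq.trans ?_ (congrArg _ (toGM_liftG ξ x).symm)
    exact A.act_seq _ _ _

theorem gen_lift {T : Shape} {A : Alg C} (ξ : GM T A.G) : (gen C T).comp (lift ξ).g = ξ :=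
  (toGM_liftG ξ _).trans (A.act_one ξ)

theorem lift_gen_app {T : Shape} {A : Alg C} (ξ : GM T A.G) (k : ℕ) (z : (gs T).cell k) :
    (lift ξ).g.app k ((gen C T).app k z) = ξ.app k z := GMap.congr_app (gen_lift ξ) k z

theorem lift_app {T : Shape} {A : Alg C} (ξ : GM T A.G) (k : ℕ) (x : (FA C T).G.cell k) :
    (lift ξ).g.app k x = A.op (asOp x) ξ := rfl

theorem lift_comp {T : Shape} {A B : Alg C} (ξ : GM T A.G) (h : Hom A B) :
    (lift ξ).comp h = lift (ξ.comp h.g) :=
  FA_hom_ext (by rw [gen_lift, Hom.comp_g, ← GMap.comp_assoc, gen_lift])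

/-- every admissible pair has a filler -/
def Contr (C : GlobTheory.{u}) : Prop :=
  ∀ p : C.Admissible, ∃ z, IsFillerAlong (TheoryMap.id C) p z

theorem FA_fill (hC : Contr C) {T : Shape} {n : ℕ} (hT : T.dim ≤ n + 1)
    (a b : (FA C T).G.cell n) (h : (FA C T).G.bdry n a = (FA C T).G.bdry n b) :
    (FA C T).G.Step n a b := by
  have hpar : C.OpsParallel n (asOp a) (asOp b) := by
    cases n with
    | zero => trivial
    | succ n => exact ⟨src_eq_of_bdry h, tgt_eq_of_bdry h⟩
  obtain ⟨z, hz1, hz2⟩ := hC ⟨n, T, hT, asOp a, asOp b, hpar⟩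
  exact ⟨asCell z, hz1, hz2⟩

theorem FA_Fill (hC : Contr C) {T : Shape} {n : ℕ} (hT : T.dim ≤ n + 1) :
    Fill (n + 1) (FA C T).G := by
  intro γ
  obtain ⟨c, h1, h2⟩ := FA_fill hC hT (lo γ) (hi γ) (bdry_hi γ).symm
  exact ⟨c, bdry_eq_iff.2 ⟨h1, h2⟩⟩

/-- left lifting property against trivial fibrations -/
def Cofib (X : Alg C) : Prop :=
  ∀ {A B : Alg C} (p : Hom A B), TrivFib p.g → ∀ f : Hom X B, ∃ l : Hom X A, l.comp p = f

theorem FA_cofib (T : Shape) : Cofib (FA C T) := by
  intro A B p hp f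
  obtain ⟨ξ, hξ⟩ := hp.lift_gmap ((gen C T).comp f.g)
  exact ⟨lift ξ, FA_hom_ext (by rw [lift_comp, gen_lift, hξ])⟩

end Free

section Pullback

variable {A B D : Alg C} (f : Hom A D) (h : Hom B D)

/-- pullback of globular sets -/
def pbG : GlobSet.{u} where
  cell k := {p : A.G.cell k × B.G.cell k // f.g.app k p.1 = h.g.app k p.2}
  src k p := ⟨(A.G.src k p.1.1, B.G.src k p.1.2), by rw [f.g.app_src, h.g.app_src, p.2]⟩
  tgt k p := ⟨(A.G.tgt k p.1.1, B.G.tgt k p.1.2), by rw [f.g.app_tgt, h.g.app_tgt, p.2]⟩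
  src_src k p := Subtype.ext (Prod.ext (A.G.src_src _ _) (B.G.src_src _ _))
  tgt_tgt k p := Subtype.ext (Prod.ext (A.G.tgt_tgt _ _) (B.G.tgt_tgt _ _))

/-- first projection -/
def pbFstG : GMap (pbG f h) A.G := ⟨fun _ p => p.1.1, fun _ _ => rfl, fun _ _ => rfl⟩
/-- second projection -/
def pbSndG : GMap (pbG f h) B.G := ⟨fun _ p => p.1.2, fun _ _ => rfl, fun _ _ => rfl⟩

variable {f h} in
/-- pairing -/
def pbLiftG {T : GlobSet.{v}} (a : GMap T A.G) (b : GMap T B.G) (w : a.comp f.g = b.comp h.g) :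
    GMap T (pbG f h) where
  app k z := ⟨(a.app k z, b.app k z), GMap.congr_app w k z⟩
  app_src k z := Subtype.ext (Prod.ext (a.app_src k z) (b.app_src k z))
  app_tgt k z := Subtype.ext (Prod.ext (a.app_tgt k z) (b.app_tgt k z))

theorem pb_w : (pbFstG f h).comp f.g = (pbSndG f h).comp h.g := GMap.ext' fun _ p => p.2

variable {f h} in
theorem pb_ext {T : GlobSet.{v}} {a b : GMap T (pbG f h)}
    (h1 : a.comp (pbFstG f h) = b.comp (pbFstG f h))
    (h2 : a.comp (pbSndG f h) = b.comp (pbSndG f h)) : a = b :=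
  GMap.ext' fun k z => Subtype.ext (Prod.ext (GMap.congr_app h1 k z) (GMap.congr_app h2 k z))

/-- pullback of algebras -/
noncomputable def pb : Alg C where
  G := pbG f h
  act o ξ := pbLiftG (A.act o (ξ.comp (pbFstG f h))) (B.act o (ξ.comp (pbSndG f h))) (by
    rw [f.comm, h.comm, GMap.comp_assoc, GMap.comp_assoc, pb_w])
  act_seq o o' ξ := pb_ext (A.act_seq _ _ _) (B.act_seq _ _ _)
  act_ofShape o ξ := pb_ext (A.act_ofShape _ _) (B.act_ofShape _ _)

/-- first projection -/
noncomputable def pbFst : Hom (pb f h) A := ⟨pbFstG f h, fun _ _ => rfl⟩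
/-- second projection -/
noncomputable def pbSnd : Hom (pb f h) B := ⟨pbSndG f h, fun _ _ => rfl⟩

variable {f h} in
/-- pairing -/
noncomputable def pbLift {E : Alg C} (a : Hom E A) (b : Hom E B) (w : a.comp f = b.comp h) : Hom E (pb f h) :=
  ⟨pbLiftG a.g b.g (congrArg Hom.g w), fun o ξ => pb_ext (a.comm o ξ) (b.comm o ξ)⟩

end Pullback

end Crest.Agent.R248
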