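import Crest.Agent.R248.Over

/-! One-sided cylinders of level `n` in a globular set with conjugation operations. -/

set_option autoImplicit false

universe u v w

namespace Crest.Agent.R248

open Crest.GeometryTopology.Coherator

/-- globular sets with conjugation operations -/
structure WG : Type (u + 1) where
  G : GlobSet.{u}
  cj : ∀ k, G.cell (k + 1) → G.cell (k + 1) → CellFun G
  cj_hom : ∀ k (u v : G.cell (k + 1)) (γ γ' : G.Sphere (k + 1)), lo γ = G.src k u →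
    hi γ = G.src k v → lo γ' = G.tgt k u → hi γ' = G.tgt k v → HomMap (cj k u v) γ γ'

/-- maps preserving conjugation -/
structure WMap (A B : WG.{u}) : Type u where
  g : GMap A.G B.G
  map_cj : ∀ k (u v : A.G.cell (k + 1)) (γ : A.G.Sphere (k + 1)), lo γ = A.G.src k u →
    hi γ = A.G.src k v → ∀ j x, Over γ j x →
      g.app j (A.cj k u v j x) = B.cj k (g.app _ u) (g.app _ v) j (g.app j x)

/-- stage of the construction of cylinders -/
structure Stage (A : WG.{u}) (k : ℕ) : Type (u + 1) where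
  Bd : Type u
  T : Bd → CellFun A.G
  b0 : Bd → A.G.Sphere k
  b1 : Bd → A.G.Sphere k
  hom : ∀ β, HomMap (T β) (b0 β) (b1 β)

/-- cylinders of level `n` over a stage -/
@[ext]
structure Cy {A : WG.{u}} (n : ℕ) {k : ℕ} (s : Stage A k) : Type u where
  β : s.Bd
  x0 : A.G.cell k
  x1 : A.G.cell k
  z : n ≤ k → A.G.cell (k + 1)
  h0 : A.G.bdry k x0 = s.b0 β
  hs : ∀ h, A.G.src k (z h) = s.T β k x0
  ht : ∀ h, A.G.tgt k (z h) = x1
  hlow : ¬ n ≤ k → x1 = s.T β k x0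

variable {A B D : WG.{u}} {n : ℕ}

theorem Cy.h1 {k : ℕ} {s : Stage A k} (c : Cy n s) : A.G.bdry k c.x1 = s.b1 c.β := by
  by_cases h : n ≤ k
  · rw [← c.ht h, bdry_tgt, c.hs h]; exact (s.hom _).base _ c.h0
  · rw [c.hlow h]; exact (s.hom _).base _ c.h0

/-- transport along a pair of parallel cylinders -/
def nextT {k : ℕ} {s : Stage A k} (c c' : Cy n s) : CellFun A.G :=
  if h : n ≤ k then fun j x => A.cj k (c.z h) (c'.z h) j (s.T c.β j x) else s.T c.β

/-- next stage -/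
def Stage.next (n : ℕ) {k : ℕ} (s : Stage A k) : Stage A (k + 1) where
  Bd := {p : Cy n s × Cy n s // p.1.β = p.2.β}
  T p := nextT p.1.1 p.1.2
  b0 p := mkS p.1.1.x0 p.1.2.x0 (by rw [p.1.1.h0, p.1.2.h0, p.2])
  b1 p := mkS p.1.1.x1 p.1.2.x1 (by rw [p.1.1.h1, p.1.2.h1, p.2])
  hom := by
    rintro ⟨⟨c, c'⟩, hp⟩
    have hp' : c.β = c'.β := hp
    have hpar : A.G.bdry k (s.T c.β k c.x0) = A.G.bdry k (s.T c.β k c'.x0) := by
      rw [(s.hom _).base _ c.h0, (s.hom _).base _ (hp' ▸ c'.h0)]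
    have h1 : HomMap (s.T c.β) (mkS c.x0 c'.x0 (by rw [c.h0, c'.h0, hp']))
        (mkS (s.T c.β k c.x0) (s.T c.β k c'.x0) hpar) := (s.hom c.β).restrict c.h0 rfl rfl
    by_cases h : n ≤ k
    · simp only [nextT, dif_pos h]
      exact h1.comp (A.cj_hom k _ _ _ _ (c.hs h).symm (by rw [c'.hs h, ← hp']; rfl)
        (c.ht h).symm (c'.ht h).symm)
    · simp only [nextT, dif_neg h]
      convert h1 using 1
      exact sphere_ext (c.hlow h) ((c'.hlow h).trans (by rw [← hp']; rfl))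

variable (A n) in
/-- the stages -/
def stage : (k : ℕ) → Stage A k
  | 0 => ⟨PUnit, fun _ _ x => x, fun _ => PUnit.unit, fun _ => PUnit.unit, fun _ => HomMap.id _⟩
  | k + 1 => (stage k).next n

variable (A n) in
/-- the globular set of cylinders of level `n` -/
def PG : GlobSet.{u} where
  cell k := Cy n (stage A n k)
  src _ c := c.β.1.1
  tgt _ c := c.β.1.2
  src_src _ c := congrArg (fun t => t.1.1) c.β.2
  tgt_tgt _ c := congrArg (fun t => t.1.2) c.β.2

variable (A n) in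
/-- first end of a cylinder -/
def p0 : GMap (PG A n) A.G where
  app _ c := c.x0
  app_src _ c := (congrArg lo c.h0).symm
  app_tgt _ c := (congrArg hi c.h0).symm

variable (A n) in
/-- second end of a cylinder -/
def p1 : GMap (PG A n) A.G where
  app _ c := c.x1
  app_src _ c := (congrArg lo c.h1).symm
  app_tgt _ c := (congrArg hi c.h1).symm

theorem PG_β_eq {k : ℕ} {c c' : (PG A n).cell k} (h : (PG A n).bdry k c = (PG A n).bdry k c') :
    c.β = c'.β := by
  cases k with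
  | zero => rfl
  | succ k => exact Subtype.ext (Prod.ext (src_eq_of_bdry h) (tgt_eq_of_bdry h))

/-- boundary data of a sphere -/
def pBd : (k : ℕ) → (PG A n).Sphere k → (stage A n k).Bd
  | 0, _ => PUnit.unit
  | _ + 1, γ => ⟨(lo γ, hi γ), PG_β_eq (bdry_hi γ).symm⟩

theorem PG_bdry_of_β {k : ℕ} {c : (PG A n).cell k} {γ : (PG A n).Sphere k} (h : c.β = pBd k γ) :
    (PG A n).bdry k c = γ := by
  cases k with
  | zero => rfl
  | succ k => exact sphere_ext (congrArg (fun t => t.1.1) h) (congrArg (fun t => t.1.2) h)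

theorem pBd_bdry {k : ℕ} (c : (PG A n).cell k) : pBd k ((PG A n).bdry k c) = c.β := by
  cases k with
  | zero => rfl
  | succ k => rfl

/-- transport along a sphere of cylinders -/
def PT {k : ℕ} (γ : (PG A n).Sphere k) : CellFun A.G := (stage A n k).T (pBd k γ)

theorem b0_pBd {k : ℕ} (γ : (PG A n).Sphere k) :
    (stage A n k).b0 (pBd k γ) = (p0 A n).sph k γ := by
  cases k with
  | zero => rfl
  | succ k => rfl

theorem b1_pBd {k : ℕ} (γ : (PG A n).Sphere k) :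
    (stage A n k).b1 (pBd k γ) = (p1 A n).sph k γ := by
  cases k with
  | zero => rfl
  | succ k => rfl

theorem PT_hom {k : ℕ} (γ : (PG A n).Sphere k) :
    HomMap (PT γ) ((p0 A n).sph k γ) ((p1 A n).sph k γ) := by
  rw [← b0_pBd, ← b1_pBd]
  exact (stage A n k).hom _

theorem PT_zero (γ : (PG A n).Sphere 0) : PT γ = fun _ x => x := rfl

/-- the connecting cell of a cylinder -/
def pz {k : ℕ} (c : (PG A n).cell k) (h : n ≤ k) : A.G.cell (k + 1) := c.z h

theorem PT_succ_of_le {k : ℕ} (γ : (PG A n).Sphere (k + 1)) (h : n ≤ k) :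
    PT γ = fun j x => A.cj k (pz (lo γ) h) (pz (hi γ) h) j (PT ((PG A n).bdry k (lo γ)) j x) := by
  have : PT γ = nextT (lo γ) (hi γ) := rfl
  rw [this, nextT, dif_pos h, PT, pBd_bdry]
  rfl

theorem PT_succ_of_not_le {k : ℕ} (γ : (PG A n).Sphere (k + 1)) (h : ¬ n ≤ k) :
    PT γ = PT ((PG A n).bdry k (lo γ)) := by
  have : PT γ = nextT (lo γ) (hi γ) := rfl
  rw [this, nextT, dif_neg h, PT, pBd_bdry]

theorem src_pz {k : ℕ} (c : (PG A n).cell k) (h : n ≤ k) :
    A.G.src k (pz c h) = PT ((PG A n).bdry k c) k ((p0 A n).app k c) := by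
  rw [PT, pBd_bdry]; exact c.hs h

theorem tgt_pz {k : ℕ} (c : (PG A n).cell k) (h : n ≤ k) :
    A.G.tgt k (pz c h) = (p1 A n).app k c := c.ht h

theorem p1_low {k : ℕ} (c : (PG A n).cell k) (h : ¬ n ≤ k) :
    (p1 A n).app k c = PT ((PG A n).bdry k c) k ((p0 A n).app k c) := by
  rw [PT, pBd_bdry]; exact c.hlow h

theorem PG_mk {k : ℕ} (γ : (PG A n).Sphere k) (x0 x1 : A.G.cell k) (z : n ≤ k → A.G.cell (k + 1))
    (h0 : A.G.bdry k x0 = (p0 A n).sph k γ) (hs : ∀ h, A.G.src k (z h) = PT γ k x0)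
    (ht : ∀ h, A.G.tgt k (z h) = x1) (hlow : ¬ n ≤ k → x1 = PT γ k x0) :
    ∃ c : (PG A n).cell k, (PG A n).bdry k c = γ ∧ (p0 A n).app k c = x0 ∧
      (p1 A n).app k c = x1 ∧ ∀ h, pz c h = z h :=
  ⟨⟨pBd k γ, x0, x1, z, h0.trans (b0_pBd γ).symm, hs, ht, hlow⟩, PG_bdry_of_β rfl, rfl, rfl,
    fun _ => rfl⟩

theorem PG_mk_of_le {k : ℕ} (hk : n ≤ k) (γ : (PG A n).Sphere k) (x0 : A.G.cell k)
    (z : A.G.cell (k + 1))
    (h0 : A.G.bdry k x0 = (p0 A n).sph k γ) (hs : A.G.src k z = PT γ k x0) :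
    ∃ c : (PG A n).cell k, (PG A n).bdry k c = γ ∧ (p0 A n).app k c = x0 ∧
      (p1 A n).app k c = A.G.tgt k z ∧ pz c hk = z := by
  obtain ⟨c, h1, h2, h3, h4⟩ := PG_mk γ x0 (A.G.tgt k z) (fun _ => z) h0 (fun _ => hs)
    (fun _ => rfl) (fun h => absurd hk h)
  exact ⟨c, h1, h2, h3, h4 hk⟩

theorem PG_mk_of_not_le {k : ℕ} (hk : ¬ n ≤ k) (γ : (PG A n).Sphere k) (x0 : A.G.cell k)
    (h0 : A.G.bdry k x0 = (p0 A n).sph k γ) :
    ∃ c : (PG A n).cell k, (PG A n).bdry k c = γ ∧ (p0 A n).app k c = x0 := by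
  obtain ⟨c, h1, h2, -, -⟩ := PG_mk γ x0 (PT γ k x0) (fun h => absurd h hk) h0
    (fun h => absurd h hk) (fun h => absurd h hk) (fun _ => rfl)
  exact ⟨c, h1, h2⟩

theorem PG_ext {k : ℕ} {c c' : (PG A n).cell k} (h : (PG A n).bdry k c = (PG A n).bdry k c')
    (h0 : (p0 A n).app k c = (p0 A n).app k c') (hz : ∀ hk, pz c hk = pz c' hk) : c = c' := by
  refine Cy.ext (PG_β_eq h) h0 ?_ (funext hz)
  by_cases hk : n ≤ k
  · exact (tgt_pz c hk).symm.trans (by rw [hz]; exact tgt_pz c' hk)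
  · exact (p1_low c hk).trans (by rw [h, h0]; exact (p1_low c' hk).symm)

theorem PT_low {k : ℕ} (hk : k ≤ n) (γ : (PG A n).Sphere k) : PT γ = fun _ x => x := by
  induction k with
  | zero => rfl
  | succ k ih => rw [PT_succ_of_not_le γ (by omega), ih (by omega)]

theorem p1_eq_p0 {k : ℕ} (hk : k < n) (c : (PG A n).cell k) :
    (p1 A n).app k c = (p0 A n).app k c := by
  rw [p1_low c (by omega), PT_low hk.le]

theorem p1_sph_eq_p0 {k : ℕ} (hk : k ≤ n) (γ : (PG A n).Sphere k) :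
    (p1 A n).sph k γ = (p0 A n).sph k γ := by
  cases k with
  | zero => rfl
  | succ k => exact sphere_ext (p1_eq_p0 hk _) (p1_eq_p0 hk _)

theorem p0_low_bij : ∀ k, k < n → Function.Bijective ((p0 A n).app k) ∧
    Function.Bijective ((p0 A n).sph (k + 1)) := by
  have aux : ∀ k, k < n → Function.Bijective ((p0 A n).sph k) →
      Function.Bijective ((p0 A n).app k) ∧ Function.Bijective ((p0 A n).sph (k + 1)) := by
    intro k hk ih
    have h1 : Function.Bijective ((p0 A n).app k) := by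
      constructor
      · intro c c' h
        refine PG_ext (ih.1 ?_) h (fun h => absurd h (by omega))
        rw [← GMap.bdry_app, ← GMap.bdry_app, h]
      · intro x
        obtain ⟨γ, hγ⟩ := ih.2 (A.G.bdry k x)
        obtain ⟨c, -, hc⟩ := PG_mk_of_not_le (by omega) γ x hγ.symm
        exact ⟨c, hc⟩
    refine ⟨h1, fun γ δ h => sphere_ext (h1.1 (congrArg lo h)) (h1.1 (congrArg hi h)), fun γ => ?_⟩
    obtain ⟨a, ha⟩ := h1.2 (lo γ)
    obtain ⟨b, hb⟩ := h1.2 (hi γ)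
    refine ⟨mkS a b (ih.1 ?_), sphere_ext ha hb⟩
    rw [← GMap.bdry_app, ← GMap.bdry_app, ha, hb, bdry_hi]
  intro k
  induction k with
  | zero => exact fun hk => aux 0 hk ⟨fun _ _ _ => rfl, fun _ => ⟨PUnit.unit, rfl⟩⟩
  | succ k ih => exact fun hk => aux _ hk (ih (by omega)).2

theorem p0_sph_low_bij {k : ℕ} (hk : k ≤ n) : Function.Bijective ((p0 A n).sph k) := by
  cases k with
  | zero => exact ⟨fun _ _ _ => rfl, fun _ => ⟨PUnit.unit, rfl⟩⟩
  | succ k => exact (p0_low_bij k hk).2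

section Functoriality

/-- a map of stages -/
structure StageMap (f : WMap A B) {k : ℕ} (s : Stage A k) (s' : Stage B k) : Type u where
  m : s.Bd → s'.Bd
  b0 : ∀ β, s'.b0 (m β) = f.g.sph k (s.b0 β)
  T : ∀ β j x, Over (s.b0 β) j x → f.g.app j (s.T β j x) = s'.T (m β) j (f.g.app j x)

/-- image of a cylinder -/
def StageMap.cy {f : WMap A B} {k : ℕ} {s : Stage A k} {s' : Stage B k} (φ : StageMap f s s')
    (c : Cy n s) : Cy n s' where
  β := φ.m c.β
  x0 := f.g.app k c.x0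
  x1 := f.g.app k c.x1
  z h := f.g.app (k + 1) (c.z h)
  h0 := by rw [φ.b0, f.g.bdry_app, c.h0]
  hs h := by rw [← f.g.app_src, c.hs, φ.T _ _ _ (.base _ c.h0)]
  ht h := by rw [← f.g.app_tgt, c.ht]
  hlow h := by rw [c.hlow h, φ.T _ _ _ (.base _ c.h0)]

/-- next stage of a map of stages -/
def StageMap.next {f : WMap A B} {k : ℕ} {s : Stage A k} {s' : Stage B k} (φ : StageMap f s s') :
    StageMap f (s.next n) (s'.next n) where
  m p := ⟨(φ.cy p.1.1, φ.cy p.1.2), congrArg φ.m p.2⟩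
  b0 p := rfl
  T := by
    rintro ⟨⟨c, c'⟩, hp⟩ j x hx
    have hp' : c.β = c'.β := hp
    have hx' : Over (s.b0 c.β) j x := by
      have := hx.down
      rw [← c.h0]; exact this
    change f.g.app j (nextT c c' j x) = nextT (φ.cy c) (φ.cy c') j (f.g.app j x)
    by_cases h : n ≤ k
    · simp only [nextT, dif_pos h]
      have hpar : A.G.bdry k (s.T c.β k c.x0) = A.G.bdry k (s.T c.β k c'.x0) := by
        rw [(s.hom _).base _ c.h0, (s.hom _).base _ (hp' ▸ c'.h0)]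
      have h1 : HomMap (s.T c.β) (mkS c.x0 c'.x0 (by rw [c.h0, c'.h0, hp']))
          (mkS (s.T c.β k c.x0) (s.T c.β k c'.x0) hpar) := (s.hom c.β).restrict c.h0 rfl rfl
      rw [f.map_cj k (c.z h) (c'.z h) (mkS (s.T c.β k c.x0) (s.T c.β k c'.x0) hpar) (c.hs h).symm
        (by rw [c'.hs h, ← hp']; rfl) j _ (h1.over hx), φ.T _ _ _ hx']
      rfl
    · simp only [nextT, dif_neg h]
      exact φ.T _ _ _ hx'

variable (n) in
/-- the maps of stages -/
def stageMap (f : WMap A B) : (k : ℕ) → StageMap f (stage A n k) (stage B n k)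
  | 0 => ⟨fun _ => PUnit.unit, fun _ => rfl, fun _ _ _ _ => rfl⟩
  | k + 1 => (stageMap f k).next

variable (n) in
/-- the map on cylinders -/
def Pmap (f : WMap A B) : GMap (PG A n) (PG B n) where
  app k c := (stageMap n f k).cy c
  app_src _ _ := rfl
  app_tgt _ _ := rfl

theorem p0_Pmap (f : WMap A B) {k : ℕ} (c : (PG A n).cell k) :
    (p0 B n).app k ((Pmap n f).app k c) = f.g.app k ((p0 A n).app k c) := rfl

theorem p1_Pmap (f : WMap A B) {k : ℕ} (c : (PG A n).cell k) :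
    (p1 B n).app k ((Pmap n f).app k c) = f.g.app k ((p1 A n).app k c) := rfl

theorem pz_Pmap (f : WMap A B) {k : ℕ} (c : (PG A n).cell k) (h : n ≤ k) :
    pz ((Pmap n f).app k c) h = f.g.app (k + 1) (pz c h) := rfl

theorem Pmap_p0 (f : WMap A B) : (Pmap n f).comp (p0 B n) = (p0 A n).comp f.g := rfl

theorem Pmap_p1 (f : WMap A B) : (Pmap n f).comp (p1 B n) = (p1 A n).comp f.g := rfl

theorem p0_sph_Pmap (f : WMap A B) {k : ℕ} (γ : (PG A n).Sphere k) :
    (p0 B n).sph k ((Pmap n f).sph k γ) = f.g.sph k ((p0 A n).sph k γ) := by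
  rw [← GMap.sph_comp, ← GMap.sph_comp, Pmap_p0]

theorem p1_sph_Pmap (f : WMap A B) {k : ℕ} (γ : (PG A n).Sphere k) :
    (p1 B n).sph k ((Pmap n f).sph k γ) = f.g.sph k ((p1 A n).sph k γ) := by
  rw [← GMap.sph_comp, ← GMap.sph_comp, Pmap_p1]

theorem PT_Pmap (f : WMap A B) {k : ℕ} (γ : (PG A n).Sphere k) {j : ℕ} {x : A.G.cell j}
    (hx : Over ((p0 A n).sph k γ) j x) :
    f.g.app j (PT γ j x) = PT ((Pmap n f).sph k γ) j (f.g.app j x) := by
  rw [← b0_pBd] at hx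
  have := (stageMap n f k).T _ _ _ hx
  cases k with
  | zero => exact this
  | succ k => exact this

theorem PG_ext_gmap {T : GlobSet.{v}} {ξ ζ : GMap T (PG A n)}
    (h0 : ξ.comp (p0 A n) = ζ.comp (p0 A n))
    (hz : ∀ k t hk, pz (ξ.app k t) hk = pz (ζ.app k t) hk) : ξ = ζ := by
  apply GMap.ext'
  intro k
  induction k with
  | zero => exact fun t => PG_ext rfl (GMap.congr_app h0 0 t) (hz 0 t)
  | succ k ih =>
    refine fun t => PG_ext (sphere_ext ?_ ?_) (GMap.congr_app h0 _ t) (hz _ t)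
    · rw [lo_bdry, lo_bdry, ← GMap.app_src, ← GMap.app_src, ih]
    · rw [hi_bdry, hi_bdry, ← GMap.app_tgt, ← GMap.app_tgt, ih]

theorem Pmap_comp (f : WMap A B) (g : WMap B D) (h : WMap A D) (e : f.g.comp g.g = h.g) :
    (Pmap n f).comp (Pmap n g) = Pmap n h := by
  apply PG_ext_gmap
  · rw [Pmap_p0, ← e]; rfl
  · intro k t hk
    rw [pz_Pmap, ← e]; rfl

end Functoriality

section Properties

/-- conjugation at level `i` is bijective on classes of `j`-cells -/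
def DivC (A : WG.{u}) (i j : ℕ) : Prop :=
  ∀ (u v : A.G.cell (i + 1)) (γ γ' : A.G.Sphere (i + 1)), lo γ = A.G.src i u →
    hi γ = A.G.src i v → lo γ' = A.G.tgt i u → hi γ' = A.G.tgt i v → EqvAt (A.cj i u v) γ γ' j

theorem PT_eqv (hG : Gpd A.G) {j : ℕ} {k : ℕ} (hdiv : ∀ i, n ≤ i → i < k → DivC A i j)
    (γ : (PG A n).Sphere k) : EqvAt (PT γ) ((p0 A n).sph k γ) ((p1 A n).sph k γ) j := by
  induction k with
  | zero => exact EqvAt.id hG _ _
  | succ k ih =>
    have ih' := ih (fun i h1 h2 => hdiv i h1 (by omega)) ((PG A n).bdry k (lo γ))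
    have hom := PT_hom ((PG A n).bdry k (lo γ))
    have e0 : A.G.bdry k (lo ((p0 A n).sph (k + 1) γ)) =
        (p0 A n).sph k ((PG A n).bdry k (lo γ)) := by rw [GMap.lo_sph, GMap.bdry_app]
    by_cases h : n ≤ k
    · rw [PT_succ_of_le γ h]
      have hpar : A.G.bdry k (A.G.src k (pz (lo γ) h)) = A.G.bdry k (A.G.src k (pz (hi γ) h)) := by
        rw [← bdry_tgt, ← bdry_tgt, tgt_pz, tgt_pz, GMap.bdry_app, GMap.bdry_app, bdry_hi]
      have e1 : lo (mkS _ _ hpar) =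
          PT ((PG A n).bdry k (lo γ)) k (lo ((p0 A n).sph (k + 1) γ)) := src_pz _ _
      have e2 : hi (mkS _ _ hpar) =
          PT ((PG A n).bdry k (lo γ)) k (hi ((p0 A n).sph (k + 1) γ)) := by
        rw [hi_mkS, src_pz, bdry_hi]; rfl
      exact EqvAt.comp hG (hom.restrict e0 e1 e2)
        (A.cj_hom k _ _ _ ((p1 A n).sph (k + 1) γ) rfl rfl (tgt_pz (lo γ) h).symm
          (tgt_pz (hi γ) h).symm)
        (ih'.restrict e0 e1 e2)
        (hdiv k h (Nat.lt_succ_self k) _ _ _ ((p1 A n).sph (k + 1) γ) rfl rfl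
          (tgt_pz (lo γ) h).symm (tgt_pz (hi γ) h).symm)
    · rw [PT_succ_of_not_le γ h]
      refine ih'.restrict (γ0' := (p1 A n).sph (k + 1) γ) e0 (p1_low (lo γ) h) ?_
      rw [GMap.hi_sph, p1_low _ h, bdry_hi]; rfl

theorem p0_trivFib (hG : Gpd A.G) : TrivFib (p0 A n) := by
  intro k γ x hx
  by_cases hk : n ≤ k
  · obtain ⟨z, hz, -⟩ := hG.refl k (PT γ k x)
    obtain ⟨c, h1, h2, -⟩ := PG_mk_of_le hk γ x z hx hz
    exact ⟨c, h1, h2⟩
  · exact PG_mk_of_not_le hk γ x hx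

theorem p1_trivFib (hG : Gpd A.G) (hdiv : ∀ i j, DivC A i j) : TrivFib (p1 A n) := by
  intro k γ y hy
  by_cases hk : n ≤ k
  · obtain ⟨x, hx, z, hz1, hz2⟩ := (PT_eqv hG (fun i _ _ => hdiv i k) γ _ _ .base).surj y hy
    obtain ⟨c, h1, -, h3, -⟩ := PG_mk_of_le hk γ x z hx hz1
    exact ⟨c, h1, h3.trans hz2⟩
  · rw [p1_sph_eq_p0 (by omega)] at hy
    obtain ⟨c, h1, h2⟩ := PG_mk_of_not_le hk γ y hy
    exact ⟨c, h1, (p1_eq_p0 (by omega) c).trans h2⟩

/-- solvability of the equation defining the second cylinder of a path -/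
def PathLaw (A : WG.{u}) : Prop :=
  ∀ k (z w w1 : A.G.cell (k + 1)), A.G.src k w = A.G.src k z → A.G.src k w1 = A.G.tgt k z →
    ∃ z', A.G.src k z' = A.G.tgt k w ∧ A.G.tgt k z' = A.G.tgt k w1 ∧
      A.G.Step (k + 1) (A.cj k z z' (k + 1) w) w1

theorem path_lift (hP : PathLaw A) {k : ℕ} (hk : n ≤ k) (c : (PG A n).cell k)
    (w0 w1 : A.G.cell (k + 1)) (h0 : A.G.src k w0 = (p0 A n).app k c)
    (h1 : A.G.src k w1 = (p1 A n).app k c) :
    ∃ d : (PG A n).cell (k + 1), (PG A n).src k d = c ∧ (p0 A n).app _ d = w0 ∧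
      (p1 A n).app _ d = w1 := by
  have hom := PT_hom ((PG A n).bdry k c)
  have hov : Over ((p0 A n).sph k ((PG A n).bdry k c)) k (A.G.src k w0) :=
    .base _ (by rw [h0, GMap.bdry_app])
  obtain ⟨z', hz1, hz2, y, hy1, hy2⟩ := hP k (pz c hk) (PT ((PG A n).bdry k c) (k + 1) w0) w1
    (by rw [hom.src k w0 hov, src_pz, h0]) (by rw [tgt_pz, h1])
  rw [hom.tgt k w0 hov] at hz1
  obtain ⟨c', e1, e2, e3, e4⟩ := PG_mk_of_le hk ((PG A n).bdry k c) (A.G.tgt k w0) z'
    (by rw [bdry_tgt, h0, GMap.bdry_app]) hz1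
  obtain ⟨d, f1, f2, f3, -⟩ := PG_mk_of_le (Nat.le_succ_of_le hk) (mkS c c' e1.symm) w0 y
    (sphere_ext h0 e2.symm) (by rw [hy1, PT_succ_of_le _ hk, lo_mkS, hi_mkS, e4])
  exact ⟨d, congrArg lo f1, f2, f3.trans hy2⟩

/-- a cylinder exists as soon as the relevant parallel cells are connected -/
theorem PG_fill {k : ℕ} (hk : n ≤ k) (γ : (PG A n).Sphere k) (x0 x1 : A.G.cell k)
    (h0 : A.G.bdry k x0 = (p0 A n).sph k γ) (h1 : A.G.bdry k x1 = (p1 A n).sph k γ)
    (hfill : ∀ a b : A.G.cell k, A.G.bdry k a = A.G.bdry k b → A.G.Step k a b) :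
    ∃ c : (PG A n).cell k, (PG A n).bdry k c = γ ∧ (p0 A n).app k c = x0 ∧
      (p1 A n).app k c = x1 := by
  obtain ⟨z, hz1, hz2⟩ := hfill (PT γ k x0) x1 (by rw [(PT_hom γ).base _ h0, h1])
  obtain ⟨c, e1, e2, e3, -⟩ := PG_mk_of_le hk γ x0 z h0 hz1
  exact ⟨c, e1, e2, e3.trans hz2⟩

theorem PG_step {k : ℕ} (hk : n ≤ k) (c : (PG A n).cell k) :
    A.G.Step k (PT ((PG A n).bdry k c) k ((p0 A n).app k c)) ((p1 A n).app k c) :=
  ⟨pz c hk, src_pz c hk, tgt_pz c hk⟩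

end Properties

end Crest.Agent.R248
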