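import Crest.Agent.R248.Whisk

/-! The division lemma: whiskering is bijective on homotopy classes. -/

set_option autoImplicit false

universe u v w

namespace Crest.Agent.R248

open Crest.GeometryTopology.Coherator CategoryTheory
open GlobTheory

variable {C : GlobTheory.{u}}

namespace Ops

variable (o : Ops C)

/-- whiskering followed by whiskering with the inverses -/
noncomputable def NN {A : Alg C} (k : ℕ) (u v : A.G.cell (k + 1)) : CellFun A.G :=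
  fun j x => o.mul k (o.iv u) (o.iv v) j (o.mul k u v j x)

theorem par_uv {G : GlobSet.{v}} {k : ℕ} {u v : G.cell (k + 1)} {γ : G.Sphere (k + 1)}
    (h1 : lo γ = G.tgt k u) (h2 : hi γ = G.src k v) :
    G.bdry k (G.src k u) = G.bdry k (G.tgt k v) := by
  rw [bdry_tgt, ← h2, bdry_hi, h1, bdry_tgt]

theorem NN_hom {A : Alg C} {k : ℕ} (u v : A.G.cell (k + 1)) (γ : A.G.Sphere (k + 1))
    (h1 : lo γ = A.G.tgt k u) (h2 : hi γ = A.G.src k v) : HomMap (o.NN k u v) γ γ :=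
  (o.mul_hom u v γ (mkS _ _ (par_uv h1 h2)) h1 h2 rfl rfl).comp
    (o.mul_hom _ _ _ γ (o.tgt_iv u).symm (o.src_iv v).symm (h1.trans (o.src_iv u).symm)
      (h2.trans (o.tgt_iv v).symm))

theorem map_NN {A B : Alg C} (f : Hom A B) {k : ℕ} (u v : A.G.cell (k + 1))
    (γ : A.G.Sphere (k + 1)) (h1 : lo γ = A.G.tgt k u) (h2 : hi γ = A.G.src k v) {j : ℕ}
    {x : A.G.cell j} (hx : Over γ j x) :
    f.g.app j (o.NN k u v j x) = o.NN k (f.g.app _ u) (f.g.app _ v) j (f.g.app j x) := by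
  rw [NN, o.map_mul f _ _ (mkS _ _ (par_uv h1 h2)) (o.tgt_iv u).symm (o.src_iv v).symm
    ((o.mul_hom u v γ (mkS _ _ (par_uv h1 h2)) h1 h2 rfl rfl).over hx),
    o.map_mul f u v γ h1 h2 hx, o.map_iv, o.map_iv]
  rfl

/-- the sphere between the outer generators of a triple -/
noncomputable def tS {G : GlobSet.{v}} {k j : ℕ} {h : k < j} (ξ : GM (T3 k j h) G) :
    G.Sphere (k + 1) :=
  mkS (G.tgt k (ξ.app _ (t1 h))) (G.src k (ξ.app _ (t3 h)))
    (by rw [← T3_rel1, ← T3_rel2, bdry_face false true])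

theorem tS_over {G : GlobSet.{v}} {k j : ℕ} {h : k < j} (ξ : GM (T3 k j h) G) :
    Over (tS ξ) j (ξ.app _ (t2 h)) := over_of_face h (T3_rel1 h ξ) (T3_rel2 h ξ)

/-- instance of a natural cylinder -/
noncomputable def cyl {k j : ℕ} {h : k < j} (c : (PG (o.wg (FA C (T3 k j h))) (k + 1)).cell j)
    {A : Alg C} (ξ : GM (T3 k j h) A.G) : (PG (o.wg A) (k + 1)).cell j :=
  (Pmap (k + 1) (o.wm (lift ξ))).app j c

theorem lift_NN_gen {k j : ℕ} {h : k < j} {A : Alg C} (ξ : GM (T3 k j h) A.G) :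
    (lift ξ).g.app j (o.NN k ((gen C _).app _ (t1 h)) ((gen C _).app _ (t3 h)) j
      ((gen C _).app _ (t2 h))) = o.NN k (ξ.app _ (t1 h)) (ξ.app _ (t3 h)) j (ξ.app _ (t2 h)) := by
  rw [o.map_NN (lift ξ) _ _ (tS (gen C _)) rfl rfl (tS_over _), lift_gen_app, lift_gen_app,
    lift_gen_app]

theorem exists_cyl (hC : Contr C) (k : ℕ) :
    ∃ c : ∀ j (h : k < j), (PG (o.wg (FA C (T3 k j h))) (k + 1)).cell j,
      (∀ j (h : k < j) (A : Alg C) (ξ : GM (T3 k j h) A.G),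
        (p0 _ _).app j (o.cyl (c j h) ξ) =
          o.NN k (ξ.app _ (t1 h)) (ξ.app _ (t3 h)) j (ξ.app _ (t2 h)) ∧
        (p1 _ _).app j (o.cyl (c j h) ξ) = ξ.app _ (t2 h)) ∧
      (∀ j (h : k < j) (A : Alg C) (ξ ξ' : GM (T3 k j h) A.G),
        ξ'.app _ (t1 _) = ξ.app _ (t1 _) → ξ'.app _ (t3 _) = ξ.app _ (t3 _) →
        A.G.bdry j (ξ'.app _ (t2 _)) = A.G.bdry j (ξ.app _ (t2 _)) →
        (PG _ _).bdry j (o.cyl (c j h) ξ') = (PG _ _).bdry j (o.cyl (c j h) ξ)) ∧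
      ∀ j (h : k < j) (A : Alg C) (ξ : GM (T3 k (j + 1) (Nat.lt_succ_of_lt h)) A.G)
        (ξ' : GM (T3 k j h) A.G), ξ'.app _ (t1 _) = ξ.app _ (t1 _) →
        ξ'.app _ (t3 _) = ξ.app _ (t3 _) →
        (ξ'.app _ (t2 _) = A.G.src j (ξ.app _ (t2 _)) →
          (PG _ _).src j (o.cyl (c (j + 1) _) ξ) = o.cyl (c j h) ξ') ∧
        (ξ'.app _ (t2 _) = A.G.tgt j (ξ.app _ (t2 _)) →
          (PG _ _).tgt j (o.cyl (c (j + 1) _) ξ) = o.cyl (c j h) ξ') := by
  have h0 := Nat.lt_succ_self k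
  have ends : ∀ j (h : k < j) (c : (PG (o.wg (FA C (T3 k j h))) (k + 1)).cell j),
      (p0 _ _).app j c = o.NN k ((gen C _).app _ (t1 h)) ((gen C _).app _ (t3 h)) j
        ((gen C _).app _ (t2 h)) → (p1 _ _).app j c = (gen C _).app _ (t2 h) →
      ∀ (A : Alg C) (ξ : GM (T3 k j h) A.G), (p0 _ _).app j (o.cyl c ξ) =
          o.NN k (ξ.app _ (t1 h)) (ξ.app _ (t3 h)) j (ξ.app _ (t2 h)) ∧
        (p1 _ _).app j (o.cyl c ξ) = ξ.app _ (t2 h) := by
    intro j h c e0 e1 A ξ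
    constructor
    · rw [cyl, p0_Pmap, e0]; exact o.lift_NN_gen ξ
    · rw [cyl, p1_Pmap, e1]; exact lift_gen_app ξ _ _
  obtain ⟨γ0, hγ0⟩ := (p0_sph_low_bij (A := o.wg (FA C (T3 k (k + 1) h0))) (n := k + 1) le_rfl).2
    ((FA C _).G.bdry _ ((gen C _).app _ (t2 h0)))
  obtain ⟨c0, -, c01, c02⟩ := PG_fill (A := o.wg (FA C (T3 k (k + 1) h0))) le_rfl γ0
    (o.NN k ((gen C _).app _ (t1 h0)) ((gen C _).app _ (t3 h0)) _ ((gen C _).app _ (t2 h0)))
    ((gen C _).app _ (t2 h0))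
    (by
      rw [hγ0]
      exact ((o.NN_hom _ _ (tS (gen C _)) rfl rfl).base _ (tS_over _).bdry_eq).trans
        (tS_over _).bdry_eq.symm)
    (by rw [p1_sph_eq_p0 le_rfl, hγ0])
    (FA_fill hC ((T3_dim h0).trans (Nat.le_succ _)))
  obtain ⟨c, -, hP, hR⟩ := exists_seq_le (n := k + 1)
    (fun j h => (PG (o.wg (FA C (T3 k j h))) (k + 1)).cell j)
    (fun j h c => (∀ (A : Alg C) (ξ : GM (T3 k j h) A.G),
        (p0 _ _).app j (o.cyl c ξ) =
          o.NN k (ξ.app _ (t1 h)) (ξ.app _ (t3 h)) j (ξ.app _ (t2 h)) ∧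
        (p1 _ _).app j (o.cyl c ξ) = ξ.app _ (t2 h)) ∧
      (∀ (A : Alg C) (ξ ξ' : GM (T3 k j h) A.G),
        ξ'.app _ (t1 _) = ξ.app _ (t1 _) → ξ'.app _ (t3 _) = ξ.app _ (t3 _) →
        A.G.bdry j (ξ'.app _ (t2 _)) = A.G.bdry j (ξ.app _ (t2 _)) →
        (PG _ _).bdry j (o.cyl c ξ') = (PG _ _).bdry j (o.cyl c ξ)))
    (fun j h c c' => ∀ (A : Alg C) (ξ : GM (T3 k (j + 1) (Nat.lt_succ_of_lt h)) A.G)
        (ξ' : GM (T3 k j h) A.G), ξ'.app _ (t1 _) = ξ.app _ (t1 _) →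
        ξ'.app _ (t3 _) = ξ.app _ (t3 _) →
        (ξ'.app _ (t2 _) = A.G.src j (ξ.app _ (t2 _)) →
          (PG _ _).src j (o.cyl c' ξ) = o.cyl c ξ') ∧
        (ξ'.app _ (t2 _) = A.G.tgt j (ξ.app _ (t2 _)) →
          (PG _ _).tgt j (o.cyl c' ξ) = o.cyl c ξ'))
    c0 ⟨ends _ h0 c0 c01 c02, fun A ξ ξ' e1 e3 e2 => by
      apply (p0_sph_low_bij (A := o.wg A) (n := k + 1) le_rfl).1
      rw [← GMap.bdry_app, ← GMap.bdry_app, (ends _ h0 c0 c01 c02 A ξ).1,
        (ends _ h0 c0 c01 c02 A ξ').1, e1, e3]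
      exact ((o.NN_hom _ _ (tS ξ) rfl rfl).par (tS_over ξ) e2.symm).symm⟩
    (by
      rintro j h a ⟨ha1, ha2⟩
      have h' : k < j + 1 := Nat.lt_succ_of_lt h
      obtain ⟨s, s1, s2, s3⟩ := T3_face_src h h' (gen C (T3 k (j + 1) h'))
      obtain ⟨t, r1, r2, r3⟩ := T3_face_tgt h h' (gen C (T3 k (j + 1) h'))
      have hN := o.NN_hom _ _ (tS (gen C (T3 k (j + 1) h'))) rfl rfl
      have hov := (tS_over (gen C (T3 k (j + 1) h'))).src h
      obtain ⟨b, hb, b0, b1⟩ := PG_fill (A := o.wg (FA C (T3 k (j + 1) h'))) h'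
        (mkS (o.cyl a s) (o.cyl a t)
          (ha2 _ t s (s1.trans r1.symm) (s3.trans r3.symm) (by rw [s2, r2, bdry_tgt])))
        (o.NN k ((gen C _).app _ (t1 h')) ((gen C _).app _ (t3 h')) _ ((gen C _).app _ (t2 h')))
        ((gen C _).app _ (t2 h'))
        (sphere_ext
          ((hN.src j _ hov).trans ((ha1 _ s).1.trans (by rw [s1, s2, s3])).symm)
          ((hN.tgt j _ hov).trans ((ha1 _ t).1.trans (by rw [r1, r2, r3])).symm))
        (sphere_ext (s2.symm.trans (ha1 _ s).2.symm) (r2.symm.trans (ha1 _ t).2.symm))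
        (FA_fill hC ((T3_dim h').trans (Nat.le_succ _)))
      have comp : ∀ (A : Alg C) (ξ : GM (T3 k (j + 1) h') A.G)
          (θ : GM (T3 k j h) (FA C (T3 k (j + 1) h')).G),
          (Pmap (k + 1) (o.wm (lift ξ))).app j (o.cyl a θ) = o.cyl a (θ.comp (lift ξ).g) := by
        intro A ξ θ
        exact GMap.congr_app (Pmap_comp (o.wm (lift θ)) (o.wm (lift ξ))
          (o.wm (lift (θ.comp (lift ξ).g))) (congrArg Hom.g (lift_comp θ (lift ξ)))) j a
      have R : ∀ (A : Alg C) (ξ : GM (T3 k (j + 1) (Nat.lt_succ_of_lt h)) A.G)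
          (ξ' : GM (T3 k j h) A.G), ξ'.app _ (t1 _) = ξ.app _ (t1 _) →
          ξ'.app _ (t3 _) = ξ.app _ (t3 _) →
          (ξ'.app _ (t2 _) = A.G.src j (ξ.app _ (t2 _)) →
            (PG _ _).src j (o.cyl b ξ) = o.cyl a ξ') ∧
          (ξ'.app _ (t2 _) = A.G.tgt j (ξ.app _ (t2 _)) →
            (PG _ _).tgt j (o.cyl b ξ) = o.cyl a ξ') := by
        intro A ξ ξ' e1 e3
        constructor
        · intro e2
          rw [cyl, ← GMap.app_src, (bdry_eq_iff.1 hb).1, lo_mkS, comp]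
          congr 1
          apply T3_ext
          · rw [GMap.comp_app, s1, lift_gen_app, e1]
          · rw [GMap.comp_app, s2, GMap.app_src, lift_gen_app, e2]
          · rw [GMap.comp_app, s3, lift_gen_app, e3]
        · intro e2
          rw [cyl, ← GMap.app_tgt, (bdry_eq_iff.1 hb).2, hi_mkS, comp]
          congr 1
          apply T3_ext
          · rw [GMap.comp_app, r1, lift_gen_app, e1]
          · rw [GMap.comp_app, r2, GMap.app_tgt, lift_gen_app, e2]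
          · rw [GMap.comp_app, r3, lift_gen_app, e3]
      refine ⟨b, ⟨ends _ h' b b0 b1, fun A ξ ξ' e1 e3 e2 => ?_⟩, R⟩
      obtain ⟨α, a1, a2, a3⟩ := T3_face_src h h' ξ
      obtain ⟨β, d1, d2, d3⟩ := T3_face_tgt h h' ξ
      apply sphere_ext
      · rw [lo_bdry, lo_bdry, (R A ξ α a1 a3).1 a2,
          (R A ξ' α (a1.trans e1.symm) (a3.trans e3.symm)).1 (a2.trans (src_eq_of_bdry e2).symm)]
      · rw [hi_bdry, hi_bdry, (R A ξ β d1 d3).2 d2,
          (R A ξ' β (d1.trans e1.symm) (d3.trans e3.symm)).2 (d2.trans (tgt_eq_of_bdry e2).symm)])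
  exact ⟨c, fun j h => (hP j h).1, fun j h => (hP j h).2, hR⟩

/-- whiskering at level `k` is bijective on classes of `j`-cells -/
def DivM (k j : ℕ) : Prop :=
  ∀ (A : Alg C) (u v : A.G.cell (k + 1)) (γ γ' : A.G.Sphere (k + 1)), lo γ = A.G.tgt k u →
    hi γ = A.G.src k v → lo γ' = A.G.src k u → hi γ' = A.G.tgt k v →
      EqvAt (o.mul k u v) γ γ' j

theorem divC_of_divM {k j : ℕ} (h : o.DivM k j) (A : Alg C) : DivC (o.wg A) k j :=
  fun u v γ γ' h1 h2 h3 h4 =>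
    h A _ v γ γ' (h1.trans (o.tgt_iv u).symm) h2 (h3.trans (o.src_iv u).symm) h4

theorem NN_eqv (hC : Contr C) {k j : ℕ} (hdiv : ∀ i, k + 1 ≤ i → i < j → o.DivM i j)
    (A : Alg C) (u v : A.G.cell (k + 1)) (γ0 : A.G.Sphere (k + 1)) (h1 : lo γ0 = A.G.tgt k u)
    (h2 : hi γ0 = A.G.src k v) : EqvAt (o.NN k u v) γ0 γ0 j := by
  obtain ⟨c, hc1, hc2, hc3⟩ := o.exists_cyl hC k
  have hG := o.gpd A
  have hN := o.NN_hom u v γ0 h1 h2
  intro γ γ' i
  have key : ∃ Γ : (PG (o.wg A) (k + 1)).Sphere j, (p0 _ _).sph j Γ = γ' ∧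
      (p1 _ _).sph j Γ = γ ∧
      ∀ x, A.G.bdry j x = γ → A.G.Step j (PT Γ j (o.NN k u v j x)) x := by
    cases i with
    | base =>
      obtain ⟨Γ, hΓ⟩ := (p0_sph_low_bij (A := o.wg A) (n := k + 1) le_rfl).2 γ0
      refine ⟨Γ, hΓ, (p1_sph_eq_p0 le_rfl Γ).trans hΓ, fun x hx => ?_⟩
      obtain ⟨ξ, rfl, rfl, rfl⟩ := exists_triple h1 h2 (.base _ hx) (Nat.lt_succ_self k)
      have e : (PG (o.wg A) (k + 1)).bdry _ (o.cyl (c (k + 1) (Nat.lt_succ_self k)) ξ) = Γ := by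
        apply (p0_sph_low_bij (A := o.wg A) (n := k + 1) le_rfl).1
        rw [← GMap.bdry_app, (hc1 _ _ A ξ).1, hΓ]
        exact hN.base _ hx
      have := PG_step le_rfl (o.cyl (c (k + 1) (Nat.lt_succ_self k)) ξ)
      rw [e, (hc1 _ _ A ξ).1, (hc1 _ _ A ξ).2] at this
      exact this
    | step j γ γ' hov e1 e2 =>
      have h : k < j := hov.le
      obtain ⟨α, a1, a2, a3⟩ := exists_triple h1 h2 hov h
      obtain ⟨β, b1, b2, b3⟩ := exists_triple h1 h2 (hov.of_par (bdry_hi γ).symm) h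
      refine ⟨mkS (o.cyl (c j h) α) (o.cyl (c j h) β) (hc2 j h A β α (a1.trans b1.symm)
        (a3.trans b3.symm) (by rw [a2, b2, bdry_hi])), ?_, ?_, fun x hx => ?_⟩
      · apply sphere_ext
        · exact (hc1 _ _ A α).1.trans (by rw [e1, a1, a2, a3])
        · exact (hc1 _ _ A β).1.trans (by rw [e2, b1, b2, b3])
      · exact sphere_ext ((hc1 _ _ A α).2.trans a2) ((hc1 _ _ A β).2.trans b2)
      · subst hx
        obtain ⟨ξ, rfl, rfl, rfl⟩ := exists_triple h1 h2 (.step _ _ hov) (Nat.lt_succ_of_lt h)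
        have := PG_step (Nat.lt_succ_of_lt h) (o.cyl (c (j + 1) (Nat.lt_succ_of_lt h)) ξ)
        rw [(hc1 _ _ A ξ).1, (hc1 _ _ A ξ).2] at this
        convert this using 2
        exact sphere_ext ((hc3 j h A ξ α a1 a3).1 a2).symm ((hc3 j h A ξ β b1 b3).2 b2).symm
  obtain ⟨Γ, rfl, rfl, hst⟩ := key
  have hB := PT_eqv (A := o.wg A) hG (fun i h1 h2 => o.divC_of_divM (hdiv i h1 h2) A) Γ _ _ .base
  have hT := PT_hom Γ
  refine ⟨fun x x' hx hx' e => ?_, fun y hy => ?_⟩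
  · exact hG.trans (hG.symm (hst x hx))
      (hG.trans (hT.step (.base _ (i.bdry hN hx)) e) (hst x' hx'))
  · have hx := hT.base y hy
    exact ⟨_, hx, hB.inj _ _ (i.bdry hN hx) hy (hst _ hx)⟩

theorem divM (hC : Contr C) (k j : ℕ) : o.DivM k j := by
  have aux : ∀ d k, j ≤ k + d → o.DivM k j := by
    intro d
    induction d with
    | zero =>
      intro k hk A u v γ γ' _ _ _ _ δ δ' i
      exfalso
      cases i with
      | base => omega
      | step j _ _ h _ _ => have := h.le; omega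
    | succ d ih =>
      intro k hk A u v γ γ' h1 h2 h3 h4
      have hdiv : ∀ i, k + 1 ≤ i → i < j → o.DivM i j := fun i hi _ => ih i (by omega)
      refine EqvAt.two_of_six (o.mul_hom u v γ γ' h1 h2 h3 h4)
        (o.mul_hom (o.iv u) (o.iv v) γ' γ (h3.trans (o.tgt_iv u).symm) (h4.trans (o.src_iv v).symm)
          (h1.trans (o.src_iv u).symm) (h2.trans (o.tgt_iv v).symm))
        (o.mul_hom (o.iv (o.iv u)) (o.iv (o.iv v)) γ γ'
          (h1.trans ((o.tgt_iv _).trans (o.src_iv u)).symm)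
          (h2.trans ((o.src_iv _).trans (o.tgt_iv v)).symm)
          (h3.trans ((o.src_iv _).trans (o.tgt_iv u)).symm)
          (h4.trans ((o.tgt_iv _).trans (o.src_iv v)).symm))
        (o.NN_eqv hC hdiv A u v γ h1 h2)
        (o.NN_eqv hC hdiv A (o.iv u) (o.iv v) γ' (h3.trans (o.tgt_iv u).symm)
          (h4.trans (o.src_iv v).symm))
  exact aux j k (by omega)

theorem mul_surj (hC : Contr C) {A : Alg C} {k : ℕ} (u y : A.G.cell (k + 1))
    (h : A.G.src k y = A.G.src k u) :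
    ∃ x, A.G.src k x = A.G.tgt k u ∧ A.G.tgt k x = A.G.tgt k y ∧
      A.G.Step (k + 1) (o.mul k u (o.un (A.G.tgt k y)) (k + 1) x) y := by
  obtain ⟨x, hx, e⟩ := (o.divM hC k (k + 1) A u (o.un (A.G.tgt k y))
    (mkS (A.G.tgt k u) (A.G.tgt k y) (by rw [bdry_tgt, bdry_tgt, h])) (A.G.bdry _ y) rfl
    (o.src_un _).symm h (o.tgt_un _).symm _ _ .base).surj y rfl
  exact ⟨x, congrArg lo hx, congrArg hi hx, e⟩

theorem mul_assoc' (hC : Contr C) {A : Alg C} {k : ℕ} (a w z : A.G.cell (k + 1))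
    (h1 : A.G.src k w = A.G.tgt k a) (h2 : A.G.tgt k w = A.G.src k z) :
    A.G.Step (k + 1) (o.mul k a z (k + 1) w)
      (o.mul k a (o.un (A.G.tgt k z)) (k + 1) (o.mul k w (o.un (A.G.tgt k z)) (k + 1) z)) := by
  have h0 := Nat.lt_succ_self k
  obtain ⟨ξ, rfl, rfl, rfl⟩ := T3_exists h0 a w z ((face_false_self _ _).trans h1)
    ((face_true_self _ _).trans h2)
  have g1 := (face_false_self _ _).symm.trans (T3_rel1 h0 (gen C (T3 k (k + 1) h0)))
  have g2 := (face_true_self _ _).symm.trans (T3_rel2 h0 (gen C (T3 k (k + 1) h0)))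
  have g3 := o.src_mul g2.symm (o.src_un _).symm
  have g4 := (o.tgt_mul g2.symm (o.src_un _).symm).trans ((o.tgt_un _).trans (o.src_un _).symm)
  have := (lift ξ).g.step (FA_fill hC ((T3_dim h0).trans (Nat.le_succ _))
    (o.mul k _ _ (k + 1) _) (o.mul k _ _ (k + 1) _) (sphere_ext
      ((o.src_mul g1 g2).trans (o.src_mul (g3.trans g1) g4).symm)
      ((o.tgt_mul g1 g2).trans ((o.tgt_mul (g3.trans g1) g4).trans (o.tgt_un _)).symm)))
  rw [o.map_mul' _ g1 g2, o.map_mul' _ (g3.trans g1) g4, o.map_mul' _ g2.symm (o.src_un _).symm,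
    o.map_un, GMap.app_tgt, lift_gen_app, lift_gen_app, lift_gen_app] at this
  exact this

theorem pathLaw (hC : Contr C) (A : Alg C) : PathLaw (o.wg A) := by
  intro k z w w1 h1 h2
  have hG := o.gpd A
  obtain ⟨y, y1, y2, hy⟩ := o.mul_surj hC (o.iv z) w1 (h2.trans (o.src_iv z).symm)
  obtain ⟨z', z1, z2, hz⟩ := o.mul_surj hC w y (y1.trans ((o.tgt_iv z).trans h1.symm))
  refine ⟨z', z1, z2.trans y2, ?_⟩
  refine hG.trans (o.mul_assoc' hC (o.iv z) w z' (h1.trans (o.tgt_iv z).symm) z1.symm) ?_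
  refine hG.trans ?_ hy
  rw [z2, y2]
  rw [y2] at hz
  exact (o.mul_hom' y1 (y2.trans (o.src_un _).symm)).step (.base _ (Step.bdry_eq hz)) hz

end Ops

end Crest.Agent.R248
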