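import Crest.Agent.R248.Path

/-! Cellular models are cofibrant; pushouts of source inclusions are weak equivalences. -/

set_option autoImplicit false

universe u v w

namespace Crest.Agent.R248

open Crest.GeometryTopology.Coherator CategoryTheory CategoryTheory.Limits
open GlobTheory

variable {C : GlobTheory.{u}}

theorem cellsMap_sphere {X Y : GlobModel C} (f : X ⟶ Y) (k : ℕ) (γ : X.cells.Sphere k) :
    (GlobModel.cellsMap f).sphere k γ = (cellsG f).sph k γ := by
  cases k with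
  | zero => rfl
  | succ k => rfl

theorem cellsG_comp {X Y Z : GlobModel C} (f : X ⟶ Y) (g : Y ⟶ Z) :
    cellsG (f ≫ g) = (cellsG f).comp (cellsG g) := rfl

theorem toModMap_trivFib {A B : Alg C} {p : Hom A B} (hp : TrivFib p.g) :
    TrivFib (cellsG (toModMap p)) := by
  intro k γ y hy
  have e : (cellsG (toModMap p)).comp (evG B) = (evG A).comp p.g := rfl
  obtain ⟨x, x1, x2⟩ := hp k ((evG A).sph k γ) ((evG B).app k y) (by
    rw [GMap.bdry_app, hy, ← GMap.sph_comp, ← GMap.sph_comp, e])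
  refine ⟨(coevG A).app k x, ?_, (evG_bijective B k).1 x2⟩
  rw [GMap.bdry_app, x1, ← GMap.sph_comp, evG_coevG, GMap.sph_id]

theorem attach_lifting {X Y Z W : GlobModel C} {f : X ⟶ Y} (hf : GlobModel.IsAttaching f)
    {p : Z ⟶ W} (hp : TrivFib (cellsG p)) : HasLiftingProperty f p := by
  constructor
  intro g h sq
  have hz : ∀ k, ∃ z : Z.cells.cell (hf.dimOf k),
      Z.cells.bdry _ z = (cellsG g).sph _ (hf.sphere k) ∧
      (cellsG p).app _ z = (cellsG h).app _ (hf.newCell k) := fun k =>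
    hp _ _ _ (by
      rw [GMap.bdry_app, hf.newCell_bdry, cellsMap_sphere, ← GMap.sph_comp, ← GMap.sph_comp,
        ← cellsG_comp, ← cellsG_comp, sq.w])
  choose z hz1 hz2 using hz
  obtain ⟨l, ⟨l1, l2⟩, -⟩ := hf.universal Z g z (fun k => by rw [hz1, cellsMap_sphere])
  obtain ⟨l', -, huq⟩ := hf.universal W (f ≫ h) (fun k => (cellsG h).app _ (hf.newCell k))
    (fun k => by
      rw [GMap.bdry_app, hf.newCell_bdry, cellsMap_sphere, cellsMap_sphere, ← GMap.sph_comp,
        ← cellsG_comp])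
  refine ⟨⟨⟨l, l1, ?_⟩⟩⟩
  refine (huq (l ≫ p) ⟨by rw [← Category.assoc, l1, sq.w], fun k => ?_⟩).trans
    (huq h ⟨rfl, fun k => rfl⟩).symm
  exact (congrArg ((cellsG p).app _) (l2 k)).trans (hz2 k)

theorem cellular_cofib {X : GlobModel C} (hX : X.IsCellularModel) : Cofib (toAlg X) := by
  intro A B p hp f
  obtain ⟨P⟩ := hX
  let _ := P.linOrd
  let _ := P.bot
  let _ := P.succ
  let _ := P.wf
  have hl : HasLiftingProperty (P.chain.incl.app ⊥) (toModMap p) :=
    HasLiftingProperty.transfiniteComposition.hasLiftingProperty_ι_app_bot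
      (hc := P.chain.isColimit) (fun j hj => attach_lifting (P.attach j hj) (toModMap_trivFib hp))
  have hI : IsInitial (P.chain.F.obj ⊥) := P.startIsInitial.ofIso P.chain.isoBot.symm
  obtain ⟨f', hf'⟩ := toHom_surjective f
  have sq : CommSq (hI.to (toMod A)) (P.chain.incl.app ⊥) (toModMap p) f' := ⟨hI.hom_ext _ _⟩
  refine ⟨toHom sq.lift, ?_⟩
  rw [← toHom_comp_right, sq.fac_right, hf']

theorem gen_sourceIncl {n : ℕ} {Z : GlobModel C} (g : GlobModel.diskModel C (n + 1) ⟶ Z) :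
    (cellsG (GlobModel.sourceIncl C n ≫ g)).app n ((gen C (Shape.globe n)).app n (top n)) =
      Z.cells.src n ((cellsG g).app (n + 1)
        ((gen C (Shape.globe (n + 1))).app (n + 1) (top (n + 1)))) := by
  rw [← GMap.app_src, cellsG_comp, GMap.comp_app]
  refine congrArg _ ?_
  have h1 : (gen C (Shape.globe n)).app n (top n) = C.one _ :=
    toGM_top (GlobModel.freeOn C (Shape.globe n)) _
  have h2 : (gen C (Shape.globe (n + 1))).app (n + 1) (top (n + 1)) = C.one _ :=
    toGM_top (GlobModel.freeOn C (Shape.globe (n + 1))) _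
  rw [h1, h2]
  change C.seq (C.one _) (C.ofShape (Shape.σ n)) = C.seq (C.ofShape (Shape.σ n)) (C.one _)
  rw [C.one_seq, C.seq_one]

theorem disk_ext {k : ℕ} {A : Alg C} {l l' : GlobModel.diskModel C k ⟶ toMod A}
    (h : (toHom l).g.app k ((gen C (Shape.globe k)).app k (top k)) =
      (toHom l').g.app k ((gen C (Shape.globe k)).app k (top k))) : l = l' :=
  toHom_injective (FA_hom_ext (T := Shape.globe k) (globe_ext h))

theorem pushout_WE (hT : Nonempty C.Tower) (hC : Contr C) {X : GlobModel C}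
    (hX : X.IsCellularModel) {n : ℕ} {a : GlobModel.diskModel C n ⟶ X} {Y : GlobModel C}
    {i : X ⟶ Y} {b : GlobModel.diskModel C (n + 1) ⟶ Y}
    (sq : IsPushout a (GlobModel.sourceIncl C n) i b) (d : ℕ) : WE d (cellsG i) := by
  obtain ⟨o⟩ := exists_ops hC
  obtain ⟨K1, η1, hK1, hη1⟩ := exists_kappa hT (d + 1) (toAlg Y)
  obtain ⟨Q, q, kk, hkk, hσ, hfin⟩ := exists_Q hT o (pathStr hT hC o (d + 1) n) η1 hK1 hη1
    (toAlgMap i) (cellular_cofib hX)
  obtain ⟨lk, hlk⟩ := toHom_surjective kk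
  obtain ⟨lη, hlη⟩ := toHom_surjective η1
  let t0 := (gen C (Shape.globe n)).app n (top n)
  let t1 := (gen C (Shape.globe (n + 1))).app (n + 1) (top (n + 1))
  obtain ⟨c, c1, c2⟩ := hσ n le_rfl (kk.g.app n ((cellsG a).app n t0))
    (η1.g.app (n + 1) ((cellsG b).app (n + 1) t1)) (by
      rw [← GMap.app_src]
      refine Eq.trans ?_ (Hom.congr_app hkk n _).symm
      refine congrArg (η1.g.app n) ?_
      refine (gen_sourceIncl b).symm.trans ?_
      rw [← sq.w]; rfl)
  obtain ⟨lc, hlc⟩ := toHom_surjective (X := GlobModel.diskModel C (n + 1))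
    (lift (C := C) (A := Q) (single c))
  have hc : (toHom lc).g.app (n + 1) t1 = c := by
    rw [hlc]; exact lift_gen_app (single c) _ _
  have w : a ≫ lk = GlobModel.sourceIncl C n ≫ lc := by
    apply disk_ext
    refine Eq.trans ?_ (congrArg ((evG Q).app n) (gen_sourceIncl lc)).symm
    rw [GMap.app_src]
    refine Eq.trans ?_ (congrArg (Q.G.src n) hc).symm
    rw [c1, ← hlk]; rfl
  refine (hfin (toHom (sq.desc lk lc w)) ?_).2 ?_ d le_rfl
  · rw [← toHom_comp_right, ← hlη]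
    refine congrArg toHom (sq.hom_ext ?_ ?_)
    · rw [sq.inl_desc_assoc]
      apply toHom_injective
      rw [toHom_comp_right, toHom_comp_left, hlk, hlη, hkk]
    · rw [sq.inr_desc_assoc]
      apply disk_ext
      rw [toHom_comp_right, toHom_comp_left, hlη]
      exact (congrArg (q.g.app (n + 1)) hc).trans c2
  · rw [← toHom_comp_left, sq.inl_desc, hlk]

theorem Gpd.of_eqvGen {G : GlobSet.{v}} (hG : Gpd G) {α : Type*} {k : ℕ} (φ : α → G.cell k)
    {x y : α} (h : Relation.EqvGen (fun a b => G.Step k (φ a) (φ b)) x y) :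
    G.Step k (φ x) (φ y) := by
  induction h with
  | rel _ _ h => exact h
  | refl _ => exact hG.refl _ _
  | symm _ _ _ ih => exact hG.symm ih
  | trans _ _ _ _ _ ih1 ih2 => exact hG.trans ih1 ih2

theorem WE.step {X : GlobSet.{v}} {Y : GlobSet.{w}} {f : GMap X Y} {k : ℕ} (h : WE (k + 1) f)
    {x y : X.cell k} (hxy : X.bdry k x = X.bdry k y) (hs : Y.Step k (f.app k x) (f.app k y)) :
    X.Step k x y := by
  obtain ⟨c, c1, c2⟩ := hs
  obtain ⟨z, z1, -⟩ := h (mkS x y hxy) c (sphere_ext c1 c2)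
  exact ⟨z, congrArg lo z1, congrArg hi z1⟩

theorem basePoint_map {X Y : GlobModel C} (f : X ⟶ Y) (e : C.UnitChoice) (x : X.cells.cell 0)
    (k : ℕ) : (cellsG f).app k (X.basePoint e x k) = Y.basePoint e ((cellsG f).app 0 x) k := by
  induction k with
  | zero => rfl
  | succ k ih =>
    refine (mact_nat f (e.unit k) (X.basePoint e x k)).trans ?_
    exact congrArg (Y.act (e.unit k)) ih

theorem isWeakEquiv_of_WE (hC : Contr C) (e : C.UnitChoice) {X Y : GlobModel C} {i : X ⟶ Y}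
    (h : ∀ d, WE d (cellsG i)) : GlobModel.IsWeakEquiv e i := by
  obtain ⟨o⟩ := exists_ops hC
  have hY : Gpd Y.cells := o.gpd (toAlg Y)
  refine ⟨⟨?_, ?_⟩, fun x n => ⟨?_, ?_⟩⟩
  · rintro ⟨x⟩ ⟨y⟩ hxy
    exact Quot.sound ((h 1).step rfl (hY.of_eqvGen id (Quot.eqvGen_exact hxy)))
  · rintro ⟨y⟩
    obtain ⟨x, -, hx⟩ := h 0 PUnit.unit y rfl
    exact ⟨Quot.mk _ x, Quot.sound hx⟩
  · rintro ⟨z⟩ ⟨z'⟩ hz
    refine Quot.sound ((h (n + 2)).step (sphere_ext (z.2.1.trans z'.2.1.symm)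
      (z.2.2.trans z'.2.2.symm)) ?_)
    exact hY.of_eqvGen (fun t : Y.LoopsAt e ((GlobModel.cellsMap i).app 0 x) n => t.1)
      (Quot.eqvGen_exact hz)
  · rintro ⟨y⟩
    obtain ⟨z, z1, z2⟩ := h (n + 1) (mkS (X.basePoint e x n) (X.basePoint e x n) rfl) y.1
      (sphere_ext (y.2.1.trans (basePoint_map i e x n).symm)
        (y.2.2.trans (basePoint_map i e x n).symm))
    exact ⟨Quot.mk _ ⟨z, congrArg lo z1, congrArg hi z1⟩, Quot.sound z2⟩

end Crest.Agent.R248
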