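import Crest.Agent.R248.Alg

/-! A semantic term model: the algebra generated by variables, with the equations valid in all
algebras with an assignment satisfying a predicate. -/

set_option autoImplicit false

universe u v w

namespace Crest.Agent.R248

open Crest.GeometryTopology.Coherator CategoryTheory
open GlobTheory

/-- raw terms -/
inductive Tm (C : GlobTheory.{u}) (V : ℕ → Type) : ℕ → Type u
  | var {k : ℕ} (v : V k) : Tm C V k
  | src {k : ℕ} (t : Tm C V (k + 1)) : Tm C V k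
  | tgt {k : ℕ} (t : Tm C V (k + 1)) : Tm C V k
  | op {k : ℕ} {T : Shape} (f : C.arr (Shape.globe k) T)
      (args : ∀ j, (gs T).cell j → Tm C V j) : Tm C V k

variable {C : GlobTheory.{u}} {V : ℕ → Type}

/-- evaluation of raw terms, as a relation -/
inductive Ev (A : Alg C) (σ : ∀ k, V k → A.G.cell k) : ∀ k, Tm C V k → A.G.cell k → Prop
  | var {k : ℕ} (v : V k) : Ev A σ k (.var v) (σ k v)
  | src {k : ℕ} {t : Tm C V (k + 1)} {x : A.G.cell (k + 1)} :
      Ev A σ (k + 1) t x → Ev A σ k (.src t) (A.G.src k x)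
  | tgt {k : ℕ} {t : Tm C V (k + 1)} {x : A.G.cell (k + 1)} :
      Ev A σ (k + 1) t x → Ev A σ k (.tgt t) (A.G.tgt k x)
  | op {k : ℕ} {T : Shape} (f : C.arr (Shape.globe k) T) (args : ∀ j, (gs T).cell j → Tm C V j)
      (ξ : GM T A.G) : (∀ j z, Ev A σ j (args j z) (ξ.app j z)) → Ev A σ k (.op f args) (A.op f ξ)

theorem Ev.unique {A : Alg C} {σ : ∀ k, V k → A.G.cell k} {k : ℕ} {t : Tm C V k}
    {x y : A.G.cell k} (hx : Ev A σ k t x) (hy : Ev A σ k t y) : x = y := by
  induction hx with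
  | var v => cases hy; rfl
  | src _ ih => cases hy with | src h => rw [ih h]
  | tgt _ ih => cases hy with | tgt h => rw [ih h]
  | op f args ξ _ ih =>
    cases hy with
    | op _ _ ζ h => rw [GMap.ext' (f := ξ) (g := ζ) fun j z => ih j z (h j z)]

section

variable (Pred : ∀ A : Alg C, (∀ k, V k → A.G.cell k) → Prop)

/-- everywhere defined terms -/
def Dfd (k : ℕ) (t : Tm C V k) : Prop := ∀ A σ, Pred A σ → ∃ x, Ev A σ k t x

/-- semantic equality -/
def tmSetoid (k : ℕ) : Setoid {t : Tm C V k // Dfd Pred k t} where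
  r t t' := ∀ A σ, Pred A σ → ∀ x, Ev A σ k t.1 x ↔ Ev A σ k t'.1 x
  iseqv := ⟨fun _ _ _ _ _ => Iff.rfl, fun h A σ hp x => (h A σ hp x).symm,
    fun h h' A σ hp x => (h A σ hp x).trans (h' A σ hp x)⟩

/-- cells of the term model -/
def RCell (k : ℕ) : Type u := Quotient (tmSetoid Pred k)

variable {Pred}

/-- class of a term -/
def rmk {k : ℕ} (t : Tm C V k) (h : Dfd Pred k t) : RCell Pred k := Quotient.mk _ ⟨t, h⟩

theorem rmk_surj {k : ℕ} (x : RCell Pred k) : ∃ t h, rmk t h = x := by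
  obtain ⟨⟨t, h⟩, rfl⟩ := Quotient.exists_rep x
  exact ⟨t, h, rfl⟩

/-- evaluation of a class -/
noncomputable def rev {A : Alg C} {σ : ∀ k, V k → A.G.cell k} (hp : Pred A σ) (k : ℕ) :
    RCell Pred k → A.G.cell k :=
  Quotient.lift (fun t => (t.2 A σ hp).choose) (fun t t' h =>
    ((h A σ hp _).1 (t.2 A σ hp).choose_spec).unique (t'.2 A σ hp).choose_spec)

theorem ev_rev {A : Alg C} {σ : ∀ k, V k → A.G.cell k} (hp : Pred A σ) {k : ℕ} (t : Tm C V k)
    (h : Dfd Pred k t) : Ev A σ k t (rev hp k (rmk t h)) := (h A σ hp).choose_spec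

theorem rev_eq {A : Alg C} {σ : ∀ k, V k → A.G.cell k} (hp : Pred A σ) {k : ℕ} {t : Tm C V k}
    (h : Dfd Pred k t) {x : A.G.cell k} (hx : Ev A σ k t x) : rev hp k (rmk t h) = x :=
  (ev_rev hp t h).unique hx

theorem rev_inj {k : ℕ} {x y : RCell Pred k}
    (h : ∀ A σ (hp : Pred A σ), rev hp k x = rev hp k y) : x = y := by
  obtain ⟨t, ht, rfl⟩ := rmk_surj x
  obtain ⟨t', ht', rfl⟩ := rmk_surj y
  apply Quotient.sound
  intro A σ hp x
  constructor
  · intro hx
    rw [← rev_eq hp ht hx, h A σ hp]; exact ev_rev hp t' ht'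
  · intro hx
    rw [← rev_eq hp ht' hx, ← h A σ hp]; exact ev_rev hp t ht

/-- a representative -/
noncomputable def rep {k : ℕ} (x : RCell Pred k) : Tm C V k := (rmk_surj x).choose

theorem rep_dfd {k : ℕ} (x : RCell Pred k) : Dfd Pred k (rep x) := (rmk_surj x).choose_spec.choose

theorem rmk_rep {k : ℕ} (x : RCell Pred k) : rmk (rep x) (rep_dfd x) = x :=
  (rmk_surj x).choose_spec.choose_spec

theorem ev_rep {A : Alg C} {σ : ∀ k, V k → A.G.cell k} (hp : Pred A σ) {k : ℕ}
    (x : RCell Pred k) : Ev A σ k (rep x) (rev hp k x) := by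
  have := ev_rev hp (rep x) (rep_dfd x)
  rwa [rmk_rep] at this

/-- source of a class -/
noncomputable def rsrc (k : ℕ) (x : RCell Pred (k + 1)) : RCell Pred k :=
  rmk (.src (rep x)) fun _ _ hp => ⟨_, .src (ev_rep hp x)⟩

/-- target of a class -/
noncomputable def rtgt (k : ℕ) (x : RCell Pred (k + 1)) : RCell Pred k :=
  rmk (.tgt (rep x)) fun _ _ hp => ⟨_, .tgt (ev_rep hp x)⟩

theorem rev_rsrc {A : Alg C} {σ : ∀ k, V k → A.G.cell k} (hp : Pred A σ) (k : ℕ)
    (x : RCell Pred (k + 1)) : rev hp k (rsrc k x) = A.G.src k (rev hp (k + 1) x) :=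
  rev_eq hp _ (.src (ev_rep hp x))

theorem rev_rtgt {A : Alg C} {σ : ∀ k, V k → A.G.cell k} (hp : Pred A σ) (k : ℕ)
    (x : RCell Pred (k + 1)) : rev hp k (rtgt k x) = A.G.tgt k (rev hp (k + 1) x) :=
  rev_eq hp _ (.tgt (ev_rep hp x))

variable (Pred) in
/-- the globular set of the term model -/
noncomputable def RG : GlobSet.{u} where
  cell := RCell Pred
  src := rsrc
  tgt := rtgt
  src_src k x := rev_inj fun A σ hp => by
    rw [rev_rsrc, rev_rsrc, rev_rsrc, rev_rtgt, A.G.src_src]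
  tgt_tgt k x := rev_inj fun A σ hp => by
    rw [rev_rtgt, rev_rsrc, rev_rtgt, rev_rtgt, A.G.tgt_tgt]

/-- evaluation as a globular map -/
noncomputable def revG {A : Alg C} {σ : ∀ k, V k → A.G.cell k} (hp : Pred A σ) :
    GMap (RG Pred) A.G := ⟨rev hp, rev_rsrc hp, rev_rtgt hp⟩

theorem revG_inj {T : GlobSet.{v}} {ξ ζ : GMap T (RG Pred)}
    (h : ∀ A σ (hp : Pred A σ), ξ.comp (revG hp) = ζ.comp (revG hp)) : ξ = ζ :=
  GMap.ext' fun k z => rev_inj fun A σ hp => GMap.congr_app (h A σ hp) k z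

/-- operations on classes -/
noncomputable def rop {k : ℕ} {T : Shape} (f : C.arr (Shape.globe k) T) (ξ : GM T (RG Pred)) :
    RCell Pred k :=
  rmk (.op f fun j z => rep (ξ.app j z)) fun _ _ hp =>
    ⟨_, .op f _ (ξ.comp (revG hp)) fun j z => ev_rep hp (ξ.app j z)⟩

theorem rev_rop {A : Alg C} {σ : ∀ k, V k → A.G.cell k} (hp : Pred A σ) {k : ℕ} {T : Shape}
    (f : C.arr (Shape.globe k) T) (ξ : GM T (RG Pred)) :
    rev hp k (rop f ξ) = A.op f (ξ.comp (revG hp)) :=
  rev_eq hp _ (.op f _ (ξ.comp (revG hp)) fun j z => ev_rep hp (ξ.app j z))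

/-- action on diagrams of classes -/
noncomputable def ract {S T : Shape} (f : C.arr S T) (ξ : GM T (RG Pred)) : GM S (RG Pred) where
  app k z := rop (C.seq (C.ofShape (cellMap z)) f) ξ
  app_src k z := rev_inj fun A σ hp => by
    refine Eq.trans ?_ (rev_rsrc hp k _).symm
    rw [rev_rop, rev_rop, ← A.act_app, ← A.act_app, GMap.app_src]
  app_tgt k z := rev_inj fun A σ hp => by
    refine Eq.trans ?_ (rev_rtgt hp k _).symm
    rw [rev_rop, rev_rop, ← A.act_app, ← A.act_app, GMap.app_tgt]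

theorem ract_revG {A : Alg C} {σ : ∀ k, V k → A.G.cell k} (hp : Pred A σ) {S T : Shape}
    (f : C.arr S T) (ξ : GM T (RG Pred)) :
    (ract f ξ).comp (revG hp) = A.act f (ξ.comp (revG hp)) :=
  GMap.ext' fun k z => (rev_rop hp _ ξ).trans (A.act_app _ _ _ _).symm

variable (Pred) in
/-- the term model -/
noncomputable def RA : Alg C where
  G := RG Pred
  act := ract
  act_seq f g ξ := revG_inj fun A σ hp => by
    rw [ract_revG, ract_revG, ract_revG, A.act_seq]
  act_ofShape f ξ := revG_inj fun A σ hp => by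
    rw [ract_revG, A.act_ofShape]; rfl

/-- evaluation as a map of algebras -/
noncomputable def revHom {A : Alg C} {σ : ∀ k, V k → A.G.cell k} (hp : Pred A σ) :
    Hom (RA Pred) A := ⟨revG hp, fun f ξ => ract_revG hp f ξ⟩

variable (Pred) in
/-- the generic assignment -/
def rvar (k : ℕ) (v : V k) : (RA Pred).G.cell k := rmk (.var v) fun _ _ _ => ⟨_, .var v⟩

theorem revHom_rvar {A : Alg C} {σ : ∀ k, V k → A.G.cell k} (hp : Pred A σ) (k : ℕ) (v : V k) :
    (revHom hp).g.app k (rvar Pred k v) = σ k v := rev_eq hp _ (.var v)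

theorem ev_hom {A : Alg C} (g : Hom (RA Pred) A) {k : ℕ} (t : Tm C V k) (h : Dfd Pred k t) :
    Ev A (fun k v => g.g.app k (rvar Pred k v)) k t (g.g.app k (rmk t h)) := by
  induction t with
  | var v => exact .var v
  | @src k t ih =>
    have ht : Dfd Pred (k + 1) t := fun A σ hp => by
      obtain ⟨x, hx⟩ := h A σ hp
      cases hx with | src hx => exact ⟨_, hx⟩
    have : rmk (.src t) h = (RA Pred).G.src k (rmk t ht) := rev_inj fun A σ hp =>
      (rev_eq hp h (.src (ev_rev hp t ht))).trans (rev_rsrc hp k _).symm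
    rw [this, g.g.app_src]
    exact .src (ih ht)
  | @tgt k t ih =>
    have ht : Dfd Pred (k + 1) t := fun A σ hp => by
      obtain ⟨x, hx⟩ := h A σ hp
      cases hx with | tgt hx => exact ⟨_, hx⟩
    have : rmk (.tgt t) h = (RA Pred).G.tgt k (rmk t ht) := rev_inj fun A σ hp =>
      (rev_eq hp h (.tgt (ev_rev hp t ht))).trans (rev_rtgt hp k _).symm
    rw [this, g.g.app_tgt]
    exact .tgt (ih ht)
  | @op k T f args ih =>
    have hex : ∀ A σ, Pred A σ → ∃ ξ : GM T A.G, ∀ j z, Ev A σ j (args j z) (ξ.app j z) := by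
      intro A σ hp
      obtain ⟨x, hx⟩ := h A σ hp
      cases hx with | op _ _ ξ hξ => exact ⟨ξ, hξ⟩
    have ha : ∀ j z, Dfd Pred j (args j z) := fun j z A σ hp => by
      obtain ⟨ξ, hξ⟩ := hex A σ hp
      exact ⟨_, hξ j z⟩
    let ζ : GM T (RG Pred) :=
      { app := fun j z => rmk (args j z) (ha j z)
        app_src := fun j z => rev_inj fun A σ hp => by
          obtain ⟨ξ, hξ⟩ := hex A σ hp
          refine Eq.trans ?_ (rev_rsrc hp j _).symm
          rw [rev_eq hp _ (hξ _ _), rev_eq hp _ (hξ _ _), ξ.app_src]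
        app_tgt := fun j z => rev_inj fun A σ hp => by
          obtain ⟨ξ, hξ⟩ := hex A σ hp
          refine Eq.trans ?_ (rev_rtgt hp j _).symm
          rw [rev_eq hp _ (hξ _ _), rev_eq hp _ (hξ _ _), ξ.app_tgt] }
    have : rmk (.op f args) h = (RA Pred).op f ζ := rev_inj fun A σ hp =>
      (rev_eq hp h (.op f args (ζ.comp (revG hp)) fun j z => ev_rev hp _ (ha j z))).trans
        ((revHom hp).map_op f ζ).symm
    rw [this, g.map_op]
    exact .op f args _ fun j z => ih j z (ha j z)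

theorem RA_hom_ext {A : Alg C} {g g' : Hom (RA Pred) A}
    (h : ∀ k v, g.g.app k (rvar Pred k v) = g'.g.app k (rvar Pred k v)) : g = g' := by
  apply Hom.ext
  apply GMap.ext'
  intro k x
  obtain ⟨t, ht, rfl⟩ := rmk_surj x
  have h1 := ev_hom g t ht
  have h2 := ev_hom g' t ht
  have e : (fun k v => g.g.app k (rvar Pred k v)) = fun k v => g'.g.app k (rvar Pred k v) := by
    funext k v; exact h k v
  rw [e] at h1
  exact h1.unique h2

end

theorem exists_free (Pred : ∀ A : Alg C, (∀ k, V k → A.G.cell k) → Prop) :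
    ∃ (R : Alg C) (ρ : ∀ k, V k → R.G.cell k),
      (∀ A σ, Pred A σ → ∃ g : Hom R A, ∀ k v, g.g.app k (ρ k v) = σ k v) ∧
      (∀ A (g g' : Hom R A), (∀ k v, g.g.app k (ρ k v) = g'.g.app k (ρ k v)) → g = g') ∧
      ∀ k (x y : R.G.cell k), (∀ A σ, Pred A σ → ∀ g : Hom R A,
        (∀ k v, g.g.app k (ρ k v) = σ k v) → g.g.app k x = g.g.app k y) → x = y :=
  ⟨RA Pred, rvar Pred, fun _ _ hp => ⟨revHom hp, revHom_rvar hp⟩, fun _ _ _ h => RA_hom_ext h,
    fun _ _ _ h => rev_inj fun A σ hp => h A σ hp (revHom hp) (revHom_rvar hp)⟩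

end Crest.Agent.R248
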