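import Mathlib
import Crest.Prelude.Def_GlobularCoherator

/-! Globular sets: maps between universes, iterated faces, spheres, lifting properties. -/

set_option autoImplicit false

universe u v w w'

namespace Crest.Agent.R248

open Crest.GeometryTopology.Coherator

/-- Maps of globular sets living in possibly different universes. -/
@[ext]
structure GMap (X : GlobSet.{v}) (Y : GlobSet.{w}) : Type (max v w) where
  app : (n : ℕ) → X.cell n → Y.cell n
  app_src : ∀ (n : ℕ) (x : X.cell (n + 1)), app n (X.src n x) = Y.src n (app (n + 1) x)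
  app_tgt : ∀ (n : ℕ) (x : X.cell (n + 1)), app n (X.tgt n x) = Y.tgt n (app (n + 1) x)

section Spheres

variable {G : GlobSet.{v}}

/-- lower pole of a positive-dimensional sphere -/
def lo {n : ℕ} (γ : G.Sphere (n + 1)) : G.cell n := γ.1.1
/-- upper pole of a positive-dimensional sphere -/
def hi {n : ℕ} (γ : G.Sphere (n + 1)) : G.cell n := γ.1.2

theorem sphere_ext {n : ℕ} {γ δ : G.Sphere (n + 1)} (h1 : lo γ = lo δ) (h2 : hi γ = hi δ) :
    γ = δ := Subtype.ext (Prod.ext h1 h2)

theorem sphere_zero_eq (γ δ : G.Sphere 0) : γ = δ := rfl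

@[simp] theorem lo_bdry {n : ℕ} (x : G.cell (n + 1)) : lo (G.bdry (n + 1) x) = G.src n x := rfl
@[simp] theorem hi_bdry {n : ℕ} (x : G.cell (n + 1)) : hi (G.bdry (n + 1) x) = G.tgt n x := rfl

theorem bdry_eq_iff {n : ℕ} {x : G.cell (n + 1)} {γ : G.Sphere (n + 1)} :
    G.bdry (n + 1) x = γ ↔ G.src n x = lo γ ∧ G.tgt n x = hi γ :=
  ⟨fun h => by rw [← h]; exact ⟨rfl, rfl⟩, fun h => sphere_ext h.1 h.2⟩

theorem areParallel_iff {n : ℕ} {a b : G.cell n} :
    G.AreParallel n a b ↔ G.bdry n a = G.bdry n b := by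
  cases n with
  | zero => exact ⟨fun _ => rfl, fun _ => trivial⟩
  | succ n => rw [bdry_eq_iff]; rfl

/-- the sphere with given poles -/
def mkS {n : ℕ} (a b : G.cell n) (h : G.bdry n a = G.bdry n b) : G.Sphere (n + 1) :=
  ⟨(a, b), areParallel_iff.2 h⟩

@[simp] theorem lo_mkS {n : ℕ} (a b : G.cell n) (h : G.bdry n a = G.bdry n b) :
    lo (mkS a b h) = a := rfl
@[simp] theorem hi_mkS {n : ℕ} (a b : G.cell n) (h : G.bdry n a = G.bdry n b) :
    hi (mkS a b h) = b := rfl

theorem bdry_hi {n : ℕ} (γ : G.Sphere (n + 1)) : G.bdry n (hi γ) = G.bdry n (lo γ) :=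
  (areParallel_iff.1 γ.2).symm

theorem bdry_tgt {n : ℕ} (x : G.cell (n + 1)) : G.bdry n (G.tgt n x) = G.bdry n (G.src n x) :=
  bdry_hi (G.bdry (n + 1) x)

theorem src_eq_of_bdry {n : ℕ} {x y : G.cell (n + 1)} (h : G.bdry _ x = G.bdry _ y) :
    G.src n x = G.src n y := congrArg lo h

theorem tgt_eq_of_bdry {n : ℕ} {x y : G.cell (n + 1)} (h : G.bdry _ x = G.bdry _ y) :
    G.tgt n x = G.tgt n y := congrArg hi h

theorem Step.bdry_eq {n : ℕ} {x y : G.cell n} (h : G.Step n x y) : G.bdry n x = G.bdry n y := by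
  obtain ⟨c, rfl, rfl⟩ := h
  exact (bdry_tgt c).symm

end Spheres

section Faces

variable (G : GlobSet.{v})

/-- source or target -/
def bd (ε : Bool) (n : ℕ) (x : G.cell (n + 1)) : G.cell n :=
  match ε with
  | false => G.src n x
  | true => G.tgt n x

/-- iterated face -/
def face (ε : Bool) {m n : ℕ} (h : m < n) : G.cell n → G.cell m :=
  Nat.leRec (motive := fun n _ => G.cell n → G.cell m) (bd G ε m)
    (fun n _ ih x => ih (G.src n x)) h

variable {G}

theorem face_self (ε : Bool) {m : ℕ} (h : m < m + 1) (x : G.cell (m + 1)) :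
    face G ε h x = bd G ε m x := by
  unfold face
  rw [Nat.leRec_self]

@[simp] theorem face_false_self {m : ℕ} (h : m < m + 1) (x : G.cell (m + 1)) :
    face G false h x = G.src m x := face_self _ _ _

@[simp] theorem face_true_self {m : ℕ} (h : m < m + 1) (x : G.cell (m + 1)) :
    face G true h x = G.tgt m x := face_self _ _ _

theorem face_succ (ε : Bool) {m n : ℕ} (h : m < n) (h' : m < n + 1) (x : G.cell (n + 1)) :
    face G ε h' x = face G ε h (G.src n x) := by
  unfold face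
  rw [Nat.leRec_succ (h1 := h)]

theorem face_congr (ε : Bool) {m n : ℕ} (h : m < n) {x y : G.cell n}
    (hxy : G.bdry n x = G.bdry n y) : face G ε h x = face G ε h y := by
  obtain ⟨n, rfl⟩ : ∃ n', n = n' + 1 := ⟨n - 1, by omega⟩
  rcases Nat.lt_succ_iff_lt_or_eq.1 h with h' | rfl
  · rw [face_succ ε h', face_succ ε h', src_eq_of_bdry hxy]
  · cases ε
    · simpa using src_eq_of_bdry hxy
    · simpa using tgt_eq_of_bdry hxy

theorem face_succ_tgt (ε : Bool) {m n : ℕ} (h : m < n) (h' : m < n + 1) (x : G.cell (n + 1)) :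
    face G ε h' x = face G ε h (G.tgt n x) := by
  rw [face_succ ε h, face_congr ε h (bdry_tgt x)]

theorem face_face (ε ε' : Bool) {l m n : ℕ} (h1 : l < m) (h2 : m < n) (h3 : l < n)
    (x : G.cell n) : face G ε h1 (face G ε' h2 x) = face G ε h3 x := by
  induction n, h2 using Nat.le_induction with
  | base =>
    cases ε'
    · rw [face_false_self, ← face_succ]
    · rw [face_true_self, ← face_succ_tgt]
  | succ n hmn ih =>
    rw [face_succ ε' hmn, ih (h1.trans hmn), ← face_succ]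

theorem src_face (ε : Bool) {m n : ℕ} (h : m + 1 < n) (h' : m < n) (x : G.cell n) :
    G.src m (face G ε h x) = face G false h' x := by
  rw [← face_false_self (Nat.lt_succ_self m), face_face]

theorem tgt_face (ε : Bool) {m n : ℕ} (h : m + 1 < n) (h' : m < n) (x : G.cell n) :
    G.tgt m (face G ε h x) = face G true h' x := by
  rw [← face_true_self (Nat.lt_succ_self m), face_face]

theorem bdry_face (ε ε' : Bool) {m n : ℕ} (h : m < n) (x : G.cell n) :
    G.bdry m (face G ε h x) = G.bdry m (face G ε' h x) := by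
  cases m with
  | zero => rfl
  | succ m =>
    apply sphere_ext
    · simp only [lo_bdry]; rw [src_face ε h (by omega), src_face ε' h (by omega)]
    · simp only [hi_bdry]; rw [tgt_face ε h (by omega), tgt_face ε' h (by omega)]

end Faces

namespace GMap

variable {X : GlobSet.{v}} {Y : GlobSet.{w}} {Z : GlobSet.{w'}}

/-- identity -/
def id (X : GlobSet.{v}) : GMap X X where
  app _ x := x
  app_src _ _ := rfl
  app_tgt _ _ := rfl

/-- composition in diagrammatic order -/
def comp (f : GMap X Y) (g : GMap Y Z) : GMap X Z where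
  app n x := g.app n (f.app n x)
  app_src n x := by rw [f.app_src, g.app_src]
  app_tgt n x := by rw [f.app_tgt, g.app_tgt]

@[simp] theorem id_app (n : ℕ) (x : X.cell n) : (GMap.id X).app n x = x := rfl
@[simp] theorem comp_app (f : GMap X Y) (g : GMap Y Z) (n : ℕ) (x : X.cell n) :
    (f.comp g).app n x = g.app n (f.app n x) := rfl

theorem ext' {f g : GMap X Y} (h : ∀ n x, f.app n x = g.app n x) : f = g := by
  ext n x; exact h n x

theorem congr_app {f g : GMap X Y} (h : f = g) (n : ℕ) (x : X.cell n) : f.app n x = g.app n x := by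
  rw [h]

@[simp] theorem id_comp (f : GMap X Y) : (GMap.id X).comp f = f := rfl
@[simp] theorem comp_id (f : GMap X Y) : f.comp (GMap.id Y) = f := rfl
theorem comp_assoc {W : GlobSet.{u}} (f : GMap X Y) (g : GMap Y Z) (h : GMap Z W) :
    (f.comp g).comp h = f.comp (g.comp h) := rfl

/-- action on spheres -/
def sph (f : GMap X Y) : (n : ℕ) → X.Sphere n → Y.Sphere n
  | 0, _ => PUnit.unit
  | n + 1, s => ⟨(f.app n (lo s), f.app n (hi s)), by
      cases n with
      | zero => trivial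
      | succ n =>
        exact ⟨by rw [← f.app_src, ← f.app_src]; exact congrArg _ s.2.1,
          by rw [← f.app_tgt, ← f.app_tgt]; exact congrArg _ s.2.2⟩⟩

@[simp] theorem lo_sph (f : GMap X Y) {n : ℕ} (s : X.Sphere (n + 1)) :
    lo (f.sph (n + 1) s) = f.app n (lo s) := rfl
@[simp] theorem hi_sph (f : GMap X Y) {n : ℕ} (s : X.Sphere (n + 1)) :
    hi (f.sph (n + 1) s) = f.app n (hi s) := rfl

theorem bdry_app (f : GMap X Y) (n : ℕ) (x : X.cell n) :
    Y.bdry n (f.app n x) = f.sph n (X.bdry n x) := by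
  cases n with
  | zero => rfl
  | succ n => exact sphere_ext (f.app_src n x).symm (f.app_tgt n x).symm

theorem sph_comp (f : GMap X Y) (g : GMap Y Z) (n : ℕ) (s : X.Sphere n) :
    (f.comp g).sph n s = g.sph n (f.sph n s) := by
  cases n with
  | zero => rfl
  | succ n => rfl

theorem sph_id (n : ℕ) (s : X.Sphere n) : (GMap.id X).sph n s = s := by
  cases n with
  | zero => rfl
  | succ n => rfl

theorem app_face (f : GMap X Y) (ε : Bool) {m n : ℕ} (h : m < n) (x : X.cell n) :
    f.app m (face X ε h x) = face Y ε h (f.app n x) := by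
  induction n, h using Nat.le_induction with
  | base =>
    cases ε
    · simp only [face_false_self, f.app_src]
    · simp only [face_true_self, f.app_tgt]
  | succ n hmn ih => rw [face_succ ε hmn, face_succ ε hmn, ih, f.app_src]

theorem step (f : GMap X Y) {n : ℕ} {x y : X.cell n} (h : X.Step n x y) :
    Y.Step n (f.app n x) (f.app n y) := by
  obtain ⟨c, rfl, rfl⟩ := h
  exact ⟨f.app _ c, (f.app_src n c).symm, (f.app_tgt n c).symm⟩

theorem par (f : GMap X Y) {n : ℕ} {x y : X.cell n} (h : X.bdry n x = X.bdry n y) :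
    Y.bdry n (f.app n x) = Y.bdry n (f.app n y) := by
  rw [f.bdry_app, f.bdry_app, h]

end GMap

section Recursion

variable {X : GlobSet.{v}} {Y : GlobSet.{w}}

/-- a relation on cells extended to spheres -/
def SRel (Φ : ∀ k, X.cell k → Y.cell k → Prop) : (k : ℕ) → X.Sphere k → Y.Sphere k → Prop
  | 0, _, _ => True
  | k + 1, δ, γ => Φ k (lo δ) (lo γ) ∧ Φ k (hi δ) (hi γ)

theorem SRel.sph_eq {Z : GlobSet.{w'}} {Φ : ∀ k, X.cell k → Y.cell k → Prop} (f : GMap X Z)
    (g : GMap Y Z) (hΦ : ∀ k x y, Φ k x y → g.app k y = f.app k x) {k : ℕ} {δ : X.Sphere k}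
    {γ : Y.Sphere k} (h : SRel Φ k δ γ) : g.sph k γ = f.sph k δ := by
  cases k with
  | zero => rfl
  | succ k => exact sphere_ext (hΦ _ _ _ h.1) (hΦ _ _ _ h.2)

/-- Construction of globular maps by recursion on the dimension. -/
theorem exists_gmap (Φ : ∀ k, X.cell k → Y.cell k → Prop)
    (h : ∀ k (x : X.cell k) (γ : Y.Sphere k), SRel Φ k (X.bdry k x) γ →
      ∃ y, Y.bdry k y = γ ∧ Φ k x y) :
    ∃ f : GMap X Y, ∀ k x, Φ k x (f.app k x) := by
  classical
  choose c hc1 hc2 using h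
  let D : ℕ → Type _ := fun k => {f : X.cell k → Y.cell k //
    (∀ x, Φ k x (f x)) ∧ ∀ x x', X.bdry k x = X.bdry k x' → Y.bdry k (f x) = Y.bdry k (f x')}
  let D0 : D 0 := ⟨fun x => c 0 x PUnit.unit trivial, fun x => hc2 _ _ _ _, fun _ _ _ => rfl⟩
  let Ds : ∀ k, D k → D (k + 1) := fun k f =>
    ⟨fun x => c (k + 1) x (mkS (f.1 (X.src k x)) (f.1 (X.tgt k x)) (f.2.2 _ _ (bdry_tgt x).symm))
        ⟨f.2.1 _, f.2.1 _⟩, fun x => hc2 _ _ _ _, fun x x' hx => by
      refine (hc1 _ _ _ _).trans (Eq.trans ?_ (hc1 _ _ _ _).symm)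
      apply sphere_ext
      · simp only [lo_mkS]; rw [src_eq_of_bdry hx]
      · simp only [hi_mkS]; rw [tgt_eq_of_bdry hx]⟩
  let F : ∀ k, D k := fun k => Nat.rec D0 Ds k
  refine ⟨⟨fun k => (F k).1, fun k x => ?_, fun k x => ?_⟩, fun k x => (F k).2.1 x⟩
  · exact (congrArg lo (hc1 (k + 1) x (mkS ((F k).1 (X.src k x)) ((F k).1 (X.tgt k x))
      ((F k).2.2 _ _ (bdry_tgt x).symm)) ⟨(F k).2.1 _, (F k).2.1 _⟩)).symm
  · exact (congrArg hi (hc1 (k + 1) x (mkS ((F k).1 (X.src k x)) ((F k).1 (X.tgt k x))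
      ((F k).2.2 _ _ (bdry_tgt x).symm)) ⟨(F k).2.1 _, (F k).2.1 _⟩)).symm

/-- A sequence indexed by `j ≥ n`, built step by step. -/
theorem exists_seq_le {n : ℕ} (α : ∀ j, n ≤ j → Sort*) (P : ∀ j h, α j h → Prop)
    (R : ∀ j (h : n ≤ j), α j h → α (j + 1) (h.trans (Nat.le_succ j)) → Prop)
    (a0 : α n le_rfl) (h0 : P n le_rfl a0)
    (step : ∀ j h a, P j h a → ∃ b, P (j + 1) _ b ∧ R j h a b) :
    ∃ f : ∀ j h, α j h, f n le_rfl = a0 ∧ (∀ j h, P j h (f j h)) ∧
      ∀ j h, R j h (f j h) (f (j + 1) _) := by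
  classical
  choose s hs1 hs2 using step
  let F : ∀ j (h : n ≤ j), {a : α j h // P j h a} := fun j h =>
    Nat.leRec (motive := fun j h => {a : α j h // P j h a}) ⟨a0, h0⟩
      (fun j h a => ⟨s j h a.1 a.2, hs1 j h a.1 a.2⟩) h
  refine ⟨fun j h => (F j h).1, ?_, fun j h => (F j h).2, fun j h => ?_⟩
  · simp only [F, Nat.leRec_self]
  · have : F (j + 1) (h.trans (Nat.le_succ j)) = ⟨s j h (F j h).1 (F j h).2, hs1 _ _ _ _⟩ := by
      simp only [F]
      rw [Nat.leRec_succ (h1 := h)]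
    simp only [this]
    exact hs2 _ _ _ _

end Recursion

section Lifting

variable {X : GlobSet.{v}} {Y : GlobSet.{w}}

/-- trivial fibration of globular sets -/
def TrivFib (p : GMap X Y) : Prop :=
  ∀ k (γ : X.Sphere k) (y : Y.cell k), Y.bdry k y = p.sph k γ →
    ∃ x, X.bdry k x = γ ∧ p.app k x = y

/-- lifting of `(k+1)`-cells with prescribed source -/
def SigmaLift (k : ℕ) (p : GMap X Y) : Prop :=
  ∀ (x : X.cell k) (w : Y.cell (k + 1)), Y.src k w = p.app k x →
    ∃ w', X.src k w' = x ∧ p.app (k + 1) w' = w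

/-- all spheres of dimension `k` bound -/
def Fill (k : ℕ) (X : GlobSet.{v}) : Prop := ∀ γ : X.Sphere k, ∃ x, X.bdry k x = γ

/-- `M`-coskeletal -/
def Cosk (M : ℕ) (X : GlobSet.{v}) : Prop :=
  ∀ k, M < k → (∀ γ : X.Sphere k, ∃ x, X.bdry k x = γ) ∧
    ∀ x y : X.cell k, X.bdry k x = X.bdry k y → x = y

/-- surjectivity up to homotopy relative to the boundary in dimension `k` -/
def WE (k : ℕ) (f : GMap X Y) : Prop :=
  ∀ (γ : X.Sphere k) (y : Y.cell k), Y.bdry k y = f.sph k γ →
    ∃ x, X.bdry k x = γ ∧ Y.Step k (f.app k x) y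

/-- `Step` is an equivalence relation -/
structure Gpd (X : GlobSet.{v}) : Prop where
  refl : ∀ k (x : X.cell k), X.Step k x x
  symm : ∀ {k} {x y : X.cell k}, X.Step k x y → X.Step k y x
  trans : ∀ {k} {x y z : X.cell k}, X.Step k x y → X.Step k y z → X.Step k x z

theorem TrivFib.lift_gmap {T : GlobSet.{u}} {p : GMap X Y} (hp : TrivFib p) (ξ : GMap T Y) :
    ∃ ξ' : GMap T X, ξ'.comp p = ξ := by
  obtain ⟨f, hf⟩ := exists_gmap (X := T) (Y := X) (fun k t x => p.app k x = ξ.app k t)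
    (fun k t γ hγ => by
      obtain ⟨x, hx1, hx2⟩ := hp k γ (ξ.app k t)
        (by rw [ξ.bdry_app, SRel.sph_eq ξ p (fun _ _ _ h => h) hγ])
      exact ⟨x, hx1, hx2⟩)
  exact ⟨f, GMap.ext' hf⟩

end Lifting

end Crest.Agent.R248
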