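import Crest.Agent.R248.Div

/-! Adding whiskers to pasting schemes. -/

set_option autoImplicit false

universe u v w

namespace Crest.Agent.R248

open Crest.GeometryTopology.Coherator CategoryTheory
open GlobTheory

/-- `T'` is obtained from `T` by adding a cell `q` with source `b` (weak universal property) -/
structure IsWh (T : Shape) {n : ℕ} (b : (gs T).cell n) (T' : Shape) (ι : GM T (gs T'))
    (q : (gs T').cell (n + 1)) : Prop where
  dim : T'.dim ≤ max T.dim (n + 1)
  src : (gs T').src n q = ι.app n b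
  ext : ∀ (G : GlobSet.{u}) (ξ : GM T G) (c : G.cell (n + 1)), G.src n c = ξ.app n b →
    ∃ ξ' : GM T' G, ι.comp ξ' = ξ ∧ ξ'.app _ q = c

/-- two cells of a shape are connected in every groupoidal diagram -/
def Conn (T : Shape) {n : ℕ} (z b : (gs T).cell n) : Prop :=
  ∀ (G : GlobSet.{u}), Gpd G → ∀ ξ : GM T G, G.Step n (ξ.app n z) (ξ.app n b)

/-- the cell is connected to the last cell of the last column -/
def AtEnd (T : Shape) {n : ℕ} (z : (gs T).cell n) : Prop :=
  (∃ h : n < T.last, Conn.{u} T z (face _ true h (apexCell T))) ∨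
    (⟨n, z⟩ : Σ k, (gs T).cell k) = ⟨T.last, apexCell T⟩

/-- a whisker can be inserted without changing the last globe -/
def Internal (T : Shape) {n : ℕ} (z : (gs T).cell n) : Prop :=
  ∃ (P' : Pasting T.last) (ι : GM T (gs ⟨T.last, P'⟩)) (q : (gs ⟨T.last, P'⟩).cell (n + 1))
    (b : (gs T).cell n), Conn.{u} T z b ∧ IsWh.{u} T b ⟨T.last, P'⟩ ι q ∧
      ι.app _ (apexCell T) = apexCell ⟨T.last, P'⟩

theorem step_face {G : GlobSet.{v}} (hG : Gpd G) (ε : Bool) {n m : ℕ} (h : n < m) (x : G.cell m) :
    G.Step n (face G ε h x) (face G true h x) := by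
  cases ε with
  | true => exact hG.refl _ _
  | false =>
    rcases Nat.lt_iff_add_one_le.1 h |>.eq_or_lt with rfl | h'
    · exact ⟨x, (face_false_self _ _).symm, (face_true_self _ _).symm⟩
    · exact ⟨face G false h' x, src_face _ _ _ _, tgt_face _ _ _ _⟩

theorem glue_face_gm {G : GlobSet.{v}} (S : Shape) (b h : ℕ) (hb : b < S.last) (hh : b < h)
    (ξ : GM (S.glue b h hb hh) G) :
    face G true hb (ξ.app _ ((shMap (S.inLeft b h hb hh)).app _ (apexCell S))) =
      face G false hh (ξ.app h (apexCell (S.glue b h hb hh))) :=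
  (ξ.app_face true hb _).symm.trans
    ((congrArg (ξ.app b) (glue_face S b h hb hh)).trans (ξ.app_face false hh _))

theorem glue_whisker {S S' : Shape} {n : ℕ} {x b0 : (gs S).cell n} {ι : GM S (gs S')}
    {q : (gs S').cell (n + 1)} (hc : Conn.{u} S x b0) (hw : IsWh.{u} S b0 S' ι q) {b h : ℕ}
    (hb : b < S.last) (hh : b < h) (hb' : b < S'.last)
    (e : face _ true hb (ι.app _ (apexCell S)) = face _ true hb' (apexCell S')) :
    Internal.{u} (S.glue b h hb hh) ((shMap (S.inLeft b h hb hh)).app n x) := by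
  obtain ⟨ι', i1, i2⟩ := glue_exists_cell hb hh (ι.comp (shMap (S'.inLeft b h hb' hh)))
    (apexCell (S'.glue b h hb' hh)) (by
      rw [GMap.comp_app, ← GMap.app_face, e, GMap.app_face]
      exact glue_face S' b h hb' hh)
  refine ⟨(S'.glue b h hb' hh).pasting, ι', (shMap (S'.inLeft b h hb' hh)).app _ q,
    (shMap (S.inLeft b h hb hh)).app n b0, fun G hG ξ => hc G hG ((shMap _).comp ξ),
    ⟨?_, ?_, fun G ξ c hc => ?_⟩, i2⟩
  · have := hw.dim
    change max S'.dim h ≤ max (max S.dim h) (n + 1)
    omega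
  · exact (GMap.app_src _ _ _).symm.trans
      ((congrArg _ hw.src).trans (GMap.congr_app i1 n b0).symm)
  · obtain ⟨θ, t1, t2⟩ := hw.ext G ((shMap (S.inLeft b h hb hh)).comp ξ) c hc
    obtain ⟨ξ', x1, x2⟩ := glue_exists_cell hb' hh θ (ξ.app h (apexCell (S.glue b h hb hh))) (by
      rw [← GMap.app_face, ← e, GMap.app_face, ← glue_face_gm S b h hb hh ξ]
      exact congrArg _ (GMap.congr_app t1 _ _))
    refine ⟨ξ', glue_ext_cell ?_ ?_, (GMap.congr_app x1 _ q).trans t2⟩
    · rw [← GMap.comp_assoc]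
      exact (congrArg (fun t => GMap.comp t ξ') i1).trans (by rw [GMap.comp_assoc, x1, t1])
    · exact (congrArg (ξ'.app h) i2).trans x2

theorem end_whisker {T : Shape} {n : ℕ} {z : (gs T).cell n} (hz : AtEnd.{u} T z) :
    ∃ (P' : Pasting (n + 1)) (ι : GM T (gs ⟨n + 1, P'⟩)) (b : (gs T).cell n), Conn.{u} T z b ∧
      IsWh.{u} T b ⟨n + 1, P'⟩ ι (apexCell ⟨n + 1, P'⟩) ∧
      ∀ b' (h1 : b' < T.last) (_ : b' < n) (h3 : b' < n + 1),
        face _ true h1 (ι.app _ (apexCell T)) = face _ true h3 (apexCell ⟨n + 1, P'⟩) := by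
  rcases hz with ⟨h, hc⟩ | hz
  · have h0 := Nat.lt_succ_self n
    refine ⟨(T.glue n (n + 1) h h0).pasting, shMap (T.inLeft n (n + 1) h h0), _, hc,
      ⟨le_rfl, ?_, fun G ξ c hc => ?_⟩, fun b' h1 h2 h3 => ?_⟩
    · exact (face_false_self _ _).symm.trans
        ((glue_face T n (n + 1) h h0).symm.trans (GMap.app_face _ _ _ _).symm)
    · exact glue_exists_cell h h0 ξ c (by rw [face_false_self, hc, GMap.app_face])
    · rw [← face_face true true h2 h h1]
      exact (congrArg (face _ true h2) (glue_face T n (n + 1) h h0)).trans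
        (face_face true false h2 h0 h3 _)
  · induction T using shape_induction with
    | h1 k =>
      cases hz
      refine ⟨Pasting.single _, single ((gs (Shape.globe (k + 1))).src k (top (k + 1))), top k,
        fun G hG ξ => hG.refl _ _, ⟨le_max_right _ _, rfl, fun G ξ c hc => ?_⟩,
        fun b' h1 h2 h3 => (face_succ true h1 h3 _).symm⟩
      refine ⟨single c, globe_ext ?_, rfl⟩
      exact (GMap.app_src (single c) k (top (k + 1))).trans hc
    | h2 S b h hb hh _ =>
      cases hz
      have hh' : b < h + 1 := Nat.lt_succ_of_lt hh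
      obtain ⟨ι, i1, i2⟩ := glue_exists_cell hb hh (shMap (S.inLeft b (h + 1) hb hh'))
        ((gs (S.glue b (h + 1) hb hh')).src h (apexCell (S.glue b (h + 1) hb hh')))
        ((glue_face S b (h + 1) hb hh').trans (face_succ false hh hh' _))
      refine ⟨(S.glue b (h + 1) hb hh').pasting, ι, apexCell _, fun G hG ξ => hG.refl _ _,
        ⟨?_, i2.symm, fun G ξ c hc => ?_⟩, fun b' h1 h2 h3 => ?_⟩
      · change max S.dim (h + 1) ≤ max (max S.dim h) (h + 1)
        omega
      · obtain ⟨ξ', x1, x2⟩ := glue_exists_cell hb hh' ((shMap (S.inLeft b h hb hh)).comp ξ) c (by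
          rw [face_succ false hh hh']
          exact (glue_face_gm S b h hb hh ξ).trans (congrArg (face G false hh) hc.symm))
        refine ⟨ξ', glue_ext_cell ?_ ?_, x2⟩
        · rw [← GMap.comp_assoc]
          exact (congrArg (fun t => GMap.comp t ξ') i1).trans x1
        · exact (congrArg (ξ'.app h) i2).trans ((ξ'.app_src _ _).trans (by rw [x2]; exact hc))
      · exact (congrArg (face _ true h1) i2).trans (face_succ true h1 h3 _).symm

theorem internal_or_atEnd (T : Shape) :
    ∀ (n : ℕ) (z : (gs T).cell n), Internal.{u} T z ∨ AtEnd.{u} T z := by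
  induction T using shape_induction with
  | h1 k =>
    apply globe_cell_cases
    · exact Or.inr (Or.inr rfl)
    · intro m h ε
      refine Or.inr (Or.inl ⟨h, fun G hG ξ => ?_⟩)
      rw [GMap.app_face]
      exact (ξ.app_face true h (top k)).symm ▸ step_face hG ε h _
  | h2 S b h hb hh ih =>
    intro n z
    rcases glue_cases S b h hb hh z with ⟨x, rfl⟩ | ⟨y, rfl⟩
    · rcases ih n x with ⟨P', ι, q, b0, hc, hw, e⟩ | he
      · exact Or.inl (glue_whisker hc hw hb hh hb (congrArg _ e))
      · by_cases hbn : b < n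
        · obtain ⟨P', ι, b0, hc, hw, e⟩ := end_whisker he
          exact Or.inl (glue_whisker hc hw hb hh (Nat.lt_succ_of_lt hbn) (e b hb hbn _))
        · rcases he with ⟨hn, hc⟩ | he
          · have hnh : n < h := by omega
            refine Or.inr (Or.inl ⟨hnh, fun G hG ξ => hG.trans (hc G hG ((shMap _).comp ξ)) ?_⟩)
            have e1 := glue_face_gm S b h hb hh ξ
            have e2 := ξ.app_face true hnh (apexCell (S.glue b h hb hh))
            have e3 := ((shMap (S.inLeft b h hb hh)).comp ξ).app_face true hn (apexCell S)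
            refine e2.symm ▸ e3.symm ▸ ?_
            rcases (not_lt.1 hbn).eq_or_lt with rfl | hnb
            · exact e1.symm ▸ step_face hG false _ _
            · rw [← face_face true true hnb hb hn, ← face_face true false hnb hh hnh]
              exact e1.symm ▸ hG.refl _ _
          · have := congrArg Sigma.fst he
            simp only at this
            omega
    · revert n
      apply globe_cell_cases
      · exact Or.inr (Or.inr rfl)
      · intro m hm ε
        refine Or.inr (Or.inl ⟨hm, fun G hG ξ => ?_⟩)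
        have e1 := ((shMap (S.inRight b h hb hh)).comp ξ).app_face ε hm (top h)
        have e2 := ξ.app_face true hm (apexCell (S.glue b h hb hh))
        exact e2.symm ▸ e1.symm ▸ step_face hG ε hm _

theorem exists_whisker (T : Shape) {n : ℕ} (z : (gs T).cell n) :
    ∃ (T' : Shape) (ι : GM T (gs T')) (q : (gs T').cell (n + 1)) (b : (gs T).cell n),
      Conn.{u} T z b ∧ IsWh.{u} T b T' ι q := by
  rcases internal_or_atEnd.{u} T n z with ⟨P', ι, q, b, hc, hw, -⟩ | he
  · exact ⟨_, ι, q, b, hc, hw⟩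
  · obtain ⟨P', ι, b, hc, hw, -⟩ := end_whisker he
    exact ⟨_, ι, _, b, hc, hw⟩

variable {C : GlobTheory.{u}}

theorem exists_multi (hC : Contr C) (o : Ops C) (n : ℕ) (T : Shape) (I : Type) [Finite I] :
    ∀ (z : I → (gs T).cell n), ∃ (T' : Shape) (ι : GM T (gs T'))
      (q : I → (FA C T').G.cell (n + 1)), T'.dim ≤ max T.dim (n + 1) ∧
      (∀ i, (FA C T').G.src n (q i) = (gen C T').app n (ι.app n (z i))) ∧
      ∀ (A : Alg C) (ξ : GM T A.G) (p : I → A.G.cell (n + 1)),
        (∀ i, A.G.src n (p i) = ξ.app n (z i)) →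
        ∃ ξ' : GM T' A.G, ι.comp ξ' = ξ ∧ ∀ i, A.G.Step (n + 1) ((lift ξ').g.app _ (q i)) (p i) := by
  induction I using Finite.induction_empty_option with
  | @of_equiv I J e ih =>
    intro z
    obtain ⟨T', ι, q, h1, h2, h3⟩ := ih (fun i => z (e i))
    refine ⟨T', ι, fun j => q (e.symm j), h1, fun j => by rw [h2, e.apply_symm_apply],
      fun A ξ p hp => ?_⟩
    obtain ⟨ξ', e1, e2⟩ := h3 A ξ (fun i => p (e i)) (fun i => hp _)
    refine ⟨ξ', e1, fun j => ?_⟩
    have := e2 (e.symm j)
    rwa [e.apply_symm_apply] at this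
  | h_empty =>
    intro z
    exact ⟨T, GMap.id _, fun i => i.elim, le_max_left _ _, fun i => i.elim,
      fun A ξ p _ => ⟨ξ, rfl, fun i => i.elim⟩⟩
  | @h_option I _ ih =>
    intro z
    obtain ⟨T', ι, q, h1, h2, h3⟩ := ih (fun i => z (some i))
    obtain ⟨T'', ι', q0, b, hc, hw⟩ := exists_whisker.{u} T' (ι.app n (z none))
    obtain ⟨w, w1, w2⟩ := hc _ (o.gpd (FA C T')) (gen C T')
    let φ : Hom (FA C T') (FA C T'') := lift (ι'.comp (gen C T''))
    have hφ : ∀ k t, φ.g.app k ((gen C T').app k t) = (gen C T'').app k (ι'.app k t) :=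
      fun k t => lift_gen_app _ k t
    have g1 : (FA C T'').G.src n ((gen C T'').app _ q0) = (FA C T'').G.tgt n (φ.g.app _ w) := by
      rw [← GMap.app_src, ← GMap.app_tgt, hw.src, w2, hφ]
    refine ⟨T'', ι.comp ι', fun i => match i with
      | none => o.mul n (φ.g.app _ w) (o.un ((FA C T'').G.tgt n ((gen C T'').app _ q0))) (n + 1)
          ((gen C T'').app _ q0)
      | some i => φ.g.app _ (q i), ?_, fun i => ?_, fun A ξ p hp => ?_⟩
    · have := hw.dim
      omega
    · cases i with
      | none =>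
        refine (o.src_mul g1 (o.src_un _).symm).trans ?_
        rw [← GMap.app_src, w1, hφ]; rfl
      | some i =>
        refine (φ.g.app_src _ _).symm.trans ?_
        rw [h2, hφ]; rfl
    · obtain ⟨ξ1, e1, e2⟩ := h3 A ξ (fun i => p (some i)) (fun i => hp _)
      obtain ⟨c, c1, c2, c3⟩ := o.mul_surj hC ((lift ξ1).g.app _ w) (p none) (by
        rw [← GMap.app_src, w1, lift_gen_app, hp, ← e1]; rfl)
      obtain ⟨ξ2, f1, f2⟩ := hw.ext A.G ξ1 c (by rw [c1, ← GMap.app_tgt, w2, lift_gen_app])
      have hl : φ.comp (lift ξ2) = lift ξ1 := by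
        rw [lift_comp, GMap.comp_assoc, gen_lift, f1]
      refine ⟨ξ2, by rw [GMap.comp_assoc, f1, e1], fun i => ?_⟩
      cases i with
      | none =>
        have := o.map_mul' (lift ξ2) g1 (o.src_un _).symm
        refine this.symm ▸ ?_
        rw [o.map_un, GMap.app_tgt, lift_gen_app, f2, c2]
        exact (Hom.congr_app hl _ w).symm ▸ c3
      | some i => exact (Hom.congr_app hl _ (q i)).symm ▸ e2 i

end Crest.Agent.R248
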