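import Crest.Agent.R248.Tower

/-! Coskeleta of algebras. -/

set_option autoImplicit false

universe u v w

namespace Crest.Agent.R248

open Crest.GeometryTopology.Coherator CategoryTheory
open GlobTheory

/-- stage of the construction of the coskeleton -/
structure KStage (G : GlobSet.{u}) (M k : ℕ) : Type (u + 1) where
  Bd : Type u
  b : Bd → k ≤ M → G.Sphere k

/-- cells of the coskeleton -/
@[ext]
structure KCell {G : GlobSet.{u}} {M k : ℕ} (s : KStage G M k) : Type u where
  β : s.Bd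
  x : k ≤ M → G.cell k
  hx : ∀ h, G.bdry k (x h) = s.b β h

section

variable (G : GlobSet.{u}) (M : ℕ)

/-- next stage -/
def KStage.next {G : GlobSet.{u}} {M k : ℕ} (s : KStage G M k) : KStage G M (k + 1) where
  Bd := {p : KCell s × KCell s // p.1.β = p.2.β}
  b p h := mkS (p.1.1.x (Nat.le_of_succ_le h)) (p.1.2.x (Nat.le_of_succ_le h))
    (by rw [p.1.1.hx, p.1.2.hx, p.2])

/-- the stages -/
def kstage : (k : ℕ) → KStage G M k
  | 0 => ⟨PUnit, fun _ _ => PUnit.unit⟩
  | k + 1 => (kstage k).next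

/-- the coskeleton -/
def KG : GlobSet.{u} where
  cell k := KCell (kstage G M k)
  src _ c := c.β.1.1
  tgt _ c := c.β.1.2
  src_src _ c := congrArg (fun t => t.1.1) c.β.2
  tgt_tgt _ c := congrArg (fun t => t.1.2) c.β.2

variable {G M}

theorem KG_β_eq {k : ℕ} {c c' : (KG G M).cell k} (h : (KG G M).bdry k c = (KG G M).bdry k c') :
    c.β = c'.β := by
  cases k with
  | zero => rfl
  | succ k => exact Subtype.ext (Prod.ext (src_eq_of_bdry h) (tgt_eq_of_bdry h))

/-- boundary data of a sphere -/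
def kBd : (k : ℕ) → (KG G M).Sphere k → (kstage G M k).Bd
  | 0, _ => PUnit.unit
  | _ + 1, γ => ⟨(lo γ, hi γ), KG_β_eq (bdry_hi γ).symm⟩

theorem KG_bdry_of_β {k : ℕ} {c : (KG G M).cell k} {γ : (KG G M).Sphere k} (h : c.β = kBd k γ) :
    (KG G M).bdry k c = γ := by
  cases k with
  | zero => rfl
  | succ k => exact sphere_ext (congrArg (fun t => t.1.1) h) (congrArg (fun t => t.1.2) h)

theorem KG_ext {k : ℕ} {c c' : (KG G M).cell k} (h : (KG G M).bdry k c = (KG G M).bdry k c')
    (hx : ∀ hk, c.x hk = c'.x hk) : c = c' :=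
  KCell.ext (KG_β_eq h) (funext hx)

theorem KG_cosk : Cosk M (KG G M) := by
  intro k hk
  refine ⟨fun γ => ⟨⟨kBd k γ, fun h => absurd h (by omega), fun h => absurd h (by omega)⟩,
    KG_bdry_of_β rfl⟩, fun x y h => KG_ext h fun h => absurd h (by omega)⟩

theorem KG_src_x {k : ℕ} (c : (KG G M).cell (k + 1)) (h : k + 1 ≤ M) (h' : k ≤ M) :
    ((KG G M).src k c).x h' = G.src k (c.x h) := (congrArg lo (c.hx h)).symm

theorem KG_tgt_x {k : ℕ} (c : (KG G M).cell (k + 1)) (h : k + 1 ≤ M) (h' : k ≤ M) :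
    ((KG G M).tgt k c).x h' = G.tgt k (c.x h) := (congrArg hi (c.hx h)).symm

theorem KG_x_inj {k : ℕ} (hk : k ≤ M) {c c' : (KG G M).cell k} (h : c.x hk = c'.x hk) : c = c' := by
  induction k with
  | zero => exact KG_ext rfl fun _ => h
  | succ k ih =>
    refine KG_ext (sphere_ext ?_ ?_) fun _ => h
    · apply ih (Nat.le_of_succ_le hk)
      rw [lo_bdry, lo_bdry, KG_src_x c hk, KG_src_x c' hk, h]
    · apply ih (Nat.le_of_succ_le hk)
      rw [hi_bdry, hi_bdry, KG_tgt_x c hk, KG_tgt_x c' hk, h]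

variable (G M) in
theorem exists_eta : ∃ η : GMap G (KG G M), ∀ k, k ≤ M → Function.Bijective (η.app k) := by
  obtain ⟨η, hη⟩ := exists_gmap (X := G) (Y := KG G M) (fun k x c => ∀ h, c.x h = x)
    (fun k x γ hγ => by
      refine ⟨⟨kBd k γ, fun _ => x, fun h => ?_⟩, KG_bdry_of_β rfl, fun _ => rfl⟩
      cases k with
      | zero => rfl
      | succ k => exact sphere_ext (hγ.1 _).symm (hγ.2 _).symm)
  refine ⟨η, fun k hk => ⟨fun x y h => ?_, fun c => ⟨c.x hk, KG_x_inj hk (hη k _ hk)⟩⟩⟩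
  rw [← hη k x hk, h, hη k y hk]

end

section

variable {X : GlobSet.{v}} {Y : GlobSet.{w}} {M : ℕ}

theorem gm_lift_of_bij {η : GMap X Y} (hη : ∀ k, k ≤ M → Function.Bijective (η.app k))
    {T : Shape} (hT : T.dim ≤ M) (ξ : GM T Y) : ∃ ξ0 : GM T X, ξ0.comp η = ξ := by
  have H : ∀ k (z : (gs T).cell k), ∃ a, η.app k a = ξ.app k z := fun k z =>
    (hη k ((cell_le_dim T k z).trans hT)).2 _
  choose a ha using H
  refine ⟨⟨a, fun k z => ?_, fun k z => ?_⟩, GMap.ext' ha⟩
  · apply (hη k ((cell_le_dim T k ((gs T).src k z)).trans hT)).1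
    rw [ha, η.app_src, ha, ξ.app_src]
  · apply (hη k ((cell_le_dim T k ((gs T).src k z)).trans hT)).1
    rw [ha, η.app_tgt, ha, ξ.app_tgt]

theorem gm_inj_of_bij {η : GMap X Y} (hη : ∀ k, k ≤ M → Function.Bijective (η.app k))
    {T : Shape} (hT : T.dim ≤ M) {ξ ζ : GM T X} (h : ξ.comp η = ζ.comp η) : ξ = ζ :=
  GMap.ext' fun k z => (hη k ((cell_le_dim T k z).trans hT)).1 (GMap.congr_app h k z)

theorem sph_bij_of_bij {η : GMap X Y} (hη : ∀ k, k ≤ M → Function.Bijective (η.app k))
    {k : ℕ} (hk : k ≤ M + 1) : Function.Bijective (η.sph k) := by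
  have inj : ∀ j, j ≤ M + 1 → Function.Injective (η.sph j) := by
    intro j hj
    cases j with
    | zero => exact fun _ _ _ => rfl
    | succ j =>
      exact fun γ δ h => sphere_ext ((hη j (by omega)).1 (congrArg lo h))
        ((hη j (by omega)).1 (congrArg hi h))
  refine ⟨inj k hk, ?_⟩
  cases k with
  | zero => exact fun _ => ⟨PUnit.unit, rfl⟩
  | succ k =>
    intro γ
    obtain ⟨a, ha⟩ := (hη k (by omega)).2 (lo γ)
    obtain ⟨b, hb⟩ := (hη k (by omega)).2 (hi γ)
    refine ⟨mkS a b (inj k (by omega) ?_), sphere_ext ha hb⟩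
    rw [← η.bdry_app, ← η.bdry_app, ha, hb, bdry_hi]

end

variable {C : GlobTheory.{u}}

theorem exists_kappa (hT : Nonempty C.Tower) (M : ℕ) (A : Alg C) :
    ∃ (K : Alg C) (η : Hom A K), Cosk M K.G ∧ ∀ k, k ≤ M → Function.Bijective (η.g.app k) := by
  obtain ⟨η, hη⟩ := exists_eta A.G M
  obtain ⟨Φ, h1, h2, h3⟩ := exists_action (C := C) (I := Unit) (G := fun _ => KG A.G M)
    (Good := fun {S T} f φ => ∀ ξ : GM T A.G, φ () (ξ.comp η) = (A.act f ξ).comp η) hT
    ⟨fun f ξ => by rw [A.act_ofShape]; rfl,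
      fun hf hg ξ => by simp only [hg, hf, A.act_seq],
      fun {S W b h hb hh f φ} h1 h2 ξ => by
        apply glue_ext
        · refine (h1 ξ).trans ?_
          rw [A.act_seq, A.act_ofShape]; rfl
        · refine (h2 ξ).trans ?_
          rw [A.act_seq, A.act_ofShape]; rfl⟩
    (by
      intro n T hTd z φm φp hm hp hpar
      by_cases hn : n + 1 ≤ M
      · choose l hl using fun ξ : GM T (KG A.G M) => gm_lift_of_bij hη (hTd.trans hn) ξ
        refine ⟨fun _ ξ => η.app _ (A.op z (l ξ)), fun i ξ => ⟨?_, ?_⟩, fun ξ => ?_⟩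
        · rw [← η.app_src, A.src_op]
          conv_rhs => rw [← hl ξ]
          exact (GMap.congr_app (hm (l ξ)) n (top n)).symm
        · rw [← η.app_tgt, A.tgt_op]
          conv_rhs => rw [← hl ξ]
          exact (GMap.congr_app (hp (l ξ)) n (top n)).symm
        · apply globe_ext
          have : l (ξ.comp η) = ξ := gm_inj_of_bij hη (hTd.trans hn) (hl _)
          simp only [this]
          rfl
      · choose o ho using fun ξ : GM T (KG A.G M) =>
          (KG_cosk (n + 1) (by omega)).1 (mkS _ _ (hpar () ξ))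
        refine ⟨fun _ ξ => o ξ, fun i ξ => ⟨congrArg lo (ho ξ), congrArg hi (ho ξ)⟩, fun ξ => ?_⟩
        apply globe_ext
        apply (KG_cosk (n + 1) (by omega)).2
        refine (ho _).trans (sphere_ext ?_ ?_)
        · refine (GMap.congr_app (hm ξ) n (top n)).trans ?_
          exact (congrArg (η.app n) (A.src_op z ξ).symm).trans (η.app_src _ _)
        · refine (GMap.congr_app (hp ξ) n (top n)).trans ?_
          exact (congrArg (η.app n) (A.tgt_op z ξ).symm).trans (η.app_tgt _ _))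
  exact ⟨⟨KG A.G M, fun f => Φ f (), fun f g ξ => h2 f g () ξ, fun f ξ => h3 f () ξ⟩,
    ⟨η, fun f ξ => (h1 f ξ).symm⟩, KG_cosk, hη⟩

theorem kappa_ext {M : ℕ} {A K Z : Alg C} {η : Hom A K}
    (hη : ∀ k, k ≤ M → Function.Bijective (η.g.app k)) (hZ : Cosk M Z.G) {g g' : Hom K Z}
    (h : η.comp g = η.comp g') : g = g' := by
  apply Hom.ext
  apply GMap.ext'
  intro k
  induction k with
  | zero =>
    intro c
    obtain ⟨a, rfl⟩ := (hη 0 (Nat.zero_le _)).2 c
    exact Hom.congr_app h 0 a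
  | succ k ih =>
    intro c
    by_cases hk : k + 1 ≤ M
    · obtain ⟨a, rfl⟩ := (hη _ hk).2 c
      exact Hom.congr_app h _ a
    · apply (hZ (k + 1) (by omega)).2
      apply sphere_ext
      · rw [lo_bdry, lo_bdry, ← GMap.app_src, ← GMap.app_src, ih]
      · rw [hi_bdry, hi_bdry, ← GMap.app_tgt, ← GMap.app_tgt, ih]

theorem kappa_extend (hT : Nonempty C.Tower) {M : ℕ} {A K Z : Alg C} {η : Hom A K}
    (hη : ∀ k, k ≤ M → Function.Bijective (η.g.app k)) (hZ : Cosk M Z.G) (g : Hom A Z) :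
    ∃ g' : Hom K Z, η.comp g' = g := by
  obtain ⟨e, he⟩ := exists_gmap (X := K.G) (Y := Z.G)
    (fun k c y => ∀ a, η.g.app k a = c → y = g.g.app k a) (fun k c γ hγ => by
      have key : ∀ a, η.g.app k a = c → Z.G.bdry k (g.g.app k a) = γ := by
        intro a ha
        cases k with
        | zero => rfl
        | succ k =>
          apply sphere_ext
          · rw [lo_bdry, ← GMap.app_src]
            exact (hγ.1 _ (by rw [GMap.app_src, ha]; rfl)).symm
          · rw [hi_bdry, ← GMap.app_tgt]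
            exact (hγ.2 _ (by rw [GMap.app_tgt, ha]; rfl)).symm
      by_cases hk : k ≤ M
      · obtain ⟨a, ha⟩ := (hη k hk).2 c
        refine ⟨g.g.app k a, key a ha, fun a' ha' => ?_⟩
        rw [(hη k hk).1 (ha.trans ha'.symm)]
      · obtain ⟨y, hy⟩ := (hZ k (by omega)).1 γ
        exact ⟨y, hy, fun a ha => (hZ k (by omega)).2 _ _ (hy.trans (key a ha).symm)⟩)
  have he' : η.g.comp e = g.g := GMap.ext' fun k a => he k _ a rfl
  obtain ⟨Φ, h1, -, -⟩ := exists_action (C := C) (I := Empty) (G := fun _ => K.G)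
    (Good := fun {S T} f _ => ∀ ξ : GM T K.G, (K.act f ξ).comp e = Z.act f (ξ.comp e)) hT
    ⟨fun f ξ => by rw [K.act_ofShape, Z.act_ofShape]; rfl,
      fun hf hg ξ => by rw [K.act_seq, Z.act_seq, hf, hg],
      fun {S W b h hb hh f φ} h1 h2 ξ => by
        apply glue_ext
        · have := h1 ξ
          rw [K.act_seq, K.act_ofShape, Z.act_seq, Z.act_ofShape] at this
          exact this
        · have := h2 ξ
          rw [K.act_seq, K.act_ofShape, Z.act_seq, Z.act_ofShape] at this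
          exact this⟩
    (by
      intro n T hTd z φm φp hm hp _
      refine ⟨fun i => i.elim, fun i => i.elim, fun ξ => ?_⟩
      by_cases hn : n + 1 ≤ M
      · obtain ⟨ξ0, rfl⟩ := gm_lift_of_bij hη (hTd.trans hn) ξ
        rw [← η.comm, GMap.comp_assoc, GMap.comp_assoc, he', g.comm]
      · apply globe_ext
        apply (hZ (n + 1) (by omega)).2
        apply sphere_ext
        · refine (e.app_src n (K.op z ξ)).symm.trans ?_
          rw [K.src_op]
          exact (GMap.congr_app (hm ξ) n (top n)).trans (Z.src_op z _).symm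
        · refine (e.app_tgt n (K.op z ξ)).symm.trans ?_
          rw [K.tgt_op]
          exact (GMap.congr_app (hp ξ) n (top n)).trans (Z.tgt_op z _).symm)
  exact ⟨⟨e, fun f ξ => h1 f ξ⟩, Hom.ext he'⟩

end Crest.Agent.R248
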