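import Crest.Agent.R248.Glob

/-! Cells over a sphere, maps between hom-sets, bijectivity on homotopy classes. -/

set_option autoImplicit false

universe u v w

namespace Crest.Agent.R248

open Crest.GeometryTopology.Coherator

variable {G : GlobSet.{v}}

/-- `x` is a cell of dimension `j ≥ k` whose `k`-dimensional faces have boundary `β` -/
inductive Over {k : ℕ} (β : G.Sphere k) : (j : ℕ) → G.cell j → Prop
  | base (x : G.cell k) : G.bdry k x = β → Over β k x
  | step (j : ℕ) (x : G.cell (j + 1)) : Over β j (G.src j x) → Over β (j + 1) x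

theorem Over.le {k : ℕ} {β : G.Sphere k} {j : ℕ} {x : G.cell j} (h : Over β j x) : k ≤ j := by
  induction h with
  | base => exact le_rfl
  | step j x _ ih => exact ih.trans (Nat.le_succ j)

theorem Over.of_par {k : ℕ} {β : G.Sphere k} {j : ℕ} {x y : G.cell j} (h : Over β j x)
    (hxy : G.bdry j x = G.bdry j y) : Over β j y := by
  cases h with
  | base _ h => exact .base _ (hxy ▸ h)
  | step j _ h => exact .step j y (src_eq_of_bdry hxy ▸ h)

theorem Over.src {k : ℕ} {β : G.Sphere k} {j : ℕ} {x : G.cell (j + 1)} (h : Over β (j + 1) x)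
    (hk : k ≤ j) : Over β j (G.src j x) := by
  cases h with
  | base _ h => omega
  | step j _ h => exact h

theorem Over.bdry_eq {k : ℕ} {β : G.Sphere k} {x : G.cell k} (h : Over β k x) :
    G.bdry k x = β := by
  have aux : ∀ j (y : G.cell j), Over β j y → ∀ e : j = k, G.bdry k (e ▸ y) = β := by
    intro j y hy
    cases hy with
    | base _ h => intro _; exact h
    | step j _ h => intro e; have := h.le; omega
  exact aux k x h rfl

theorem Over.tgt_of_src {k : ℕ} {β : G.Sphere k} {j : ℕ} {x : G.cell (j + 1)}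
    (h : Over β j (G.src j x)) : Over β j (G.tgt j x) := h.of_par (bdry_tgt x).symm

theorem Over.map {H : GlobSet.{w}} (f : GMap G H) {k : ℕ} {β : G.Sphere k} {j : ℕ} {x : G.cell j}
    (h : Over β j x) : Over (f.sph k β) j (f.app j x) := by
  induction h with
  | base x h => exact .base _ (by rw [f.bdry_app, h])
  | step j x _ ih => exact .step _ _ (by rw [← f.app_src]; exact ih)

theorem Over.down {k : ℕ} {γ : G.Sphere (k + 1)} {j : ℕ} {x : G.cell j} (h : Over γ j x) :
    Over (G.bdry k (lo γ)) j x := by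
  induction h with
  | base x h => exact .step _ _ (.base _ (by rw [← h]; rfl))
  | step j x _ ih => exact .step _ _ ih

theorem Over.face {k : ℕ} {γ : G.Sphere (k + 1)} {j : ℕ} {x : G.cell j} (h : Over γ j x)
    (hkj : k < j) : face G false hkj x = lo γ ∧ face G true hkj x = hi γ := by
  induction h with
  | base x h => rw [face_false_self, face_true_self, ← h]; exact ⟨rfl, rfl⟩
  | step j x h ih =>
    have : k < j := h.le
    rw [face_succ false this, face_succ true this]
    exact ih this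

theorem over_of_face {k : ℕ} {γ : G.Sphere (k + 1)} {j : ℕ} (hkj : k < j) {x : G.cell j}
    (h1 : face G false hkj x = lo γ) (h2 : face G true hkj x = hi γ) : Over γ j x := by
  induction j, hkj using Nat.le_induction with
  | base =>
    rw [face_false_self] at h1
    rw [face_true_self] at h2
    exact .base _ (sphere_ext h1 h2)
  | succ j hkj ih =>
    rw [face_succ _ hkj] at h1 h2
    exact .step _ _ (ih h1 h2)

/-- dimensionwise functions on cells -/
abbrev CellFun (G : GlobSet.{v}) : Type v := ∀ j, G.cell j → G.cell j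

/-- `T` restricts to a globular map from the cells over `β` to the cells over `β'` -/
structure HomMap (T : CellFun G) {k : ℕ} (β β' : G.Sphere k) : Prop where
  base : ∀ x, G.bdry k x = β → G.bdry k (T k x) = β'
  src : ∀ j (x : G.cell (j + 1)), Over β j (G.src j x) → G.src j (T (j + 1) x) = T j (G.src j x)
  tgt : ∀ j (x : G.cell (j + 1)), Over β j (G.src j x) → G.tgt j (T (j + 1) x) = T j (G.tgt j x)

theorem HomMap.over {T : CellFun G} {k : ℕ} {β β' : G.Sphere k} (hT : HomMap T β β') {j : ℕ}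
    {x : G.cell j} (h : Over β j x) : Over β' j (T j x) := by
  induction h with
  | base x h => exact .base _ (hT.base x h)
  | step j x h ih => exact .step _ _ (by rw [hT.src j x h]; exact ih)

theorem HomMap.id {k : ℕ} (β : G.Sphere k) : HomMap (fun _ x => x) β β :=
  ⟨fun _ h => h, fun _ _ _ => rfl, fun _ _ _ => rfl⟩

theorem HomMap.comp {T T' : CellFun G} {k : ℕ} {β β' β'' : G.Sphere k} (hT : HomMap T β β')
    (hT' : HomMap T' β' β'') : HomMap (fun j x => T' j (T j x)) β β'' := by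
  refine ⟨fun x h => hT'.base _ (hT.base x h), fun j x h => ?_, fun j x h => ?_⟩
  · have : Over β' j (G.src j (T (j + 1) x)) := by rw [hT.src j x h]; exact hT.over h
    rw [hT'.src j _ this, hT.src j x h]
  · have : Over β' j (G.src j (T (j + 1) x)) := by rw [hT.src j x h]; exact hT.over h
    rw [hT'.tgt j _ this, hT.tgt j x h]

theorem HomMap.restrict {T : CellFun G} {k : ℕ} {β β' : G.Sphere k} (hT : HomMap T β β')
    {γ γ' : G.Sphere (k + 1)} (hγ : G.bdry k (lo γ) = β) (h1 : lo γ' = T k (lo γ))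
    (h2 : hi γ' = T k (hi γ)) : HomMap T γ γ' := by
  refine ⟨fun x h => ?_, fun j x h => hT.src j x (hγ ▸ h.down),
    fun j x h => hT.tgt j x (hγ ▸ h.down)⟩
  have hx : Over β k (G.src k x) := .base _ (by rw [← hγ, ← h]; rfl)
  apply sphere_ext
  · rw [lo_bdry, hT.src k x hx, h1, ← h]; rfl
  · rw [hi_bdry, hT.tgt k x hx, h2, ← h]; rfl

theorem HomMap.par {T : CellFun G} {k : ℕ} {β β' : G.Sphere k} (hT : HomMap T β β') {j : ℕ}
    {x y : G.cell j} (h : Over β j x) (hxy : G.bdry j x = G.bdry j y) :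
    G.bdry j (T j x) = G.bdry j (T j y) := by
  cases h with
  | base _ h => rw [hT.base _ h, hT.base y (hxy ▸ h)]
  | step j _ h =>
    have h' : Over β j (G.src j y) := src_eq_of_bdry hxy ▸ h
    apply sphere_ext
    · rw [lo_bdry, lo_bdry, hT.src j _ h, hT.src j y h', src_eq_of_bdry hxy]
    · rw [hi_bdry, hi_bdry, hT.tgt j _ h, hT.tgt j y h', tgt_eq_of_bdry hxy]

theorem HomMap.step {T : CellFun G} {k : ℕ} {β β' : G.Sphere k} (hT : HomMap T β β') {j : ℕ}
    {x y : G.cell j} (h : Over β j x) (hxy : G.Step j x y) : G.Step j (T j x) (T j y) := by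
  obtain ⟨c, rfl, rfl⟩ := hxy
  exact ⟨T (j + 1) c, hT.src j c h, hT.tgt j c h⟩

/-- `γ'` is the image of the sphere `γ` (over `β`) under `T` -/
inductive SImg (T : CellFun G) {k : ℕ} (β β' : G.Sphere k) :
    (j : ℕ) → G.Sphere j → G.Sphere j → Prop
  | base : SImg T β β' k β β'
  | step (j : ℕ) (γ γ' : G.Sphere (j + 1)) : Over β j (lo γ) → lo γ' = T j (lo γ) →
      hi γ' = T j (hi γ) → SImg T β β' (j + 1) γ γ'

theorem SImg.over {T : CellFun G} {k : ℕ} {β β' : G.Sphere k} {j : ℕ} {γ γ' : G.Sphere j}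
    (h : SImg T β β' j γ γ') {x : G.cell j} (hx : G.bdry j x = γ) : Over β j x := by
  cases h with
  | base => exact .base _ hx
  | step j γ γ' h _ _ => exact .step _ _ (by rw [← hx] at h; exact h)

theorem SImg.bdry {T : CellFun G} {k : ℕ} {β β' : G.Sphere k} (hT : HomMap T β β') {j : ℕ}
    {γ γ' : G.Sphere j} (h : SImg T β β' j γ γ') {x : G.cell j} (hx : G.bdry j x = γ) :
    G.bdry j (T j x) = γ' := by
  cases h with
  | base => exact hT.base _ hx
  | step j γ γ' h h1 h2 =>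
    subst hx
    apply sphere_ext
    · rw [lo_bdry, hT.src j x h, h1]; rfl
    · rw [hi_bdry, hT.tgt j x h, h2]; rfl

theorem SImg.split {T T' : CellFun G} {k : ℕ} {β β' β'' : G.Sphere k} (hT : HomMap T β β')
    {j : ℕ} {γ γ'' : G.Sphere j} (h : SImg (fun j x => T' j (T j x)) β β'' j γ γ'') :
    ∃ γ', SImg T β β' j γ γ' ∧ SImg T' β' β'' j γ' γ'' := by
  cases h with
  | base => exact ⟨β', .base, .base⟩
  | step j γ γ'' h h1 h2 =>
    exact ⟨mkS (T j (lo γ)) (T j (hi γ)) (hT.par h (bdry_hi γ).symm), .step j _ _ h rfl rfl,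
      .step j _ _ (hT.over h) h1 h2⟩

theorem SImg.extend {T T' : CellFun G} {k : ℕ} {β β' β'' : G.Sphere k} (hT : HomMap T β β')
    (hT' : HomMap T' β' β'') {j : ℕ} {γ γ' : G.Sphere j} (h : SImg T β β' j γ γ') :
    ∃ γ'', SImg T' β' β'' j γ' γ'' ∧ SImg (fun j x => T' j (T j x)) β β'' j γ γ'' := by
  cases h with
  | base => exact ⟨β'', .base, .base⟩
  | step j γ γ' h h1 h2 =>
    have h' : Over β' j (lo γ') := h1 ▸ hT.over h
    exact ⟨mkS (T' j (lo γ')) (T' j (hi γ')) (hT'.par h' (bdry_hi γ').symm), .step j _ _ h' rfl rfl,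
      .step j _ _ h (by rw [lo_mkS, h1]) (by rw [hi_mkS, h2])⟩

theorem SImg.down {T : CellFun G} {k : ℕ} {β β' : G.Sphere k}
    {γ0 γ0' : G.Sphere (k + 1)} (hγ : G.bdry k (lo γ0) = β) (h1 : lo γ0' = T k (lo γ0))
    (h2 : hi γ0' = T k (hi γ0)) {j : ℕ} {γ γ' : G.Sphere j} (h : SImg T γ0 γ0' j γ γ') :
    SImg T β β' j γ γ' := by
  cases h with
  | base => exact .step k _ _ (.base _ hγ) h1 h2
  | step j γ γ' h e1 e2 => exact .step j _ _ (hγ ▸ h.down) e1 e2

theorem SImg.id_eq {k : ℕ} {β : G.Sphere k} {j : ℕ} {γ γ' : G.Sphere j}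
    (h : SImg (fun _ x => x) β β j γ γ') : γ' = γ := by
  cases h with
  | base => rfl
  | step j γ γ' _ h1 h2 => exact sphere_ext h1 h2

/-- bijective on homotopy classes -/
structure BijOn {j : ℕ} (f : G.cell j → G.cell j) (γ γ' : G.Sphere j) : Prop where
  inj : ∀ x x', G.bdry j x = γ → G.bdry j x' = γ → G.Step j (f x) (f x') → G.Step j x x'
  surj : ∀ y, G.bdry j y = γ' → ∃ x, G.bdry j x = γ ∧ G.Step j (f x) y

/-- bijective on homotopy classes of `j`-cells, for every boundary -/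
def EqvAt (T : CellFun G) {k : ℕ} (β β' : G.Sphere k) (j : ℕ) : Prop :=
  ∀ γ γ', SImg T β β' j γ γ' → BijOn (T j) γ γ'

theorem EqvAt.id (hG : Gpd G) {k : ℕ} (β : G.Sphere k) (j : ℕ) : EqvAt (fun _ x => x) β β j := by
  intro γ γ' h
  rw [h.id_eq]
  exact ⟨fun _ _ _ _ h => h, fun y hy => ⟨y, hy, hG.refl _ _⟩⟩

theorem EqvAt.comp (hG : Gpd G) {T T' : CellFun G} {k : ℕ} {β β' β'' : G.Sphere k}
    (hT : HomMap T β β') (hT' : HomMap T' β' β'') {j : ℕ} (h : EqvAt T β β' j)
    (h' : EqvAt T' β' β'' j) : EqvAt (fun j x => T' j (T j x)) β β'' j := by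
  intro γ γ'' hγ
  obtain ⟨γ', i1, i2⟩ := hγ.split hT
  refine ⟨fun x x' hx hx' e => (h _ _ i1).inj x x' hx hx'
    ((h' _ _ i2).inj _ _ (i1.bdry hT hx) (i1.bdry hT hx') e), fun y hy => ?_⟩
  obtain ⟨w, hw, ew⟩ := (h' _ _ i2).surj y hy
  obtain ⟨x, hx, ex⟩ := (h _ _ i1).surj w hw
  exact ⟨x, hx, hG.trans (hT'.step (i2.over (i1.bdry hT hx)) ex) ew⟩

theorem EqvAt.restrict {T : CellFun G} {k : ℕ} {β β' : G.Sphere k}
    {γ0 γ0' : G.Sphere (k + 1)} (hγ : G.bdry k (lo γ0) = β) (h1 : lo γ0' = T k (lo γ0))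
    (h2 : hi γ0' = T k (hi γ0)) {j : ℕ} (h : EqvAt T β β' j) : EqvAt T γ0 γ0' j :=
  fun _ _ i => h _ _ (i.down hγ h1 h2)

/-- two out of six -/
theorem EqvAt.two_of_six {T1 T2 T3 : CellFun G} {k : ℕ} {β0 β1 β2 β3 : G.Sphere k}
    (h1 : HomMap T1 β0 β1) (h2 : HomMap T2 β1 β2) (h3 : HomMap T3 β2 β3) {j : ℕ}
    (e21 : EqvAt (fun j x => T2 j (T1 j x)) β0 β2 j)
    (e32 : EqvAt (fun j x => T3 j (T2 j x)) β1 β3 j) : EqvAt T1 β0 β1 j := by
  intro γ0 γ1 i1
  obtain ⟨γ2, i2, i21⟩ := i1.extend h1 h2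
  obtain ⟨γ3, i3, i32⟩ := i2.extend h2 h3
  refine ⟨fun x x' hx hx' e => (e21 _ _ i21).inj x x' hx hx'
    (h2.step (i2.over (i1.bdry h1 hx)) e), fun y hy => ?_⟩
  obtain ⟨x, hx, ex⟩ := (e21 _ _ i21).surj (T2 j y) (i2.bdry h2 hy)
  exact ⟨x, hx, (e32 _ _ i32).inj _ _ (i1.bdry h1 hx) hy
    (h3.step (i3.over (i2.bdry h2 (i1.bdry h1 hx))) ex)⟩

end Crest.Agent.R248
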