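import Crest.Agent.R248.Insert
import Crest.Agent.R248.Free
import Crest.Agent.R248.Kappa

/-! Path structures of level `n` on coskeletal algebras, by downward induction on `n`. -/

set_option autoImplicit false

universe u v w

namespace Crest.Agent.R248

open Crest.GeometryTopology.Coherator CategoryTheory
open GlobTheory

variable {C : GlobTheory.{u}}

/-- variables of the generic diagram of cylinders -/
inductive CV (T : Shape) (n : ℕ) : ℕ → Type
  | x {k : ℕ} (t : (gs T).cell k) : CV T n k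
  | z {k : ℕ} (t : (gs T).cell k) (h : n ≤ k) : CV T n (k + 1)

/-- components of a diagram of cylinders -/
noncomputable def comps {A : WG.{u}} {T : Shape} {n : ℕ} (ξ : GM T (PG A n)) :
    ∀ k, CV T n k → A.G.cell k
  | _, .x t => (p0 A n).app _ (ξ.app _ t)
  | _, .z t h => pz (ξ.app _ t) h

/-- `ξR` is the generic diagram of cylinders -/
structure IsGenCyl (o : Ops C) (n : ℕ) (T : Shape) (R : Alg C) (ξR : GM T (PG (o.wg R) n)) :
    Prop where
  ex : ∀ (A : Alg C) (ξ : GM T (PG (o.wg A) n)), ∃ g : Hom R A, ξR.comp (Pmap n (o.wm g)) = ξ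
  uq : ∀ (A : Alg C) (g g' : Hom R A),
    ξR.comp (Pmap n (o.wm g)) = ξR.comp (Pmap n (o.wm g')) → g = g'

theorem exists_genCyl (o : Ops C) (n : ℕ) (T : Shape) :
    ∃ (R : Alg C) (ξR : GM T (PG (o.wg R) n)), IsGenCyl o n T R ξR := by
  obtain ⟨R, ρ, hex, huq, hinj⟩ := exists_free (C := C) (V := CV T n)
    (fun A σ => ∃ ξ : GM T (PG (o.wg A) n), σ = comps ξ)
  have hinj' : ∀ k (x y : R.G.cell k), (∀ (A : Alg C) (ξ : GM T (PG (o.wg A) n)) (g : Hom R A),
      (∀ k v, g.g.app k (ρ k v) = comps ξ k v) → g.g.app k x = g.g.app k y) → x = y := by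
    intro k x y h
    apply hinj
    rintro A _ ⟨ξ, rfl⟩ g hg
    exact h A ξ g hg
  have sinj : ∀ k (x y : R.G.Sphere k), (∀ (A : Alg C) (ξ : GM T (PG (o.wg A) n)) (g : Hom R A),
      (∀ k v, g.g.app k (ρ k v) = comps ξ k v) → g.g.sph k x = g.g.sph k y) → x = y := by
    intro k x y h
    cases k with
    | zero => rfl
    | succ k =>
      exact sphere_ext (hinj' _ _ _ fun A ξ g hg => congrArg lo (h A ξ g hg))
        (hinj' _ _ _ fun A ξ g hg => congrArg hi (h A ξ g hg))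
  obtain ⟨ξR, hR⟩ := exists_gmap (X := gs T) (Y := PG (o.wg R) n)
    (fun k t c => (p0 _ n).app k c = ρ k (.x t) ∧ (∀ h, pz c h = ρ (k + 1) (.z t h)) ∧
      ∀ (A : Alg C) (ξ : GM T (PG (o.wg A) n)) (g : Hom R A),
        (∀ k v, g.g.app k (ρ k v) = comps ξ k v) → (Pmap n (o.wm g)).app k c = ξ.app k t)
    (fun k t γ hγ => by
      have hs : ∀ (A : Alg C) (ξ : GM T (PG (o.wg A) n)) (g : Hom R A),
          (∀ k v, g.g.app k (ρ k v) = comps ξ k v) →
          (Pmap n (o.wm g)).sph k γ = (PG _ n).bdry k (ξ.app k t) := fun A ξ g hg => by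
        rw [ξ.bdry_app]
        exact SRel.sph_eq ξ (Pmap n (o.wm g)) (fun _ _ _ h => h.2.2 A ξ g hg) hγ
      have h0 : R.G.bdry k (ρ k (.x t)) = (p0 (o.wg R) n).sph k γ := sinj _ _ _ fun A ξ g hg => by
        rw [← GMap.bdry_app, hg]
        refine Eq.trans ?_ (p0_sph_Pmap (o.wm g) γ)
        rw [hs A ξ g hg, ← GMap.bdry_app]
        rfl
      have fin : ∀ c : (PG (o.wg R) n).cell k, (PG _ n).bdry k c = γ →
          (p0 _ n).app k c = ρ k (.x t) → (∀ h, pz c h = ρ (k + 1) (.z t h)) →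
          ∀ (A : Alg C) (ξ : GM T (PG (o.wg A) n)) (g : Hom R A),
          (∀ k v, g.g.app k (ρ k v) = comps ξ k v) → (Pmap n (o.wm g)).app k c = ξ.app k t := by
        intro c c1 c2 c3 A ξ g hg
        refine PG_ext ?_ ?_ fun h => ?_
        · rw [GMap.bdry_app, c1, hs A ξ g hg]
        · rw [p0_Pmap, c2]; exact hg _ _
        · rw [pz_Pmap, c3]; exact hg _ _
      by_cases hk : n ≤ k
      · obtain ⟨c, c1, c2, -, c4⟩ := PG_mk_of_le hk γ (ρ k (.x t)) (ρ (k + 1) (.z t hk)) h0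
          (hinj' _ _ _ fun A ξ g hg => by
            rw [GMap.app_src, hg]
            refine Eq.trans ?_ (PT_Pmap (o.wm g) γ (.base _ h0)).symm
            rw [hs A ξ g hg]
            exact (src_pz _ hk).trans (congrArg _ (hg k (.x t)).symm))
        exact ⟨c, c1, c2, fun _ => c4, fin c c1 c2 fun _ => c4⟩
      · obtain ⟨c, c1, c2⟩ := PG_mk_of_not_le hk γ (ρ k (.x t)) h0
        exact ⟨c, c1, c2, fun h => absurd h hk, fin c c1 c2 fun h => absurd h hk⟩)
  refine ⟨R, ξR, fun A ξ => ?_, fun A g g' h => huq A g g' fun k v => ?_⟩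
  · obtain ⟨g, hg⟩ := hex A _ ⟨ξ, rfl⟩
    exact ⟨g, GMap.ext' fun k t => (hR k t).2.2 A ξ g hg⟩
  · cases v with
    | x t =>
      rw [← (hR k t).1]
      exact congrArg ((p0 (o.wg A) n).app k) (GMap.congr_app h k t)
    | @z k t hk =>
      rw [← (hR k t).2.1 hk]
      exact congrArg (fun c => pz c hk) (GMap.congr_app h k t)

/-- path structures of level `n` on `M`-coskeletal algebras -/
def PathStr (C : GlobTheory.{u}) (M n : ℕ) : Prop :=
  ∀ (A1 A2 : Alg C), Cosk M A1.G → Cosk M A2.G → ∀ g : Hom A2 A1,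
    ∃ (P1 P2 : Alg C) (a1 b1 : Hom P1 A1) (a2 b2 : Hom P2 A2) (Pg : Hom P2 P1),
      Pg.comp a1 = a2.comp g ∧ Pg.comp b1 = b2.comp g ∧ TrivFib a2.g ∧ TrivFib b2.g ∧
      TrivFib b1.g ∧ ∀ k, n ≤ k → ∀ (c : P1.G.cell k) (w0 w1 : A1.G.cell (k + 1)),
        A1.G.src k w0 = a1.g.app k c → A1.G.src k w1 = b1.g.app k c →
        ∃ d, P1.G.src k d = c ∧ a1.g.app _ d = w0 ∧ b1.g.app _ d = w1

theorem pb_sph_ext {A B D : Alg C} {f : Hom A D} {h : Hom B D} {k : ℕ}
    {γ δ : (pb f h).G.Sphere k} (h1 : (pbFst f h).g.sph k γ = (pbFst f h).g.sph k δ)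
    (h2 : (pbSnd f h).g.sph k γ = (pbSnd f h).g.sph k δ) : γ = δ := by
  cases k with
  | zero => rfl
  | succ k =>
    exact sphere_ext (Subtype.ext (Prod.ext (congrArg lo h1) (congrArg lo h2)))
      (Subtype.ext (Prod.ext (congrArg hi h1) (congrArg hi h2)))

theorem pbSnd_trivFib {A B D : Alg C} {f : Hom A D} (h : Hom B D) (hf : TrivFib f.g) :
    TrivFib (pbSnd f h).g := by
  intro k γ y hy
  obtain ⟨x, x1, x2⟩ := hf k ((pbFst f h).g.sph k γ) (h.g.app k y) (by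
    rw [GMap.bdry_app, hy, ← GMap.sph_comp, ← GMap.sph_comp]
    exact congrArg (fun t => GMap.sph t k γ) (pb_w f h).symm)
  refine ⟨⟨(x, y), x2⟩, pb_sph_ext ?_ ?_, rfl⟩
  · rw [← GMap.bdry_app]; exact x1
  · rw [← GMap.bdry_app]; exact hy

theorem exists_Q (hT : Nonempty C.Tower) (o : Ops C) {M n : ℕ} (hP : PathStr C M n)
    {X1 X2 K1 : Alg C} (η1 : Hom X1 K1) (hK1 : Cosk M K1.G)
    (hη1 : ∀ k, k ≤ M → Function.Bijective (η1.g.app k)) (ψ : Hom X2 X1) (hX2 : Cofib X2) :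
    ∃ (Q : Alg C) (q : Hom Q K1) (kk : Hom X2 Q), kk.comp q = ψ.comp η1 ∧
      (∀ i, n ≤ i → SigmaLift i q.g) ∧ ∀ s : Hom X1 Q, s.comp q = η1 →
        (∀ d, d ≤ M → Fill d X2.G → Fill d X1.G) ∧
        (ψ.comp s = kk → ∀ d, d + 1 ≤ M → WE d ψ.g) := by
  obtain ⟨K2, η2, hK2, hη2⟩ := exists_kappa hT M X2
  obtain ⟨κψ, hκ⟩ := kappa_extend hT hη2 hK1 (ψ.comp η1)
  obtain ⟨P1, P2, a1, b1, a2, b2, Pg, e1, e2, ta2, tb2, tb1, hpath⟩ := hP K1 K2 hK1 hK2 κψ
  obtain ⟨H, hH⟩ := hX2 a2 ta2 η2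
  have hr := pbSnd_trivFib κψ tb1
  have w : (H.comp Pg).comp b1 = (H.comp b2).comp κψ := by
    rw [Hom.comp_assoc, e2, Hom.comp_assoc]
  refine ⟨pb b1 κψ, (pbFst _ _).comp a1, pbLift (H.comp Pg) (H.comp b2) w, ?_, ?_, ?_⟩
  · change (H.comp Pg).comp a1 = _
    rw [Hom.comp_assoc, e1, ← Hom.comp_assoc, hH, hκ]
  · rintro i hi ⟨⟨c, x⟩, hcx⟩ w0 hw0
    obtain ⟨d, d1, d2, d3⟩ := hpath i hi c w0 (κψ.g.app _ (o.un x)) hw0
      (by rw [← GMap.app_src, o.src_un]; exact hcx.symm)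
    exact ⟨⟨(d, o.un x), d3⟩, Subtype.ext (Prod.ext d1 (o.src_un x)), d2⟩
  · intro s hs
    have hs' : ∀ k x, ((pbFst b1 κψ).comp a1).g.app k (s.g.app k x) = η1.g.app k x :=
      fun k x => Hom.congr_app hs k x
    refine ⟨fun d hd hF γ => ?_, fun hk d hd γ b hb => ?_⟩
    · obtain ⟨δ, hδ⟩ := (sph_bij_of_bij hη2 (hd.trans (Nat.le_succ M))).2
        ((pbSnd b1 κψ).g.sph d (s.g.sph d γ))
      obtain ⟨x, hx⟩ := hF δ
      obtain ⟨y, y1, -⟩ := hr d (s.g.sph d γ) (η2.g.app d x) (by rw [GMap.bdry_app, hx, hδ])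
      obtain ⟨x1, hx1⟩ := (hη1 d hd).2 (((pbFst b1 κψ).comp a1).g.app d y)
      refine ⟨x1, (sph_bij_of_bij hη1 (hd.trans (Nat.le_succ M))).1 ?_⟩
      rw [← GMap.bdry_app, hx1, GMap.bdry_app, y1, ← GMap.sph_comp]
      exact congrArg (fun t : Hom X1 K1 => t.g.sph d γ) hs
    · have hsb : (pb b1 κψ).G.bdry d (s.g.app d b) =
          (pbLift (H.comp Pg) (H.comp b2) w).g.sph d γ := by
        rw [GMap.bdry_app, hb, ← GMap.sph_comp, ← hk]; rfl
      obtain ⟨c, c1, c2⟩ := tb2 d (H.g.sph d γ) ((pbSnd b1 κψ).g.app d (s.g.app d b)) (by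
        rw [GMap.bdry_app, hsb, ← GMap.sph_comp, ← GMap.sph_comp]; rfl)
      obtain ⟨a, ha⟩ := (hη2 d (by omega)).2 (a2.g.app d c)
      refine ⟨a, (sph_bij_of_bij hη2 (by omega)).1 ?_, ?_⟩
      · rw [← GMap.bdry_app, ha, GMap.bdry_app, c1, ← GMap.sph_comp]
        exact congrArg (fun t : Hom X2 K2 => t.g.sph d γ) hH
      · let a' : (pb b1 κψ).G.cell d := ⟨(Pg.g.app d c, b2.g.app d c), Hom.congr_app e2 d c⟩
        have hpar : (pb b1 κψ).G.bdry d a' = (pb b1 κψ).G.bdry d (s.g.app d b) := by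
          rw [hsb]
          apply pb_sph_ext
          · rw [← GMap.bdry_app, ← GMap.sph_comp]
            refine (Pg.g.bdry_app d c).trans ?_
            rw [c1, ← GMap.sph_comp]; rfl
          · rw [← GMap.bdry_app, ← GMap.sph_comp]
            refine (b2.g.bdry_app d c).trans ?_
            rw [c1, ← GMap.sph_comp]; rfl
        obtain ⟨y, y1, -⟩ := hr (d + 1) (mkS a' (s.g.app d b) hpar) (o.un (b2.g.app d c))
          (sphere_ext (o.src_un _) ((o.tgt_un _).trans c2))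
        obtain ⟨y0, hy0⟩ := (hη1 (d + 1) hd).2 (((pbFst b1 κψ).comp a1).g.app _ y)
        refine ⟨y0, (hη1 d (by omega)).1 ?_, (hη1 d (by omega)).1 ?_⟩
        · rw [GMap.app_src, hy0, ← GMap.app_src, (bdry_eq_iff.1 y1).1]
          refine (Hom.congr_app e1 d c).trans ?_
          refine Eq.trans ?_ (Hom.congr_app hκ d a)
          exact congrArg (κψ.g.app d) ha.symm
        · rw [GMap.app_tgt, hy0, ← GMap.app_tgt, (bdry_eq_iff.1 y1).2]
          exact hs' d b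

theorem genCyl_fill (hT : Nonempty C.Tower) (hC : Contr C) (o : Ops C) {M n : ℕ}
    (hP : PathStr C M (n + 1)) {T : Shape} {k : ℕ} (hnk : n ≤ k) (hkM : k < M) (hTk : T.dim ≤ k)
    {R : Alg C} {ξR : GM T (PG (o.wg R) n)} (hR : IsGenCyl o n T R ξR) : Fill (k + 1) R.G := by
  have := cell_finite T n
  obtain ⟨T', ι, qq, hd, hq, hext⟩ := exists_multi hC o n T ((gs T).cell n) id
  obtain ⟨ξ', e1, e2⟩ := hext R (ξR.comp (p0 (o.wg R) n)) (fun t => pz (ξR.app n t) le_rfl)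
    (fun t => (src_pz (ξR.app n t) le_rfl).trans (by rw [PT_low le_rfl]; rfl))
  obtain ⟨K1, η1, hK1, hη1⟩ := exists_kappa hT M R
  obtain ⟨Q, q, kk, hkk, hσ, hfin⟩ := exists_Q hT o hP η1 hK1 hη1 (lift ξ') (FA_cofib T')
  have hqk : ∀ j x, q.g.app j (kk.g.app j x) = η1.g.app j ((lift ξ').g.app j x) :=
    fun j x => Hom.congr_app hkk j x
  let ζ : GM T Q.G := (ι.comp (gen C T')).comp kk.g
  have hζ : ∀ j t, q.g.app j (ζ.app j t) = η1.g.app j ((p0 (o.wg R) n).app j (ξR.app j t)) := by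
    intro j t
    refine (hqk j _).trans (congrArg _ ?_)
    rw [GMap.comp_app, lift_gen_app]
    exact GMap.congr_app e1 j t
  obtain ⟨θ, hθ⟩ := exists_gmap (X := gs T) (Y := PG (o.wg Q) n)
    (fun j t c => (Pmap n (o.wm q)).app j c = (Pmap n (o.wm η1)).app j (ξR.app j t) ∧
      (p0 _ n).app j c = ζ.app j t)
    (fun j t γ hγ => by
      have s1 : (Pmap n (o.wm q)).sph j γ =
          (PG _ n).bdry j ((Pmap n (o.wm η1)).app j (ξR.app j t)) := by
        rw [← GMap.comp_app, GMap.bdry_app]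
        exact SRel.sph_eq (ξR.comp (Pmap n (o.wm η1))) (Pmap n (o.wm q)) (fun _ _ _ h => h.1) hγ
      have h0 : Q.G.bdry j (ζ.app j t) = (p0 (o.wg Q) n).sph j γ := by
        rw [GMap.bdry_app]
        exact (SRel.sph_eq ζ (p0 (o.wg Q) n) (fun _ _ _ h => h.2) hγ).symm
      have fin : ∀ c : (PG (o.wg Q) n).cell j, (PG _ n).bdry j c = γ →
          (p0 _ n).app j c = ζ.app j t →
          (∀ h, q.g.app _ (pz c h) = η1.g.app _ (pz (ξR.app j t) h)) →
          (Pmap n (o.wm q)).app j c = (Pmap n (o.wm η1)).app j (ξR.app j t) := by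
        intro c c1 c2 c3
        refine PG_ext ?_ ?_ c3
        · rw [GMap.bdry_app, c1, s1]
        · rw [p0_Pmap, c2]; exact hζ j t
      by_cases hj : n ≤ j
      · have hz : ∃ z : Q.G.cell (j + 1), Q.G.src j z = PT γ j (ζ.app j t) ∧
            q.g.app _ z = η1.g.app _ (pz (ξR.app j t) hj) := by
          rcases hj.eq_or_lt with rfl | hj'
          · obtain ⟨β, b1, b2⟩ := e2 t
            obtain ⟨β', c1, c2⟩ := hσ (n + 1) le_rfl (kk.g.app _ (qq t)) (η1.g.app _ β)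
              (by rw [← GMap.app_src, b1, hqk])
            refine ⟨Q.G.tgt _ β', ?_, by rw [GMap.app_tgt, c2, ← GMap.app_tgt, b2]⟩
            rw [PT_low le_rfl, ← Q.G.src_src, c1, ← GMap.app_src, hq]
            rfl
          · refine hσ j hj' _ _ ?_
            refine Eq.trans ?_ (PT_Pmap (o.wm q) γ (.base _ h0)).symm
            rw [s1]
            exact (src_pz ((Pmap n (o.wm η1)).app j (ξR.app j t)) hj).trans
              (congrArg _ (hζ j t).symm)
        obtain ⟨z, z1, z2⟩ := hz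
        obtain ⟨c, c1, c2, -, c4⟩ := PG_mk_of_le hj γ (ζ.app j t) z h0 z1
        exact ⟨c, c1, fin c c1 c2 fun _ => by rw [c4]; exact z2, c2⟩
      · obtain ⟨c, c1, c2⟩ := PG_mk_of_not_le hj γ (ζ.app j t) h0
        exact ⟨c, c1, fin c c1 c2 fun h => absurd h hj, c2⟩)
  obtain ⟨s, hs⟩ := hR.ex Q θ
  have hsq : s.comp q = η1 := by
    apply hR.uq
    rw [← Pmap_comp (o.wm s) (o.wm q) (o.wm (s.comp q)) rfl, ← GMap.comp_assoc, hs]
    exact GMap.ext' fun j t => (hθ j t).1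
  exact (hfin s hsq).1 (k + 1) hkM (FA_Fill hC (by omega))

theorem pathStr_of (hT : Nonempty C.Tower) (hC : Contr C) (o : Ops C) {M n : ℕ}
    (hfill : ∀ (T : Shape) (k : ℕ), n ≤ k → k < M → T.dim ≤ k → ∀ (R : Alg C)
      (ξR : GM T (PG (o.wg R) n)), IsGenCyl o n T R ξR → Fill (k + 1) R.G) : PathStr C M n := by
  intro A1 A2 hA1 hA2 g
  choose R ξR hR using exists_genCyl o n
  choose K η hK hη using fun T => exists_kappa hT M (R T)
  let Y : Shape ⊕ Bool → Alg C := fun i => match i with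
    | .inl T => K T
    | .inr false => A1
    | .inr true => A2
  have hY : ∀ i, Cosk M (Y i).G := fun i => match i with
    | .inl T => hK T
    | .inr false => hA1
    | .inr true => hA2
  obtain ⟨Φ, h1, h2, h3⟩ := exists_action (C := C) (I := Shape ⊕ Bool)
    (G := fun i => PG (o.wg (Y i)) n)
    (Good := fun {S T} f φ =>
      (∀ i ξ, (φ i ξ).comp (p0 (o.wg (Y i)) n) = (Y i).act f (ξ.comp (p0 (o.wg (Y i)) n))) ∧
      (∀ i ξ, (φ i ξ).comp (p1 (o.wg (Y i)) n) = (Y i).act f (ξ.comp (p1 (o.wg (Y i)) n))) ∧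
      ∀ i i' (g : Hom (Y i) (Y i')) ξ, (φ i ξ).comp (Pmap n (o.wm g)) =
        φ i' (ξ.comp (Pmap n (o.wm g)))) hT
    ⟨fun f => ⟨fun i ξ => by rw [Alg.act_ofShape]; rfl, fun i ξ => by rw [Alg.act_ofShape]; rfl,
        fun i i' g ξ => rfl⟩,
      fun hf hg => ⟨fun i ξ => by rw [hf.1, hg.1, Alg.act_seq],
        fun i ξ => by rw [hf.2.1, hg.2.1, Alg.act_seq],
        fun i i' g ξ => by rw [hf.2.2, hg.2.2]⟩,
      fun {S W b h hb hh f φ} h1 h2 => by
        refine ⟨fun i ξ => glue_ext ?_ ?_, fun i ξ => glue_ext ?_ ?_, fun i i' g ξ => glue_ext ?_ ?_⟩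
        · exact (h1.1 i ξ).trans (by rw [Alg.act_seq, Alg.act_ofShape])
        · exact (h2.1 i ξ).trans (by rw [Alg.act_seq, Alg.act_ofShape])
        · exact (h1.2.1 i ξ).trans (by rw [Alg.act_seq, Alg.act_ofShape])
        · exact (h2.2.1 i ξ).trans (by rw [Alg.act_seq, Alg.act_ofShape])
        · exact h1.2.2 i i' g ξ
        · exact h2.2.2 i i' g ξ⟩
    (by
      intro m T hTd z φm φp hm hp hpar
      let Γ : ∀ i, GM T (PG (o.wg (Y i)) n) → (PG (o.wg (Y i)) n).Sphere (m + 1) :=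
        fun i ξ => mkS _ _ (hpar i ξ)
      have g0 : ∀ i ξ, (Y i).G.bdry _ ((Y i).op z (ξ.comp (p0 (o.wg (Y i)) n))) =
          (p0 (o.wg (Y i)) n).sph _ (Γ i ξ) := fun i ξ =>
        sphere_ext (((Y i).src_op _ _).trans (GMap.congr_app (hm.1 i ξ) m (top m)).symm)
          (((Y i).tgt_op _ _).trans (GMap.congr_app (hp.1 i ξ) m (top m)).symm)
      have g1 : ∀ i ξ, (Y i).G.bdry _ ((Y i).op z (ξ.comp (p1 (o.wg (Y i)) n))) =
          (p1 (o.wg (Y i)) n).sph _ (Γ i ξ) := fun i ξ =>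
        sphere_ext (((Y i).src_op _ _).trans (GMap.congr_app (hm.2.1 i ξ) m (top m)).symm)
          (((Y i).tgt_op _ _).trans (GMap.congr_app (hp.2.1 i ξ) m (top m)).symm)
      have gΓ : ∀ i i' (g : Hom (Y i) (Y i')) ξ, (Pmap n (o.wm g)).sph _ (Γ i ξ) =
          Γ i' (ξ.comp (Pmap n (o.wm g))) := fun i i' g ξ =>
        sphere_ext (GMap.congr_app (hm.2.2 i i' g ξ) m (top m))
          (GMap.congr_app (hp.2.2 i i' g ξ) m (top m))
      have push : ∀ i i' (g : Hom (Y i) (Y i')) ξ (c : (PG (o.wg (Y i)) n).cell (m + 1)),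
          ((PG _ n).bdry _ c = Γ i ξ ∧ (p0 _ n).app _ c = (Y i).op z (ξ.comp (p0 (o.wg (Y i)) n)) ∧
            (p1 _ n).app _ c = (Y i).op z (ξ.comp (p1 (o.wg (Y i)) n))) →
          ((PG _ n).bdry _ ((Pmap n (o.wm g)).app _ c) = Γ i' (ξ.comp (Pmap n (o.wm g))) ∧
            (p0 _ n).app _ ((Pmap n (o.wm g)).app _ c) =
              (Y i').op z ((ξ.comp (Pmap n (o.wm g))).comp (p0 (o.wg (Y i')) n)) ∧
            (p1 _ n).app _ ((Pmap n (o.wm g)).app _ c) =
              (Y i').op z ((ξ.comp (Pmap n (o.wm g))).comp (p1 (o.wg (Y i')) n))) := by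
        rintro i i' g ξ c ⟨c1, c2, c3⟩
        refine ⟨by rw [GMap.bdry_app, c1, gΓ], ?_, ?_⟩
        · rw [p0_Pmap, c2]; exact g.map_op _ _
        · rw [p1_Pmap, c3]; exact g.map_op _ _
      suffices H : ∃ oo : ∀ i, GM T (PG (o.wg (Y i)) n) → (PG (o.wg (Y i)) n).cell (m + 1),
          (∀ i ξ, (PG _ n).bdry _ (oo i ξ) = Γ i ξ ∧
            (p0 _ n).app _ (oo i ξ) = (Y i).op z (ξ.comp (p0 (o.wg (Y i)) n)) ∧
            (p1 _ n).app _ (oo i ξ) = (Y i).op z (ξ.comp (p1 (o.wg (Y i)) n))) ∧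
          ∀ i i' (g : Hom (Y i) (Y i')) ξ, (Pmap n (o.wm g)).app _ (oo i ξ) =
            oo i' (ξ.comp (Pmap n (o.wm g))) by
        obtain ⟨oo, o1, o2⟩ := H
        exact ⟨oo, fun i ξ => bdry_eq_iff.1 (o1 i ξ).1, fun i ξ => globe_ext (o1 i ξ).2.1,
          fun i ξ => globe_ext (o1 i ξ).2.2, fun i i' g ξ => globe_ext (o2 i i' g ξ)⟩
      by_cases hcase : n ≤ m + 1 ∧ m + 1 < M
      · let ξT : GM T (PG (o.wg (Y (.inl T))) n) := (ξR T).comp (Pmap n (o.wm (η T)))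
        have hF : Fill (m + 1 + 1) (K T).G := by
          intro γ
          obtain ⟨δ, rfl⟩ := (sph_bij_of_bij (hη T) (by omega)).2 γ
          obtain ⟨x, rfl⟩ := hfill T (m + 1) hcase.1 hcase.2 hTd _ _ (hR T) δ
          exact ⟨_, GMap.bdry_app _ _ _⟩
        obtain ⟨c0, hc0⟩ := PG_fill hcase.1 (Γ (.inl T) ξT) _ _ (g0 (.inl T) ξT) (g1 (.inl T) ξT) (fun a b hab => by
          obtain ⟨x, hx⟩ := hF (mkS a b hab)
          exact ⟨x, congrArg lo hx, congrArg hi hx⟩)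
        have hcomp : ∀ i (g : Hom (K T) (Y i)), ξT.comp (Pmap n (o.wm g)) =
            (ξR T).comp (Pmap n (o.wm ((η T).comp g))) := fun i g => by
          rw [← Pmap_comp (o.wm (η T)) (o.wm g) (o.wm ((η T).comp g)) rfl]; rfl
        have hex : ∀ i (ξ : GM T (PG (o.wg (Y i)) n)), ∃ g : Hom (Y (.inl T)) (Y i),
            ξT.comp (Pmap n (o.wm g)) = ξ := by
          intro i ξ
          obtain ⟨g0, hg0⟩ := (hR T).ex _ ξ
          obtain ⟨g, hg⟩ := kappa_extend hT (hη T) (hY i) g0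
          exact ⟨g, by rw [hcomp, hg, hg0]⟩
        have huq : ∀ i (g g' : Hom (Y (.inl T)) (Y i)), ξT.comp (Pmap n (o.wm g)) =
            ξT.comp (Pmap n (o.wm g')) → g = g' := by
          intro i g g' h
          rw [hcomp, hcomp] at h
          exact kappa_ext (hη T) (hY i) ((hR T).uq _ _ _ h)
        choose gg hgg using hex
        refine ⟨fun i ξ => (Pmap n (o.wm (gg i ξ))).app _ c0, fun i ξ => ?_, fun i i' g ξ => ?_⟩
        · have := push (.inl T) i (gg i ξ) ξT c0 hc0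
          rw [hgg] at this
          exact this
        · have e := Pmap_comp (n := n) (o.wm (gg i ξ)) (o.wm g) (o.wm ((gg i ξ).comp g)) rfl
          have : gg i' (ξ.comp (Pmap n (o.wm g))) = (gg i ξ).comp g := by
            apply huq
            rw [hgg, ← e, ← GMap.comp_assoc, hgg]
          simp only [this]
          exact GMap.congr_app e _ c0
      · have hex : ∀ i (ξ : GM T (PG (o.wg (Y i)) n)), ∃ c : (PG (o.wg (Y i)) n).cell (m + 1),
            (PG _ n).bdry _ c = Γ i ξ ∧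
            (p0 _ n).app _ c = (Y i).op z (ξ.comp (p0 (o.wg (Y i)) n)) ∧
            (p1 _ n).app _ c = (Y i).op z (ξ.comp (p1 (o.wg (Y i)) n)) := by
          intro i ξ
          by_cases hn : n ≤ m + 1
          · refine PG_fill hn (Γ i ξ) _ _ (g0 i ξ) (g1 i ξ) fun a b hab => ?_
            obtain ⟨x, hx⟩ := (hY i (m + 1 + 1) (by omega)).1 (mkS a b hab)
            exact ⟨x, congrArg lo hx, congrArg hi hx⟩
          · obtain ⟨c, c1, c2⟩ := PG_mk_of_not_le hn (Γ i ξ) _ (g0 i ξ)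
            refine ⟨c, c1, c2, (p1_eq_p0 (by omega) c).trans (c2.trans (congrArg _ ?_))⟩
            refine GMap.ext' fun j t => (p1_eq_p0 ?_ _).symm
            have := cell_le_dim T j t
            omega
        have huq : ∀ i (c c' : (PG (o.wg (Y i)) n).cell (m + 1)),
            (PG _ n).bdry _ c = (PG _ n).bdry _ c' → (p0 _ n).app _ c = (p0 _ n).app _ c' →
            (p1 _ n).app _ c = (p1 _ n).app _ c' → c = c' := by
          intro i c c' e1 e2 e3
          refine PG_ext e1 e2 fun hn => (hY i (m + 1 + 1) (by omega)).2 _ _ (sphere_ext ?_ ?_)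
          · exact (src_pz c hn).trans (by rw [e1, e2]; exact (src_pz c' hn).symm)
          · exact (tgt_pz c hn).trans (by rw [e3]; exact (tgt_pz c' hn).symm)
        choose oo hoo using hex
        refine ⟨oo, hoo, fun i i' g ξ => ?_⟩
        obtain ⟨e1, e2, e3⟩ := push i i' g ξ _ (hoo i ξ)
        obtain ⟨f1, f2, f3⟩ := hoo i' (ξ.comp (Pmap n (o.wm g)))
        exact huq _ _ _ (e1.trans f1.symm) (e2.trans f2.symm) (e3.trans f3.symm))
  let P : ∀ i, Alg C := fun i =>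
    ⟨PG (o.wg (Y i)) n, fun f => Φ f i, fun f g ξ => h2 f g i ξ, fun f ξ => h3 f i ξ⟩
  let a : ∀ i, Hom (P i) (Y i) := fun i => ⟨p0 (o.wg (Y i)) n, fun f ξ => (h1 f).1 i ξ⟩
  let b : ∀ i, Hom (P i) (Y i) := fun i => ⟨p1 (o.wg (Y i)) n, fun f ξ => (h1 f).2.1 i ξ⟩
  let Pg : Hom (P (.inr true)) (P (.inr false)) :=
    ⟨Pmap n (o.wm g), fun f ξ => (h1 f).2.2 (.inr true) (.inr false) g ξ⟩
  exact ⟨P (.inr false), P (.inr true), a (.inr false), b (.inr false), a (.inr true), b (.inr true), Pg, rfl, rfl,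
    p0_trivFib (A := o.wg A2) (o.gpd A2),
    p1_trivFib (A := o.wg A2) (o.gpd A2) (fun i j => o.divC_of_divM (o.divM hC i j) A2),
    p1_trivFib (A := o.wg A1) (o.gpd A1) (fun i j => o.divC_of_divM (o.divM hC i j) A1),
    fun k hk c w0 w1 e0 e1 => path_lift (o.pathLaw hC A1) hk c w0 w1 e0 e1⟩

theorem pathStr (hT : Nonempty C.Tower) (hC : Contr C) (o : Ops C) (M n : ℕ) : PathStr C M n := by
  have aux : ∀ d n, M ≤ n + d → PathStr C M n := by
    intro d
    induction d with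
    | zero => exact fun n hn => pathStr_of hT hC o fun T k h1 h2 => by omega
    | succ d ih =>
      exact fun n hn => pathStr_of hT hC o fun T k h1 h2 h3 R ξR hR =>
        genCyl_fill hT hC o (ih (n + 1) (by omega)) h1 h2 h3 hR
  exact aux M n (by omega)

end Crest.Agent.R248
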