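import Crest.Agent.R248.Glob

/-! Shapes as globular sets, maps out of them. -/

set_option autoImplicit false

universe u v w

namespace Crest.Agent.R248

open Crest.GeometryTopology.Coherator CategoryTheory CategoryTheory.Limits Opposite

/-- the globular set of a shape -/
noncomputable def gs (S : Shape) : GlobSet.{0} := S.psh.toGlobSet

/-- diagrams of shape `T` in `G` -/
abbrev GM (T : Shape) (G : GlobSet.{v}) : Type v := GMap (gs T) G

/-- a map of presheaves as a globular map -/
noncomputable def pshMap {P Q : GlobPsh.{v}} (f : P ⟶ Q) : GMap P.toGlobSet Q.toGlobSet where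
  app := (GlobPsh.toGlobSetMap f).app
  app_src := (GlobPsh.toGlobSetMap f).app_src
  app_tgt := (GlobPsh.toGlobSetMap f).app_tgt

/-- a map of shapes as a globular map -/
noncomputable def shMap {S T : Shape} (f : S ⟶ T) : GM S (gs T) := pshMap (P := S.psh) (Q := T.psh) f

theorem shMap_id (S : Shape) : shMap (𝟙 S) = GMap.id _ := rfl

theorem shMap_comp {R S T : Shape} (f : R ⟶ S) (g : S ⟶ T) :
    shMap (f ≫ g) = (shMap f).comp (shMap g) := rfl

theorem psh_face (P : GlobPsh.{v}) (ε : Bool) {m n : ℕ} (h : m < n) (x : P.toGlobSet.cell n) :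
    P.map (GlobeObj.faceArrow h ε).op x = face P.toGlobSet ε h x := by
  induction n, h using Nat.le_induction with
  | base =>
    cases ε
    · rw [face_false_self]; rfl
    · rw [face_true_self]; rfl
  | succ n hmn ih =>
    rw [face_succ ε hmn, ← ih]
    change _ = (P.map (GlobeObj.σ n).op ≫ P.map (GlobeObj.faceArrow hmn ε).op) x
    rw [← P.map_comp, ← op_comp]
    rfl

/-- the top cell of a globe -/
def top (k : ℕ) : (gs (Shape.globe k)).cell k := GlobeObj.Arrow.refl k

theorem globe_face (ε : Bool) {m n : ℕ} (h : m < n) :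
    face (gs (Shape.globe n)) ε h (top n) = GlobeObj.Arrow.pole h ε := by
  have := psh_face (Shape.globe n).psh ε h (top n)
  exact this.symm

theorem globe_cell_cases {k : ℕ} {motive : ∀ m, (gs (Shape.globe k)).cell m → Prop}
    (h1 : motive k (top k)) (h2 : ∀ m (h : m < k) ε, motive m (face _ ε h (top k)))
    (m : ℕ) (a : (gs (Shape.globe k)).cell m) : motive m a := by
  have aux : ∀ (m' : ℕ) (a' : GlobeObj.Arrow m' k), motive m' a' := by
    intro m' a'
    cases a' with
    | refl => exact h1
    | pole h ε => have := h2 m' h ε; rw [globe_face] at this; exact this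
  exact aux m a

theorem globe_ext {G : GlobSet.{v}} {k : ℕ} {ξ ζ : GM (Shape.globe k) G}
    (h : ξ.app k (top k) = ζ.app k (top k)) : ξ = ζ := by
  apply GMap.ext'
  apply globe_cell_cases
  · exact h
  · intro m hm ε
    rw [ξ.app_face, ζ.app_face, h]

/-- action of an arrow of globes on cells -/
def arrAct (G : GlobSet.{v}) : {m k : ℕ} → GlobeObj.Arrow m k → G.cell k → G.cell m
  | _, _, .refl _, c => c
  | _, _, .pole h ε, c => face G ε h c

/-- the diagram determined by a cell -/
def single {G : GlobSet.{v}} {k : ℕ} (c : G.cell k) : GM (Shape.globe k) G where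
  app m a := arrAct G (m := m) (k := k) a c
  app_src m a := by
    have aux : ∀ (k' : ℕ) (a' : GlobeObj.Arrow (m + 1) k') (c' : G.cell k'),
        arrAct G (GlobeObj.Arrow.seq (.pole (Nat.lt_succ_self m) false) a') c'
          = G.src m (arrAct G a' c') := by
      intro k' a' c'
      cases a' with
      | refl => exact face_false_self (Nat.lt_succ_self m) _
      | pole h ε => exact (src_face ε h (by omega) c').symm
    exact aux k a c
  app_tgt m a := by
    have aux : ∀ (k' : ℕ) (a' : GlobeObj.Arrow (m + 1) k') (c' : G.cell k'),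
        arrAct G (GlobeObj.Arrow.seq (.pole (Nat.lt_succ_self m) true) a') c'
          = G.tgt m (arrAct G a' c') := by
      intro k' a' c'
      cases a' with
      | refl => exact face_true_self (Nat.lt_succ_self m) _
      | pole h ε => exact (tgt_face ε h (by omega) c').symm
    exact aux k a c

@[simp] theorem single_top {G : GlobSet.{v}} {k : ℕ} (c : G.cell k) :
    (single c).app k (top k) = c := rfl

theorem single_comp {G : GlobSet.{v}} {H : GlobSet.{w}} {k : ℕ} (c : G.cell k) (f : GMap G H) :
    (single c).comp f = single (f.app k c) := globe_ext rfl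

theorem single_app_top {G : GlobSet.{v}} {k : ℕ} (ξ : GM (Shape.globe k) G) :
    single (ξ.app k (top k)) = ξ := globe_ext rfl

/-- the map of shapes determined by a cell -/
noncomputable def cellMap {T : Shape} {k : ℕ} (z : (gs T).cell k) : Shape.globe k ⟶ T :=
  (yonedaEquiv (X := GlobeObj.mk k) (F := T.psh)).symm z

@[simp] theorem shMap_cellMap_top {T : Shape} {k : ℕ} (z : (gs T).cell k) :
    (shMap (cellMap z)).app k (top k) = z :=
  (yonedaEquiv (X := GlobeObj.mk k) (F := T.psh)).apply_symm_apply z

theorem cellMap_top {T : Shape} {k : ℕ} (f : Shape.globe k ⟶ T) :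
    cellMap ((shMap f).app k (top k)) = f :=
  (yonedaEquiv (X := GlobeObj.mk k) (F := T.psh)).symm_apply_apply f

theorem globeHom_ext {T : Shape} {k : ℕ} {f g : Shape.globe k ⟶ T}
    (h : (shMap f).app k (top k) = (shMap g).app k (top k)) : f = g := by
  rw [← cellMap_top f, h, cellMap_top]

theorem shMap_cellMap {T : Shape} {k : ℕ} (z : (gs T).cell k) : shMap (cellMap z) = single z :=
  globe_ext (shMap_cellMap_top z)

theorem shMap_faceMap_top {m n : ℕ} (h : m < n) (ε : Bool) :
    (shMap (Shape.faceMap h ε)).app m (top m) = face _ ε h (top n) := by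
  rw [globe_face]; rfl

theorem shMap_σ_top (n : ℕ) :
    (shMap (Shape.σ n)).app n (top n) = (gs (Shape.globe (n + 1))).src n (top (n + 1)) := by
  rw [Shape.σ, shMap_faceMap_top, face_false_self]

theorem shMap_τ_top (n : ℕ) :
    (shMap (Shape.τ n)).app n (top n) = (gs (Shape.globe (n + 1))).tgt n (top (n + 1)) := by
  rw [Shape.τ, shMap_faceMap_top, face_true_self]

theorem cellMap_top_self (k : ℕ) : cellMap (top k) = 𝟙 (Shape.globe k) :=
  globeHom_ext (shMap_cellMap_top _)

theorem cellMap_comp {S T : Shape} {k : ℕ} (z : (gs S).cell k) (f : S ⟶ T) :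
    cellMap z ≫ f = cellMap ((shMap f).app k z) := by
  apply globeHom_ext
  rw [shMap_comp, GMap.comp_app, shMap_cellMap_top, shMap_cellMap_top]

theorem faceMap_cellMap {T : Shape} {m n : ℕ} (h : m < n) (ε : Bool) (z : (gs T).cell n) :
    Shape.faceMap h ε ≫ cellMap z = cellMap (face _ ε h z) := by
  apply globeHom_ext
  rw [shMap_comp, GMap.comp_app, shMap_faceMap_top, GMap.app_face, shMap_cellMap_top,
    shMap_cellMap_top]

theorem σ_cellMap {T : Shape} {n : ℕ} (z : (gs T).cell (n + 1)) :
    Shape.σ n ≫ cellMap z = cellMap ((gs T).src n z) := by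
  rw [Shape.σ, faceMap_cellMap, face_false_self]

theorem τ_cellMap {T : Shape} {n : ℕ} (z : (gs T).cell (n + 1)) :
    Shape.τ n ≫ cellMap z = cellMap ((gs T).tgt n z) := by
  rw [Shape.τ, faceMap_cellMap, face_true_self]

theorem faceMap_comp_single {G : GlobSet.{v}} {m n : ℕ} (h : m < n) (ε : Bool) (c : G.cell n) :
    (shMap (Shape.faceMap h ε)).comp (single c) = single (face G ε h c) := by
  apply globe_ext
  rw [GMap.comp_app, shMap_faceMap_top, GMap.app_face]; rfl

theorem σ_comp_single {G : GlobSet.{v}} {n : ℕ} (c : G.cell (n + 1)) :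
    (shMap (Shape.σ n)).comp (single c) = single (G.src n c) := by
  rw [Shape.σ, faceMap_comp_single, face_false_self]

theorem τ_comp_single {G : GlobSet.{v}} {n : ℕ} (c : G.cell (n + 1)) :
    (shMap (Shape.τ n)).comp (single c) = single (G.tgt n c) := by
  rw [Shape.τ, faceMap_comp_single, face_true_self]

/-- the last globe of a shape, as a cell -/
noncomputable def apexCell (S : Shape) : (gs S).cell S.last :=
  (shMap (S := Shape.globe S.last) (T := S) S.apex).app _ (top _)

theorem apexCell_globe (k : ℕ) : apexCell (Shape.globe k) = top k := rfl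

theorem apexCell_glue (S : Shape) (b h : ℕ) (hb : b < S.last) (hh : b < h) :
    apexCell (S.glue b h hb hh) = (shMap (S.inRight b h hb hh)).app h (top h) := rfl

theorem shMap_hinge_top (S : Shape) {b : ℕ} (hb : b < S.last) :
    (shMap (S.hinge hb)).app b (top b) = face _ true hb (apexCell S) := by
  have : S.hinge hb = Shape.faceMap hb true ≫ (show Shape.globe S.last ⟶ S from S.apex) := rfl
  rw [this, shMap_comp, GMap.comp_app, shMap_faceMap_top, GMap.app_face]
  rfl

theorem glue_w (S : Shape) (b h : ℕ) (hb : b < S.last) (hh : b < h) :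
    S.hinge hb ≫ S.inLeft b h hb hh = Shape.faceMap hh false ≫ S.inRight b h hb hh :=
  pushout.condition (f := GlobPsh.globeRepFace hb true ≫ S.apex) (g := GlobPsh.globeRepFace hh false)

theorem glue_isPushout (S : Shape) (b h : ℕ) (hb : b < S.last) (hh : b < h) (k : ℕ) :
    IsPushout (C := Type) (↾((shMap (S.hinge hb)).app k)) (↾((shMap (Shape.faceMap hh false)).app k))
      (↾((shMap (S.inLeft b h hb hh)).app k)) (↾((shMap (S.inRight b h hb hh)).app k)) :=
  (IsPushout.of_hasPushout (GlobPsh.globeRepFace hb true ≫ S.apex)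
    (GlobPsh.globeRepFace hh false)).map ((evaluation _ _).obj (op (GlobeObj.mk k)))

theorem glue_cases (S : Shape) (b h : ℕ) (hb : b < S.last) (hh : b < h) {k : ℕ}
    (z : (gs (S.glue b h hb hh)).cell k) :
    (∃ x, (shMap (S.inLeft b h hb hh)).app k x = z) ∨
      ∃ y, (shMap (S.inRight b h hb hh)).app k y = z :=
  Types.eq_or_eq_of_isPushout (glue_isPushout S b h hb hh k) z

theorem isPushout_desc {X₁ X₂ X₃ X₄ : Type} {t : X₁ ⟶ X₂} {l : X₁ ⟶ X₃} {r : X₂ ⟶ X₄}
    {b : X₃ ⟶ X₄} (h : IsPushout t l r b) {Z : Type v} (f : X₂ → Z) (g : X₃ → Z)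
    (w : ∀ x, f (t x) = g (l x)) : ∃ d : X₄ → Z, (∀ x, d (r x) = f x) ∧ ∀ y, d (b y) = g y := by
  have h' := h.map uliftFunctor.{v, 0}
  let f' : ULift.{v} X₂ ⟶ Z := ↾fun x => f x.down
  let g' : ULift.{v} X₃ ⟶ Z := ↾fun x => g x.down
  have w' : uliftFunctor.{v, 0}.map t ≫ f' = uliftFunctor.{v, 0}.map l ≫ g' := by
    ext x; exact w x.down
  refine ⟨fun x => h'.desc f' g' w' (ULift.up x), fun x => ?_, fun y => ?_⟩
  · exact types_congr_hom (h'.inl_desc f' g' w') (ULift.up x)
  · exact types_congr_hom (h'.inr_desc f' g' w') (ULift.up y)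

theorem glue_ext {G : GlobSet.{v}} {S : Shape} {b h : ℕ} {hb : b < S.last} {hh : b < h}
    {ξ ζ : GM (S.glue b h hb hh) G}
    (h1 : (shMap (S.inLeft b h hb hh)).comp ξ = (shMap (S.inLeft b h hb hh)).comp ζ)
    (h2 : (shMap (S.inRight b h hb hh)).comp ξ = (shMap (S.inRight b h hb hh)).comp ζ) : ξ = ζ := by
  apply GMap.ext'
  intro k z
  rcases glue_cases S b h hb hh z with ⟨x, rfl⟩ | ⟨y, rfl⟩
  · exact GMap.congr_app h1 k x
  · exact GMap.congr_app h2 k y

theorem glue_exists {G : GlobSet.{v}} {S : Shape} {b h : ℕ} (hb : b < S.last) (hh : b < h)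
    (ξ : GM S G) (ζ : GM (Shape.globe h) G)
    (w : (shMap (S.hinge hb)).comp ξ = (shMap (Shape.faceMap hh false)).comp ζ) :
    ∃ θ : GM (S.glue b h hb hh) G, (shMap (S.inLeft b h hb hh)).comp θ = ξ ∧
      (shMap (S.inRight b h hb hh)).comp θ = ζ := by
  have H := fun k => isPushout_desc (glue_isPushout S b h hb hh k) (ξ.app k) (ζ.app k)
    (fun x => GMap.congr_app w k x)
  choose d hd1 hd2 using H
  have hd1' : ∀ k x, d k ((shMap (S.inLeft b h hb hh)).app k x) = ξ.app k x := hd1
  have hd2' : ∀ k x, d k ((shMap (S.inRight b h hb hh)).app k x) = ζ.app k x := hd2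
  refine ⟨⟨d, fun k z => ?_, fun k z => ?_⟩, GMap.ext' hd1', GMap.ext' hd2'⟩
  · rcases glue_cases S b h hb hh z with ⟨x, rfl⟩ | ⟨y, rfl⟩
    · rw [← GMap.app_src, hd1', hd1', ξ.app_src]
    · rw [← GMap.app_src, hd2', hd2', ζ.app_src]
  · rcases glue_cases S b h hb hh z with ⟨x, rfl⟩ | ⟨y, rfl⟩
    · rw [← GMap.app_tgt, hd1', hd1', ξ.app_tgt]
    · rw [← GMap.app_tgt, hd2', hd2', ζ.app_tgt]

/-- cell-level gluing -/
theorem glue_exists_cell {G : GlobSet.{v}} {S : Shape} {b h : ℕ} (hb : b < S.last) (hh : b < h)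
    (ξ : GM S G) (c : G.cell h)
    (w : face G true hb (ξ.app _ (apexCell S)) = face G false hh c) :
    ∃ θ : GM (S.glue b h hb hh) G, (shMap (S.inLeft b h hb hh)).comp θ = ξ ∧
      θ.app h (apexCell (S.glue b h hb hh)) = c := by
  obtain ⟨θ, h1, h2⟩ := glue_exists hb hh ξ (single c) (by
    apply globe_ext
    rw [faceMap_comp_single, GMap.comp_app, shMap_hinge_top, GMap.app_face, w]; rfl)
  exact ⟨θ, h1, GMap.congr_app h2 h (top h)⟩

theorem glue_ext_cell {G : GlobSet.{v}} {S : Shape} {b h : ℕ} {hb : b < S.last} {hh : b < h}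
    {ξ ζ : GM (S.glue b h hb hh) G}
    (h1 : (shMap (S.inLeft b h hb hh)).comp ξ = (shMap (S.inLeft b h hb hh)).comp ζ)
    (h2 : ξ.app h (apexCell (S.glue b h hb hh)) = ζ.app h (apexCell (S.glue b h hb hh))) :
    ξ = ζ := glue_ext h1 (globe_ext h2)

theorem glue_face (S : Shape) (b h : ℕ) (hb : b < S.last) (hh : b < h) :
    face _ true hb ((shMap (S.inLeft b h hb hh)).app _ (apexCell S)) =
      face _ false hh (apexCell (S.glue b h hb hh)) := by
  have := GMap.congr_app (congrArg shMap (glue_w S b h hb hh)) b (top b)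
  rw [shMap_comp, shMap_comp, GMap.comp_app, GMap.comp_app, shMap_hinge_top, shMap_faceMap_top,
    GMap.app_face, GMap.app_face] at this
  exact this

/-- induction on shapes -/
theorem shape_induction {motive : Shape → Prop} (h1 : ∀ k, motive (Shape.globe k))
    (h2 : ∀ S b h hb hh, motive S → motive (S.glue b h hb hh)) (S : Shape) : motive S := by
  obtain ⟨l, P⟩ := S
  induction P with
  | single k => exact h1 k
  | glue P b h hb hh ih => exact h2 ⟨_, P⟩ b h hb hh ih

theorem dim_globe (k : ℕ) : (Shape.globe k).dim = k := rfl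

theorem dim_glue (S : Shape) (b h : ℕ) (hb : b < S.last) (hh : b < h) :
    (S.glue b h hb hh).dim = max S.dim h := rfl

theorem last_glue (S : Shape) (b h : ℕ) (hb : b < S.last) (hh : b < h) :
    (S.glue b h hb hh).last = h := rfl

theorem cell_le_dim (S : Shape) : ∀ k, (gs S).cell k → k ≤ S.dim := by
  induction S using shape_induction with
  | h1 n =>
    apply globe_cell_cases
    · exact le_rfl
    · intro m h _; exact h.le
  | h2 S b h hb hh ih =>
    intro k z
    rw [dim_glue]
    rcases glue_cases S b h hb hh z with ⟨x, rfl⟩ | ⟨y, rfl⟩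
    · exact (ih k x).trans (le_max_left _ _)
    · refine le_trans ?_ (le_max_right _ _)
      revert y
      revert k
      intro k y
      exact globe_cell_cases (motive := fun m _ => m ≤ h) le_rfl (fun m h _ => h.le) k y

theorem globe_finite (n k : ℕ) : Finite ((gs (Shape.globe n)).cell k) := by
  let f : (gs (Shape.globe n)).cell k → Option Bool := fun a =>
    match (show GlobeObj.Arrow k n from a) with
    | .refl _ => none
    | .pole _ ε => some ε
  refine Finite.of_injective f ?_
  intro a a' h
  have aux : ∀ (a a' : GlobeObj.Arrow k n), f a = f a' → a = a' := by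
    intro a a' h
    cases a with
    | refl =>
      cases a' with
      | refl => rfl
      | pole h' _ => exact absurd h' (lt_irrefl _)
    | pole h1 ε =>
      cases a' with
      | refl => exact absurd h1 (lt_irrefl _)
      | pole h' ε' =>
        have : ε = ε' := by simpa [f] using h
        subst this; rfl
  exact aux a a' h

theorem cell_finite (S : Shape) (k : ℕ) : Finite ((gs S).cell k) := by
  induction S using shape_induction with
  | h1 n => exact globe_finite n k
  | h2 S b h hb hh ih =>
    have := globe_finite h k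
    refine Finite.of_surjective (fun x : (gs S).cell k ⊕ (gs (Shape.globe h)).cell k =>
      x.elim ((shMap (S.inLeft b h hb hh)).app k) ((shMap (S.inRight b h hb hh)).app k)) ?_
    intro z
    rcases glue_cases S b h hb hh z with ⟨x, rfl⟩ | ⟨y, rfl⟩
    · exact ⟨Sum.inl x, rfl⟩
    · exact ⟨Sum.inr y, rfl⟩

end Crest.Agent.R248
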