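import Crest.Agent.R248.Alg

/-! Building actions of a coherator from its defining tower. -/

set_option autoImplicit false

universe u v w

namespace Crest.Agent.R248

open Crest.GeometryTopology.Coherator CategoryTheory CategoryTheory.Limits Opposite
open GlobTheory

variable {C : GlobTheory.{u}}

theorem theoryMap_ext {D E : GlobTheory.{u}} {F G : TheoryMap D E}
    (h : ∀ S T (f : D.arr S T), F.map f = G.map f) : F = G := by
  apply TheoryMap.ext
  funext S T f
  exact h S T f

/-- image of an admissible pair under a map of theories -/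
def mapAdm {D E : GlobTheory.{u}} (G : TheoryMap D E) (p : D.Admissible) : E.Admissible where
  n := p.n
  shape := p.shape
  dim_le := p.dim_le
  lower := G.map p.lower
  upper := G.map p.upper
  parallel := by
    obtain ⟨n, S, hS, l, u, hp⟩ := p
    cases n with
    | zero => trivial
    | succ n =>
      obtain ⟨h1, h2⟩ := hp
      constructor
      · rw [← G.map_ofShape, ← G.map_seq, ← G.map_seq]; exact congrArg G.map h1
      · rw [← G.map_ofShape, ← G.map_seq, ← G.map_seq]; exact congrArg G.map h2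

theorem exists_section (tw : C.Tower) {E : GlobTheory.{u}} (p : TheoryMap E C)
    (hp : ∀ (a : E.Admissible) (z : C.arr (Shape.globe (a.n + 1)) a.shape), IsFillerAlong p a z →
      ∃ w, IsFillerAlong (TheoryMap.id E) a w ∧ p.map w = z) :
    ∃ H : TheoryMap C E, H.comp p = TheoryMap.id C := by
  classical
  have step : ∀ r (G : TheoryMap (tw.stage r) E), G.comp p = tw.toEnd r →
      ∃ G' : TheoryMap (tw.stage (r + 1)) E, G'.comp p = tw.toEnd (r + 1) ∧
        (tw.next r).comp G' = G := by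
    intro r G hG
    have hfill : ∀ g, IsFillerAlong (tw.toEnd r) (tw.prob r g)
        ((tw.toEnd (r + 1)).map (tw.fill r g)) := by
      intro g
      obtain ⟨h1, h2⟩ := (tw.free r).1 g
      rw [← tw.toEnd_comm r]
      constructor
      · rw [← (tw.toEnd (r + 1)).map_ofShape, ← TheoryMap.map_seq, h1]; rfl
      · rw [← (tw.toEnd (r + 1)).map_ofShape, ← TheoryMap.map_seq, h2]; rfl
    have hw : ∀ g, ∃ w, IsFillerAlong (TheoryMap.id E) (mapAdm G (tw.prob r g)) w ∧
        p.map w = (tw.toEnd (r + 1)).map (tw.fill r g) := by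
      intro g
      apply hp (mapAdm G (tw.prob r g))
      have := hfill g
      rw [← hG] at this
      exact this
    choose w hw1 hw2 using hw
    obtain ⟨G', ⟨hG1, hG2⟩, -⟩ := (tw.free r).2 E G w (fun g => hw1 g)
    refine ⟨G', ?_, hG1⟩
    obtain ⟨K, -, hK⟩ := (tw.free r).2 C (tw.toEnd r) _ hfill
    refine (hK _ ⟨?_, fun g => ?_⟩).trans (hK _ ⟨tw.toEnd_comm r, fun g => rfl⟩).symm
    · rw [← hG, ← hG1]; rfl
    · rw [← hw2, ← hG2]; rfl
  choose s hs1 hs2 using step
  obtain ⟨u0⟩ := tw.stage_zero E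
  obtain ⟨u1⟩ := tw.stage_zero C
  let F : ∀ r, {G : TheoryMap (tw.stage r) E // G.comp p = tw.toEnd r} := fun r =>
    Nat.rec ⟨u0.default, (u1.uniq _).trans (u1.uniq _).symm⟩
      (fun r G => ⟨s r G.1 G.2, hs1 r G.1 G.2⟩) r
  obtain ⟨H, hH, -⟩ := tw.colim E (fun r => (F r).1) (fun r => hs2 r (F r).1 (F r).2)
  refine ⟨H, ?_⟩
  obtain ⟨K, -, hK⟩ := tw.colim C tw.toEnd tw.toEnd_comm
  refine (hK _ fun r => ?_).trans (hK _ fun r => rfl).symm
  have h1 : ((tw.toEnd r).comp H).comp p = tw.toEnd r := by rw [hH r]; exact (F r).2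
  exact h1

section Action

variable {I : Type} (G : I → GlobSet.{u})

/-- families of functions on diagrams -/
abbrev Fam (S T : Shape) : Type u := ∀ i, GM T (G i) → GM S (G i)

variable (Good : ∀ {S T : Shape}, C.arr S T → Fam G S T → Prop)

/-- closure properties of a class of pairs (operation, family of functions) -/
structure GoodClosed : Prop where
  ofShape : ∀ {S T : Shape} (f : S ⟶ T), Good (C.ofShape f) (fun _ ξ => (shMap f).comp ξ)
  seq : ∀ {R S T : Shape} {f : C.arr R S} {g : C.arr S T} {φ : Fam G R S} {ψ : Fam G S T},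
    Good f φ → Good g ψ → Good (C.seq f g) (fun i ξ => φ i (ψ i ξ))
  glue : ∀ {S W : Shape} {b h : ℕ} {hb : b < S.last} {hh : b < h}
    {f : C.arr (S.glue b h hb hh) W} {φ : Fam G (S.glue b h hb hh) W},
    Good (C.seq (C.ofShape (S.inLeft b h hb hh)) f)
      (fun i ξ => (shMap (S.inLeft b h hb hh)).comp (φ i ξ)) →
    Good (C.seq (C.ofShape (S.inRight b h hb hh)) f)
      (fun i ξ => (shMap (S.inRight b h hb hh)).comp (φ i ξ)) → Good f φ

variable {G Good}

/-- the pre-theory of good pairs -/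
noncomputable def goodPre (hG : GoodClosed G Good) : PreTheory.{u} where
  arr S T := {p : C.arr S T × Fam G S T // Good p.1 p.2}
  one S := ⟨(C.one S, fun _ ξ => ξ), by
    have := hG.ofShape (𝟙 S)
    rw [C.ofShape_id] at this
    exact this⟩
  seq f g := ⟨(C.seq f.1.1 g.1.1, fun i ξ => f.1.2 i (g.1.2 i ξ)), hG.seq f.2 g.2⟩
  one_seq f := Subtype.ext (Prod.ext (C.one_seq _) rfl)
  seq_one f := Subtype.ext (Prod.ext (C.seq_one _) rfl)
  seq_assoc f g h := Subtype.ext (Prod.ext (C.seq_assoc _ _ _) rfl)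
  ofShape f := ⟨(C.ofShape f, fun _ ξ => (shMap f).comp ξ), hG.ofShape f⟩
  ofShape_id S := Subtype.ext (Prod.ext (C.ofShape_id _) rfl)
  ofShape_comp f g := Subtype.ext (Prod.ext (C.ofShape_comp _ _) rfl)

theorem goodPre_sums (hG : GoodClosed G Good) : (goodPre hG).RespectsSums := by
  intro S b h hb hh
  have hC := C.respectsSums S b h hb hh
  have w : (goodPre hG).incl.map (S.hinge hb) ≫ (goodPre hG).incl.map (S.inLeft b h hb hh) =
      (goodPre hG).incl.map (Shape.faceMap hh false) ≫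
        (goodPre hG).incl.map (S.inRight b h hb hh) := by
    rw [← Functor.map_comp, ← Functor.map_comp, glue_w]
  have ex : ∀ (W : Shape) (f1 : (goodPre hG).arr S W) (f2 : (goodPre hG).arr (Shape.globe h) W),
      (goodPre hG).seq ((goodPre hG).ofShape (S.hinge hb)) f1 =
        (goodPre hG).seq ((goodPre hG).ofShape (Shape.faceMap hh false)) f2 →
      ∃ f : (goodPre hG).arr (S.glue b h hb hh) W,
        (goodPre hG).seq ((goodPre hG).ofShape (S.inLeft b h hb hh)) f = f1 ∧
        (goodPre hG).seq ((goodPre hG).ofShape (S.inRight b h hb hh)) f = f2 := by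
    intro W f1 f2 e
    have e1 : C.seq (C.ofShape (S.hinge hb)) f1.1.1 =
        C.seq (C.ofShape (Shape.faceMap hh false)) f2.1.1 := congrArg (fun t => t.1.1) e
    have e2 : ∀ i ξ, (shMap (S.hinge hb)).comp (f1.1.2 i ξ) =
        (shMap (Shape.faceMap hh false)).comp (f2.1.2 i ξ) :=
      fun i ξ => congrFun (congrFun (congrArg (fun t => t.1.2) e) i) ξ
    let d : C.arr (S.glue b h hb hh) W :=
      hC.desc (W := (⟨W⟩ : C.Ob)) f1.1.1 f2.1.1 e1
    have d1 : C.seq (C.ofShape (S.inLeft b h hb hh)) d = f1.1.1 :=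
      hC.inl_desc (W := (⟨W⟩ : C.Ob)) f1.1.1 f2.1.1 e1
    have d2 : C.seq (C.ofShape (S.inRight b h hb hh)) d = f2.1.1 :=
      hC.inr_desc (W := (⟨W⟩ : C.Ob)) f1.1.1 f2.1.1 e1
    choose θ hθ1 hθ2 using fun i ξ => glue_exists hb hh _ _ (e2 i ξ)
    have t1 : (fun i ξ => (shMap (S.inLeft b h hb hh)).comp (θ i ξ)) = f1.1.2 := by
      funext i ξ; exact hθ1 i ξ
    have t2 : (fun i ξ => (shMap (S.inRight b h hb hh)).comp (θ i ξ)) = f2.1.2 := by
      funext i ξ; exact hθ2 i ξ
    refine ⟨⟨(d, θ), hG.glue ?_ ?_⟩, Subtype.ext (Prod.ext d1 t1), Subtype.ext (Prod.ext d2 t2)⟩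
    · rw [d1, t1]; exact f1.2
    · rw [d2, t2]; exact f2.2
  have uq : ∀ (W : Shape) (f f' : (goodPre hG).arr (S.glue b h hb hh) W),
      (goodPre hG).seq ((goodPre hG).ofShape (S.inLeft b h hb hh)) f =
        (goodPre hG).seq ((goodPre hG).ofShape (S.inLeft b h hb hh)) f' →
      (goodPre hG).seq ((goodPre hG).ofShape (S.inRight b h hb hh)) f =
        (goodPre hG).seq ((goodPre hG).ofShape (S.inRight b h hb hh)) f' → f = f' := by
    intro W f f' e1 e2
    apply Subtype.ext
    apply Prod.ext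
    · exact hC.hom_ext (W := (⟨W⟩ : C.Ob)) (congrArg (fun t => t.1.1) e1)
        (congrArg (fun t => t.1.1) e2)
    · funext i ξ
      exact glue_ext (congrFun (congrFun (congrArg (fun t => t.1.2) e1) i) ξ)
        (congrFun (congrFun (congrArg (fun t => t.1.2) e2) i) ξ)
  refine ⟨⟨w⟩, ⟨PushoutCocone.IsColimit.mk w
    (fun s => (ex s.pt.shape s.inl s.inr s.condition).choose) (fun s => ?_) (fun s => ?_)
    (fun s m h1 h2 => ?_)⟩⟩
  · exact (ex s.pt.shape s.inl s.inr s.condition).choose_spec.1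
  · exact (ex s.pt.shape s.inl s.inr s.condition).choose_spec.2
  · exact uq _ _ _ (h1.trans (ex s.pt.shape s.inl s.inr s.condition).choose_spec.1.symm)
      (h2.trans (ex s.pt.shape s.inl s.inr s.condition).choose_spec.2.symm)

/-- the theory of good pairs -/
noncomputable def goodTheory (hG : GoodClosed G Good) : GlobTheory.{u} :=
  ⟨goodPre hG, goodPre_sums hG⟩

/-- projection to `C` -/
noncomputable def goodProj (hG : GoodClosed G Good) : TheoryMap (goodTheory hG) C where
  map f := f.1.1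
  map_one _ := rfl
  map_seq _ _ := rfl
  map_ofShape _ := rfl

theorem exists_action (hT : Nonempty C.Tower) (hG : GoodClosed G Good)
    (hfill : ∀ (n : ℕ) (T : Shape), T.dim ≤ n + 1 → ∀ (z : C.arr (Shape.globe (n + 1)) T)
      (φm φp : Fam G (Shape.globe n) T),
      Good (C.seq (C.ofShape (Shape.σ n)) z) φm → Good (C.seq (C.ofShape (Shape.τ n)) z) φp →
      (∀ i ξ, (G i).bdry n ((φm i ξ).app n (top n)) = (G i).bdry n ((φp i ξ).app n (top n))) →
      ∃ o : ∀ i, GM T (G i) → (G i).cell (n + 1),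
        (∀ i ξ, (G i).src n (o i ξ) = (φm i ξ).app n (top n) ∧
          (G i).tgt n (o i ξ) = (φp i ξ).app n (top n)) ∧
        Good z (fun i ξ => single (o i ξ))) :
    ∃ Φ : ∀ {S T : Shape}, C.arr S T → Fam G S T, (∀ {S T} (f : C.arr S T), Good f (Φ f)) ∧
      (∀ {R S T : Shape} (f : C.arr R S) (g : C.arr S T) i ξ,
        Φ (C.seq f g) i ξ = Φ f i (Φ g i ξ)) ∧
      ∀ {S T : Shape} (f : S ⟶ T) i ξ, Φ (C.ofShape f) i ξ = (shMap f).comp ξ := by
  obtain ⟨tw⟩ := hT
  obtain ⟨H, hH⟩ := exists_section tw (goodProj hG) (by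
    rintro ⟨n, T, hT, l, u, hpar⟩ z ⟨hz1, hz2⟩
    have hz1' : C.seq (C.ofShape (Shape.σ n)) z = l.1.1 := hz1
    have hz2' : C.seq (C.ofShape (Shape.τ n)) z = u.1.1 := hz2
    obtain ⟨o, ho1, ho2⟩ := hfill n T hT z l.1.2 u.1.2 (by rw [hz1']; exact l.2)
      (by rw [hz2']; exact u.2) (by
        intro i ξ
        cases n with
        | zero => rfl
        | succ n =>
          obtain ⟨e1, e2⟩ := hpar
          have e1' := GMap.congr_app (congrFun (congrFun (congrArg (fun t => t.1.2) e1) i) ξ) n (top n)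
          have e2' := GMap.congr_app (congrFun (congrFun (congrArg (fun t => t.1.2) e2) i) ξ) n (top n)
          apply sphere_ext
          · rw [lo_bdry, lo_bdry, ← GMap.app_src, ← GMap.app_src, ← shMap_σ_top]; exact e1'
          · rw [hi_bdry, hi_bdry, ← GMap.app_tgt, ← GMap.app_tgt, ← shMap_τ_top]; exact e2')
    refine ⟨⟨(z, fun i ξ => single (o i ξ)), ho2⟩, ⟨?_, ?_⟩, rfl⟩
    · refine Subtype.ext (Prod.ext hz1' ?_)
      funext i ξ
      exact (σ_comp_single _).trans (by rw [(ho1 i ξ).1]; exact single_app_top _)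
    · refine Subtype.ext (Prod.ext hz2' ?_)
      funext i ξ
      exact (τ_comp_single _).trans (by rw [(ho1 i ξ).2]; exact single_app_top _))
  refine ⟨fun f => (H.map f).1.2, fun f => ?_, fun f g i ξ => ?_, fun f i ξ => ?_⟩
  · have h1 : (H.map f).1.1 = f := congrArg (fun K => TheoryMap.map K f) hH
    have h2 := (H.map f).2
    rw [h1] at h2
    exact h2
  · simp only [H.map_seq]; rfl
  · simp only [H.map_ofShape]; rfl

end Action

end Crest.Agent.R248
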