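import Crest.Agent.R248.Alg
import Crest.Agent.R248.Cyl

/-! Units, inverses and ternary whiskering operations of a contractible theory. -/

set_option autoImplicit false

universe u v w

namespace Crest.Agent.R248

open Crest.GeometryTopology.Coherator CategoryTheory
open GlobTheory

section T3

/-- the first two globes of the arity of ternary whiskering -/
def T2 (k j : ℕ) (h : k < j) : Shape := (Shape.globe (k + 1)).glue k j (Nat.lt_succ_self k) h

/-- the arity of ternary whiskering -/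
def T3 (k j : ℕ) (h : k < j) : Shape := (T2 k j h).glue k (k + 1) h (Nat.lt_succ_self k)

variable {k j : ℕ} (h : k < j)

/-- inclusion of the first globe -/
noncomputable def i12 : GM (Shape.globe (k + 1)) (gs (T2 k j h)) :=
  shMap ((Shape.globe (k + 1)).inLeft k j (Nat.lt_succ_self k) h)

/-- inclusion of the first two globes -/
noncomputable def i23 : GM (T2 k j h) (gs (T3 k j h)) :=
  shMap ((T2 k j h).inLeft k (k + 1) h (Nat.lt_succ_self k))

/-- first generator -/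
noncomputable def t1 : (gs (T3 k j h)).cell (k + 1) :=
  (i23 h).app _ ((i12 h).app _ (top (k + 1)))
/-- second generator -/
noncomputable def t2 : (gs (T3 k j h)).cell j := (i23 h).app j (apexCell (T2 k j h))
/-- third generator -/
noncomputable def t3 : (gs (T3 k j h)).cell (k + 1) := apexCell (T3 k j h)

theorem T3_dim : (T3 k j h).dim ≤ j := by
  change max (max (k + 1) j) (k + 1) ≤ j
  omega

theorem T3_exists {G : GlobSet.{v}} (u : G.cell (k + 1)) (x : G.cell j) (v : G.cell (k + 1))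
    (h1 : face G false h x = G.tgt k u) (h2 : face G true h x = G.src k v) :
    ∃ ξ : GM (T3 k j h) G, ξ.app _ (t1 h) = u ∧ ξ.app _ (t2 h) = x ∧ ξ.app _ (t3 h) = v := by
  obtain ⟨θ, e1, e2⟩ := glue_exists_cell (S := Shape.globe (k + 1)) (Nat.lt_succ_self k) h
    (single u) x ((face_true_self _ _).trans h1.symm)
  obtain ⟨ξ, e3, e4⟩ := glue_exists_cell (S := T2 k j h) h (Nat.lt_succ_self k) θ v
    (by rw [face_false_self, ← h2, ← e2]; rfl)
  refine ⟨ξ, ?_, ?_, e4⟩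
  · exact (GMap.congr_app e3 _ _).trans (GMap.congr_app e1 _ _)
  · exact (GMap.congr_app e3 _ _).trans e2

theorem T3_ext {G : GlobSet.{v}} {ξ ζ : GM (T3 k j h) G} (h1 : ξ.app _ (t1 h) = ζ.app _ (t1 h))
    (h2 : ξ.app _ (t2 h) = ζ.app _ (t2 h)) (h3 : ξ.app _ (t3 h) = ζ.app _ (t3 h)) : ξ = ζ :=
  glue_ext_cell (glue_ext_cell (globe_ext h1) h2) h3

theorem T3_rel1 {G : GlobSet.{v}} (ξ : GM (T3 k j h) G) :
    face G false h (ξ.app _ (t2 h)) = G.tgt k (ξ.app _ (t1 h)) := by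
  have := glue_face (Shape.globe (k + 1)) k j (Nat.lt_succ_self k) h
  have h2 := congrArg (((i23 h).comp ξ).app k) this
  have e1 := GMap.app_face ((i23 h).comp ξ) true (Nat.lt_succ_self k) ((i12 h).app _ (top (k + 1)))
  have e2 := GMap.app_face ((i23 h).comp ξ) false h (apexCell (T2 k j h))
  exact e2.symm.trans (h2.symm.trans (e1.trans (face_true_self _ _)))

theorem T3_rel2 {G : GlobSet.{v}} (ξ : GM (T3 k j h) G) :
    face G true h (ξ.app _ (t2 h)) = G.src k (ξ.app _ (t3 h)) := by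
  have := glue_face (T2 k j h) k (k + 1) h (Nat.lt_succ_self k)
  have h2 := congrArg (ξ.app k) this
  have e1 := GMap.app_face ξ true h (t2 h)
  have e2 := GMap.app_face ξ false (Nat.lt_succ_self k) (t3 h)
  exact e1.symm.trans (h2.trans (e2.trans (face_false_self _ _)))

end T3

variable {C : GlobTheory.{u}}

/-- chosen structural operations -/
structure Ops (C : GlobTheory.{u}) : Type u where
  unit : ∀ k, C.arr (Shape.globe (k + 1)) (Shape.globe k)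
  src_unit : ∀ k, C.seq (C.ofShape (Shape.σ k)) (unit k) = C.one _
  tgt_unit : ∀ k, C.seq (C.ofShape (Shape.τ k)) (unit k) = C.one _
  inv : ∀ k, C.arr (Shape.globe (k + 1)) (Shape.globe (k + 1))
  src_inv : ∀ k, C.seq (C.ofShape (Shape.σ k)) (inv k) = C.ofShape (Shape.τ k)
  tgt_inv : ∀ k, C.seq (C.ofShape (Shape.τ k)) (inv k) = C.ofShape (Shape.σ k)
  m : ∀ k j (h : k < j), C.arr (Shape.globe j) (T3 k j h)
  m_base : ∀ k (A : Alg C) (ξ : GM (T3 k (k + 1) (Nat.lt_succ_self k)) A.G),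
    A.G.src k (A.op (m k (k + 1) _) ξ) = A.G.src k (ξ.app _ (t1 _)) ∧
    A.G.tgt k (A.op (m k (k + 1) _) ξ) = A.G.tgt k (ξ.app _ (t3 _))
  m_step : ∀ k j (h : k < j) (A : Alg C) (ξ : GM (T3 k (j + 1) (h.trans (Nat.lt_succ_self j))) A.G)
    (ξ' : GM (T3 k j h) A.G), ξ'.app _ (t1 _) = ξ.app _ (t1 _) → ξ'.app _ (t3 _) = ξ.app _ (t3 _) →
    (ξ'.app _ (t2 _) = A.G.src j (ξ.app _ (t2 _)) → A.G.src j (A.op (m k (j + 1) _) ξ) = A.op (m k j h) ξ') ∧
    (ξ'.app _ (t2 _) = A.G.tgt j (ξ.app _ (t2 _)) → A.G.tgt j (A.op (m k (j + 1) _) ξ) = A.op (m k j h) ξ')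

theorem T3_face_src {G : GlobSet.{v}} {k j : ℕ} (h : k < j) (h' : k < j + 1)
    (ξ : GM (T3 k (j + 1) h') G) :
    ∃ ξ' : GM (T3 k j h) G, ξ'.app _ (t1 h) = ξ.app _ (t1 h') ∧
      ξ'.app _ (t2 h) = G.src j (ξ.app _ (t2 h')) ∧ ξ'.app _ (t3 h) = ξ.app _ (t3 h') :=
  T3_exists h _ _ _ (by rw [← face_succ _ h h', T3_rel1]) (by rw [← face_succ _ h h', T3_rel2])

theorem T3_face_tgt {G : GlobSet.{v}} {k j : ℕ} (h : k < j) (h' : k < j + 1)
    (ξ : GM (T3 k (j + 1) h') G) :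
    ∃ ξ' : GM (T3 k j h) G, ξ'.app _ (t1 h) = ξ.app _ (t1 h') ∧
      ξ'.app _ (t2 h) = G.tgt j (ξ.app _ (t2 h')) ∧ ξ'.app _ (t3 h) = ξ.app _ (t3 h') :=
  T3_exists h _ _ _ (by rw [← face_succ_tgt _ h h', T3_rel1])
    (by rw [← face_succ_tgt _ h h', T3_rel2])

theorem exists_m (hC : Contr C) (k : ℕ) :
    ∃ m : ∀ j (h : k < j), C.arr (Shape.globe j) (T3 k j h),
    (∀ (A : Alg C) (ξ : GM (T3 k (k + 1) (Nat.lt_succ_self k)) A.G),
      A.G.src k (A.op (m (k + 1) _) ξ) = A.G.src k (ξ.app _ (t1 _)) ∧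
      A.G.tgt k (A.op (m (k + 1) _) ξ) = A.G.tgt k (ξ.app _ (t3 _))) ∧
    ∀ j (h : k < j) (A : Alg C) (ξ : GM (T3 k (j + 1) (h.trans (Nat.lt_succ_self j))) A.G)
    (ξ' : GM (T3 k j h) A.G), ξ'.app _ (t1 _) = ξ.app _ (t1 _) → ξ'.app _ (t3 _) = ξ.app _ (t3 _) →
    (ξ'.app _ (t2 _) = A.G.src j (ξ.app _ (t2 _)) → A.G.src j (A.op (m (j + 1) _) ξ) = A.op (m j h) ξ') ∧
    (ξ'.app _ (t2 _) = A.G.tgt j (ξ.app _ (t2 _)) → A.G.tgt j (A.op (m (j + 1) _) ξ) = A.op (m j h) ξ') := by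
  have h0 := Nat.lt_succ_self k
  obtain ⟨m0, hm1, hm2⟩ := FA_fill hC (T := T3 k (k + 1) h0) (T3_dim h0)
    ((FA C _).G.src k ((gen C _).app _ (t1 h0))) ((FA C _).G.tgt k ((gen C _).app _ (t3 h0))) (by
      rw [bdry_tgt, ← T3_rel2, ← bdry_tgt, ← T3_rel1, bdry_face false true])
  have base : ∀ (A : Alg C) (ξ : GM (T3 k (k + 1) (Nat.lt_succ_self k)) A.G),
      A.G.src k (A.op (asOp m0) ξ) = A.G.src k (ξ.app _ (t1 _)) ∧
      A.G.tgt k (A.op (asOp m0) ξ) = A.G.tgt k (ξ.app _ (t3 _)) := by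
    intro A ξ
    rw [← lift_app, ← GMap.app_src, ← GMap.app_tgt, hm1, hm2, GMap.app_src, GMap.app_tgt,
      lift_gen_app, lift_gen_app]
    exact ⟨rfl, rfl⟩
  obtain ⟨m, e0, -, hR⟩ := exists_seq_le (n := k + 1)
    (fun j h => C.arr (Shape.globe j) (T3 k j h))
    (fun j h a => ∀ (A : Alg C) (ξ ξ' : GM (T3 k j h) A.G), ξ'.app _ (t1 _) = ξ.app _ (t1 _) →
      ξ'.app _ (t3 _) = ξ.app _ (t3 _) →
      A.G.bdry j (ξ'.app _ (t2 _)) = A.G.bdry j (ξ.app _ (t2 _)) →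
      A.G.bdry j (A.op a ξ') = A.G.bdry j (A.op a ξ))
    (fun j h a b => ∀ (A : Alg C) (ξ : GM (T3 k (j + 1) (Nat.lt_succ_of_lt h)) A.G)
      (ξ' : GM (T3 k j h) A.G), ξ'.app _ (t1 _) = ξ.app _ (t1 _) →
      ξ'.app _ (t3 _) = ξ.app _ (t3 _) →
      (ξ'.app _ (t2 _) = A.G.src j (ξ.app _ (t2 _)) → A.G.src j (A.op b ξ) = A.op a ξ') ∧
      (ξ'.app _ (t2 _) = A.G.tgt j (ξ.app _ (t2 _)) → A.G.tgt j (A.op b ξ) = A.op a ξ'))
    (asOp m0) (by
      intro A ξ ξ' e1 e3 _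
      apply sphere_ext
      · rw [lo_bdry, lo_bdry, (base A ξ).1, (base A ξ').1, e1]
      · rw [hi_bdry, hi_bdry, (base A ξ).2, (base A ξ').2, e3])
    (by
      intro j h a ha
      have h' : k < j + 1 := Nat.lt_succ_of_lt h
      obtain ⟨s, s1, s2, s3⟩ := T3_face_src h h' (gen C (T3 k (j + 1) h'))
      obtain ⟨t, r1, r2, r3⟩ := T3_face_tgt h h' (gen C (T3 k (j + 1) h'))
      obtain ⟨b, hb1, hb2⟩ := FA_fill hC (T := T3 k (j + 1) h') (T3_dim h')
        ((FA C _).op a s) ((FA C _).op a t)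
        (ha _ t s (s1.trans r1.symm) (s3.trans r3.symm) (by rw [s2, r2, bdry_tgt]))
      have R : ∀ (A : Alg C) (ξ : GM (T3 k (j + 1) h') A.G)
          (ξ' : GM (T3 k j h) A.G), ξ'.app _ (t1 _) = ξ.app _ (t1 _) →
          ξ'.app _ (t3 _) = ξ.app _ (t3 _) →
          (ξ'.app _ (t2 _) = A.G.src j (ξ.app _ (t2 _)) → A.G.src j (A.op (asOp b) ξ) = A.op a ξ') ∧
          (ξ'.app _ (t2 _) = A.G.tgt j (ξ.app _ (t2 _)) → A.G.tgt j (A.op (asOp b) ξ) = A.op a ξ') := by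
        intro A ξ ξ' e1 e3
        constructor
        · intro e2
          rw [← lift_app, ← GMap.app_src, hb1, Hom.map_op]
          congr 1
          apply T3_ext
          · rw [GMap.comp_app, s1, lift_gen_app, e1]
          · rw [GMap.comp_app, s2, GMap.app_src, lift_gen_app, e2]
          · rw [GMap.comp_app, s3, lift_gen_app, e3]
        · intro e2
          rw [← lift_app, ← GMap.app_tgt, hb2, Hom.map_op]
          congr 1
          apply T3_ext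
          · rw [GMap.comp_app, r1, lift_gen_app, e1]
          · rw [GMap.comp_app, r2, GMap.app_tgt, lift_gen_app, e2]
          · rw [GMap.comp_app, r3, lift_gen_app, e3]
      refine ⟨asOp b, fun A ξ ξ' e1 e3 e2 => ?_, R⟩
      obtain ⟨α, a1, a2, a3⟩ := T3_face_src h h' ξ
      obtain ⟨β, b1, b2, b3⟩ := T3_face_tgt h h' ξ
      apply sphere_ext
      · rw [lo_bdry, lo_bdry, (R A ξ α a1 a3).1 a2,
          (R A ξ' α (a1.trans e1.symm) (a3.trans e3.symm)).1 (a2.trans (src_eq_of_bdry e2).symm)]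
      · rw [hi_bdry, hi_bdry, (R A ξ β b1 b3).2 b2,
          (R A ξ' β (b1.trans e1.symm) (b3.trans e3.symm)).2 (b2.trans (tgt_eq_of_bdry e2).symm)])
  exact ⟨m, fun A ξ => by rw [e0]; exact base A ξ, hR⟩

theorem exists_ops (hC : Contr C) : Nonempty (Ops C) := by
  choose m hm1 hm2 using exists_m hC
  have hu : ∀ k, ∃ z : C.arr (Shape.globe (k + 1)) (Shape.globe k),
      C.seq (C.ofShape (Shape.σ k)) z = C.one _ ∧ C.seq (C.ofShape (Shape.τ k)) z = C.one _ :=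
    fun k => FA_fill hC (T := Shape.globe k) (Nat.le_succ k) (asCell (C.one _)) (asCell (C.one _)) rfl
  have hi : ∀ k, ∃ z : C.arr (Shape.globe (k + 1)) (Shape.globe (k + 1)),
      C.seq (C.ofShape (Shape.σ k)) z = C.ofShape (Shape.τ k) ∧
      C.seq (C.ofShape (Shape.τ k)) z = C.ofShape (Shape.σ k) := by
    intro k
    have := FA_fill hC (T := Shape.globe (k + 1)) le_rfl
      ((FA C _).G.tgt k (asCell (C.one _))) ((FA C _).G.src k (asCell (C.one _))) (bdry_tgt _)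
    obtain ⟨z, h1, h2⟩ := this
    exact ⟨z, h1.trans (C.seq_one _), h2.trans (C.seq_one _)⟩
  choose un hu1 hu2 using hu
  choose iv hi1 hi2 using hi
  exact ⟨⟨un, hu1, hu2, iv, hi1, hi2, m, hm1, hm2⟩⟩

namespace Ops

variable (o : Ops C) {A B : Alg C}

/-- unit cell -/
noncomputable def un {k : ℕ} (x : A.G.cell k) : A.G.cell (k + 1) := A.op (o.unit k) (single x)

/-- inverse cell -/
noncomputable def iv {k : ℕ} (x : A.G.cell (k + 1)) : A.G.cell (k + 1) := A.op (o.inv k) (single x)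

theorem src_un {k : ℕ} (x : A.G.cell k) : A.G.src k (o.un x) = x := by
  rw [un, A.src_op, o.src_unit, A.op_one]; rfl

theorem tgt_un {k : ℕ} (x : A.G.cell k) : A.G.tgt k (o.un x) = x := by
  rw [un, A.tgt_op, o.tgt_unit, A.op_one]; rfl

theorem src_iv {k : ℕ} (x : A.G.cell (k + 1)) : A.G.src k (o.iv x) = A.G.tgt k x := by
  rw [iv, A.src_op, o.src_inv, A.op_ofShape, shMap_τ_top, GMap.app_tgt]; rfl

theorem tgt_iv {k : ℕ} (x : A.G.cell (k + 1)) : A.G.tgt k (o.iv x) = A.G.src k x := by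
  rw [iv, A.tgt_op, o.tgt_inv, A.op_ofShape, shMap_σ_top, GMap.app_src]; rfl

theorem map_un (f : Hom A B) {k : ℕ} (x : A.G.cell k) :
    f.g.app _ (o.un x) = o.un (f.g.app k x) := by
  rw [un, f.map_op, single_comp]; rfl

theorem map_iv (f : Hom A B) {k : ℕ} (x : A.G.cell (k + 1)) :
    f.g.app _ (o.iv x) = o.iv (f.g.app _ x) := by
  rw [iv, f.map_op, single_comp]; rfl

open Classical in
/-- ternary whiskering -/
noncomputable def mul (k : ℕ) (u v : A.G.cell (k + 1)) : CellFun A.G := fun j x =>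
  if h : ∃ h : k < j, face A.G false h x = A.G.tgt k u ∧ face A.G true h x = A.G.src k v then
    A.op (o.m k j h.1) (T3_exists h.1 u x v h.2.1 h.2.2).choose
  else x

theorem mul_eq {k j : ℕ} (h : k < j) (ξ : GM (T3 k j h) A.G) :
    o.mul k (ξ.app _ (t1 h)) (ξ.app _ (t3 h)) j (ξ.app _ (t2 h)) = A.op (o.m k j h) ξ := by
  have h' : ∃ h' : k < j, face A.G false h' (ξ.app _ (t2 h)) = A.G.tgt k (ξ.app _ (t1 h)) ∧
    face A.G true h' (ξ.app _ (t2 h)) = A.G.src k (ξ.app _ (t3 h)) := ⟨h, T3_rel1 h ξ, T3_rel2 h ξ⟩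
  rw [mul, dif_pos h']
  congr 1
  obtain ⟨e1, e2, e3⟩ := (T3_exists h'.1 _ _ _ h'.2.1 h'.2.2).choose_spec
  exact T3_ext _ e1 e2 e3

theorem exists_triple {G : GlobSet.{v}} {k : ℕ} {u v : G.cell (k + 1)} {γ : G.Sphere (k + 1)}
    (h1 : lo γ = G.tgt k u) (h2 : hi γ = G.src k v) {j : ℕ} {x : G.cell j} (hx : Over γ j x)
    (h : k < j) :
    ∃ ξ : GM (T3 k j h) G, ξ.app _ (t1 h) = u ∧ ξ.app _ (t2 h) = x ∧ ξ.app _ (t3 h) = v :=
  T3_exists h u x v ((hx.face h).1.trans h1) ((hx.face h).2.trans h2)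

theorem mul_hom {k : ℕ} (u v : A.G.cell (k + 1)) (γ γ' : A.G.Sphere (k + 1))
    (h1 : lo γ = A.G.tgt k u) (h2 : hi γ = A.G.src k v) (h3 : lo γ' = A.G.src k u)
    (h4 : hi γ' = A.G.tgt k v) : HomMap (o.mul k u v) γ γ' := by
  refine ⟨fun x hx => ?_, fun j x hx => ?_, fun j x hx => ?_⟩
  · obtain ⟨ξ, rfl, rfl, rfl⟩ := exists_triple h1 h2 (.base _ hx) (Nat.lt_succ_self k)
    rw [mul_eq]
    exact sphere_ext ((o.m_base k A ξ).1.trans h3.symm) ((o.m_base k A ξ).2.trans h4.symm)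
  · have h : k < j := hx.le
    obtain ⟨ξ, rfl, rfl, rfl⟩ := exists_triple h1 h2 (.step _ _ hx) (Nat.lt_succ_of_lt h)
    obtain ⟨α, a1, a2, a3⟩ := T3_face_src h (Nat.lt_succ_of_lt h) ξ
    rw [mul_eq, (o.m_step k j h A ξ α a1 a3).1 a2, ← a1, ← a2, ← a3, mul_eq]
  · have h : k < j := hx.le
    obtain ⟨ξ, rfl, rfl, rfl⟩ := exists_triple h1 h2 (.step _ _ hx) (Nat.lt_succ_of_lt h)
    obtain ⟨α, a1, a2, a3⟩ := T3_face_tgt h (Nat.lt_succ_of_lt h) ξ
    rw [mul_eq, (o.m_step k j h A ξ α a1 a3).2 a2, ← a1, ← a2, ← a3, mul_eq]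

theorem map_mul (f : Hom A B) {k : ℕ} (u v : A.G.cell (k + 1)) (γ : A.G.Sphere (k + 1))
    (h1 : lo γ = A.G.tgt k u) (h2 : hi γ = A.G.src k v) {j : ℕ} {x : A.G.cell j}
    (hx : Over γ j x) :
    f.g.app j (o.mul k u v j x) = o.mul k (f.g.app _ u) (f.g.app _ v) j (f.g.app j x) := by
  have h : k < j := hx.le
  obtain ⟨ξ, rfl, rfl, rfl⟩ := exists_triple h1 h2 hx h
  rw [mul_eq, f.map_op, ← mul_eq]
  rfl

theorem par_of_comp {G : GlobSet.{v}} {k : ℕ} {u x v : G.cell (k + 1)}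
    (h1 : G.src k x = G.tgt k u) (h2 : G.tgt k x = G.src k v) :
    G.bdry k (G.src k u) = G.bdry k (G.tgt k v) := by
  rw [bdry_tgt, ← h2, bdry_tgt, h1, bdry_tgt]

theorem mul_hom' {k : ℕ} {u x v : A.G.cell (k + 1)} (h1 : A.G.src k x = A.G.tgt k u)
    (h2 : A.G.tgt k x = A.G.src k v) :
    HomMap (o.mul k u v) (A.G.bdry _ x) (mkS _ _ (par_of_comp h1 h2)) :=
  o.mul_hom u v _ _ h1 h2 rfl rfl

theorem src_mul {k : ℕ} {u x v : A.G.cell (k + 1)} (h1 : A.G.src k x = A.G.tgt k u)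
    (h2 : A.G.tgt k x = A.G.src k v) : A.G.src k (o.mul k u v (k + 1) x) = A.G.src k u :=
  congrArg lo ((o.mul_hom' h1 h2).base x rfl)

theorem tgt_mul {k : ℕ} {u x v : A.G.cell (k + 1)} (h1 : A.G.src k x = A.G.tgt k u)
    (h2 : A.G.tgt k x = A.G.src k v) : A.G.tgt k (o.mul k u v (k + 1) x) = A.G.tgt k v :=
  congrArg hi ((o.mul_hom' h1 h2).base x rfl)

theorem map_mul' (f : Hom A B) {k : ℕ} {u x v : A.G.cell (k + 1)} (h1 : A.G.src k x = A.G.tgt k u)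
    (h2 : A.G.tgt k x = A.G.src k v) :
    f.g.app _ (o.mul k u v (k + 1) x) = o.mul k (f.g.app _ u) (f.g.app _ v) _ (f.g.app _ x) :=
  o.map_mul f u v (A.G.bdry _ x) h1 h2 (.base _ rfl)

include o in
theorem gpd (A : Alg C) : Gpd A.G where
  refl _ x := ⟨o.un x, o.src_un x, o.tgt_un x⟩
  symm := by
    rintro k _ _ ⟨c, rfl, rfl⟩
    exact ⟨o.iv c, o.src_iv c, o.tgt_iv c⟩
  trans := by
    rintro k _ _ _ ⟨c, rfl, rfl⟩ ⟨d, hd, rfl⟩
    exact ⟨o.mul k c (o.un (A.G.tgt k d)) (k + 1) d, o.src_mul hd (o.src_un _).symm,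
      (o.tgt_mul hd (o.src_un _).symm).trans (o.tgt_un _)⟩

/-- an algebra as a globular set with conjugations -/
@[reducible] noncomputable def wg (A : Alg C) : WG.{u} where
  G := A.G
  cj k u v := o.mul k (o.iv u) v
  cj_hom _ u v γ γ' h1 h2 h3 h4 :=
    o.mul_hom _ v γ γ' (h1.trans (o.tgt_iv u).symm) h2 (h3.trans (o.src_iv u).symm) h4

/-- a map of algebras preserves conjugations -/
@[reducible] noncomputable def wm (f : Hom A B) : WMap (o.wg A) (o.wg B) where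
  g := f.g
  map_cj _ u v γ h1 h2 _ _ hx := by
    refine (o.map_mul f _ v γ (h1.trans (o.tgt_iv u).symm) h2 hx).trans ?_
    rw [o.map_iv]

end Ops

end Crest.Agent.R248
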